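import Vale.Agent.P091K.Stm

namespace Vale.Agent.P091K

open MeasureTheory Real Filter Topology Vale.Agent.P091

namespace AbelAux

theorem E_pow (k : ℕ) (u : ℝ) : E k u = E 1 u ^ k := by
  induction k with
  | zero => simp [E_zero]
  | succ k ih =>
    rw [pow_succ, ← ih, ← E_add]
    push_cast
    rfl

theorem ident (z : ℂ) (N : ℕ) :
    (z - 1) ^ 2 * ∑ k ∈ Finset.range N, (k : ℂ) * z ^ k =
      N * z ^ N * (z - 1) - z * (z ^ N - 1) := by
  induction N with
  | zero => simp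
  | succ N ih =>
    rw [Finset.sum_range_succ, mul_add, ih]
    push_cast
    ring

end AbelAux

theorem abel_pf : AbelStmt := by
  intro M N u hM hN hz
  have hM0 : (0 : ℝ) < M := by exact_mod_cast hM
  have hMc : (M : ℂ) ≠ 0 := by exact_mod_cast hM0.ne'
  have hz1 : E 1 u - 1 ≠ 0 := sub_ne_zero.mpr hz
  have h1 : (∑ k ∈ Finset.range (2 * M + 1),
      if (k : ℤ) < (N : ℤ) then (kp M k : ℂ) * E k u else 0)
      = (1 / M : ℂ) * ∑ k ∈ Finset.range N, (k : ℂ) * E 1 u ^ k := by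
    rw [← Finset.sum_filter, Finset.mul_sum]
    have hf : (Finset.range (2 * M + 1)).filter (fun k : ℕ => (k : ℤ) < (N : ℤ))
        = Finset.range N := by
      ext k
      simp only [Finset.mem_filter, Finset.mem_range]
      omega
    rw [hf]
    refine Finset.sum_congr rfl fun k hk => ?_
    have hk1 : (k : ℝ) ≤ M := by
      have := Finset.mem_range.mp hk
      exact_mod_cast (by omega : k ≤ M)
    have hk2 : kp M k = k / M := by
      unfold kp
      rw [abs_of_nonpos (by linarith)]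
      field_simp
      ring
    rw [hk2, AbelAux.E_pow]
    push_cast
    ring
  have h2 : ∑ k ∈ Finset.range N, (k : ℂ) * E 1 u ^ k =
      (N * E 1 u ^ N * (E 1 u - 1) - E 1 u * (E 1 u ^ N - 1)) / (E 1 u - 1) ^ 2 := by
    rw [← AbelAux.ident]
    field_simp
  have h3 : (1 / M : ℂ) * ∑ k ∈ Finset.range N, (k : ℂ) * E 1 u ^ k -
      (((N : ℝ) / M : ℝ) : ℂ) * (E N u / (E 1 u - 1))
      = -(E 1 u * (E 1 u ^ N - 1)) / (M * (E 1 u - 1) ^ 2) := by
    rw [h2, AbelAux.E_pow N u]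
    push_cast
    field_simp
    ring
  rw [h1, h3, norm_div, norm_neg, norm_mul, norm_mul, norm_pow, norm_E, one_mul,
    Complex.norm_natCast]
  have h4 : ‖E 1 u ^ N - 1‖ ≤ 2 := by
    calc ‖E 1 u ^ N - 1‖ ≤ ‖E 1 u ^ N‖ + ‖(1 : ℂ)‖ := norm_sub_le _ _
      _ = 2 := by rw [norm_pow, norm_E, one_pow, norm_one]; norm_num
  gcongr

end Vale.Agent.P091K
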