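import Vale.Agent.P091K.Stm

namespace Vale.Agent.P091K

open MeasureTheory Real Filter Topology Vale.Agent.P091

namespace AlignAux

noncomputable def vv (st : ℝ → ℕ → Blk) : ℕ → ℝ
  | 0 => 0
  | r + 1 => vv st r + nm (st (vv st r) r).c

theorem vv_eq (st : ℝ → ℕ → Blk) (r : ℕ) :
    vv st r = ∑ s ∈ Finset.range r, nm (st (vv st s) s).c := by
  induction r with
  | zero => simp [vv]
  | succ r ih => rw [Finset.sum_range_succ, ← ih, vv]

end AlignAux

theorem align_pf : AlignStmt := by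
  intro x d Q hQ
  obtain ⟨q, h0, h1, h2⟩ := Real.exists_nat_abs_mul_sub_round_le ((d : ℝ) * x / (2 * π)) hQ
  refine ⟨q, h0, h1, ?_⟩
  have hπ := Real.pi_pos
  set ξ : ℝ := (d : ℝ) * x / (2 * π) with hξ
  set m : ℤ := round ((q : ℝ) * ξ) with hm
  have e : E (q * d) x = Complex.exp (Complex.I * ((2 * π * ((q : ℝ) * ξ - m) : ℝ) : ℂ)) := by
    have e1 : (((q : ℤ) * d : ℤ) : ℂ) * (x : ℂ) * Complex.I =
        Complex.I * ((2 * π * ((q : ℝ) * ξ - m) : ℝ) : ℂ) + (m : ℂ) * (2 * π * Complex.I) := by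
      have e2 : 2 * π * ((q : ℝ) * ξ - m) = q * d * x - m * (2 * π) := by
        rw [hξ]
        field_simp
      rw [e2]
      push_cast
      ring
    unfold E
    rw [e1, Complex.exp_add, Complex.exp_int_mul_two_pi_mul_I, mul_one]
  rw [e]
  refine Real.norm_exp_I_mul_ofReal_sub_one_le.trans ?_
  rw [Real.norm_eq_abs, abs_mul, abs_of_pos (by positivity : 0 < 2 * π)]
  have hQ' : (0 : ℝ) < Q := by exact_mod_cast hQ
  have h3 : 1 / ((Q : ℝ) + 1) ≤ 1 / Q := one_div_le_one_div_of_le hQ' (by linarith)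
  have h4 : 2 * π ≤ 7 := by linarith [Real.pi_lt_d2]
  calc 2 * π * |(q : ℝ) * ξ - m| ≤ 7 * (1 / Q) :=
        mul_le_mul h4 (h2.trans h3) (abs_nonneg _) (by norm_num)
    _ = 7 / Q := by ring

theorem seqK_pf (h : SupStmt) : SeqKStmt := by
  have h1 : ∀ (V : ℝ) (r : ℕ), ∃ b : Blk, Bk |V| ((1 / 2) ^ r) r b := fun V r =>
    h |V| ((1 / 2) ^ r) r (abs_nonneg V) (by positivity)
  choose st hst using h1
  refine ⟨fun r => st (AlignAux.vv st r) r, fun r => ?_⟩
  have h2 := hst (AlignAux.vv st r) r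
  have h3 : |AlignAux.vv st r| = ∑ s ∈ Finset.range r, nm (st (AlignAux.vv st s) s).c := by
    rw [AlignAux.vv_eq st r]
    exact abs_of_nonneg (Finset.sum_nonneg fun s _ => nm_nonneg _)
  rw [h3] at h2
  exact h2

end Vale.Agent.P091K
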