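import Vale.Agent.P091K.Stm

namespace Vale.Agent.P091K

open MeasureTheory Real Filter Topology Vale.Agent.P091

namespace AtNumAux

theorem two_pow (a : ℕ) : ((2 ^ a : ℕ) : ℝ) ≤ Real.exp a := by
  rw [Nat.cast_pow, Nat.cast_ofNat, ← Real.exp_one_pow]
  exact pow_le_pow_left₀ zero_le_two (by linarith [Real.add_one_le_exp 1]) a

theorem mm_le (D W : ℕ) (ω : ℕ × ℕ → ℕ) (hω : ∀ k a, k ≤ D → ω (k, a) < W) (j : ℕ) :
    MM D (5 * D + 2) ω j + (2 ^ D) ^ 2 ≤ 2 ^ (6 * D + 3 + W) := by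
  unfold MM
  have h1 : ∑ k ∈ Finset.Icc 1 D, 2 ^ (5 * D + 2 + ω (k, j / 2 ^ k)) ≤
      (Finset.Icc 1 D).card • 2 ^ (5 * D + 2 + W) := by
    refine Finset.sum_le_card_nsmul _ _ _ fun k hk => ?_
    exact Nat.pow_le_pow_right (by norm_num)
      (by have := hω k (j / 2 ^ k) (Finset.mem_Icc.1 hk).2; omega)
  rw [Nat.card_Icc, smul_eq_mul] at h1
  have h2 : D + 1 - 1 ≤ 2 ^ D := by
    have := @Nat.lt_two_pow_self D
    omega
  have h3 : (D + 1 - 1) * 2 ^ (5 * D + 2 + W) ≤ 2 ^ D * 2 ^ (5 * D + 2 + W) :=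
    Nat.mul_le_mul_right _ h2
  rw [← pow_add, show D + (5 * D + 2 + W) = 6 * D + 2 + W by ring] at h3
  have h4 : (2 ^ D) ^ 2 ≤ 2 ^ (6 * D + 2 + W) := by
    rw [← pow_mul]
    exact Nat.pow_le_pow_right (by norm_num) (by omega)
  rw [show 6 * D + 3 + W = 6 * D + 2 + W + 1 by ring, pow_succ 2 (6 * D + 2 + W)]
  omega

theorem bit_le (k j : ℕ) : 0 ≤ (bit k j : ℝ) ∧ (bit k j : ℝ) ≤ 1 := by
  refine ⟨by positivity, ?_⟩
  have : bit k j ≤ 1 := by unfold bit; omega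
  exact_mod_cast this

theorem ss_le (D : ℕ) (ω : ℕ × ℕ → ℕ) (j : ℕ) :
    |ss D (5 * D + 2) ω j| ≤ 1 / (8 * ((2 : ℝ) ^ D) ^ 4) := by
  unfold ss
  have h1 : |∑ k ∈ Finset.Icc 1 D,
      ((bit (k - 1) j : ℝ) - (bit k j : ℝ)) / 2 ^ (5 * D + 2 + ω (k, j / 2 ^ k))| ≤
      (Finset.Icc 1 D).card • ((1 : ℝ) / 2 ^ (5 * D + 2)) := by
    refine (Finset.abs_sum_le_sum_abs _ _).trans ?_
    refine Finset.sum_le_card_nsmul _ _ _ fun k _ => ?_
    rw [abs_div, abs_of_pos (by positivity : (0 : ℝ) < 2 ^ (5 * D + 2 + ω (k, j / 2 ^ k)))]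
    have ha := bit_le (k - 1) j
    have hb := bit_le k j
    refine div_le_div₀ (by norm_num) (abs_le.2 ⟨by linarith, by linarith⟩) (by positivity) ?_
    exact pow_le_pow_right₀ (by norm_num) (by omega)
  rw [Nat.card_Icc, nsmul_eq_mul] at h1
  have h2 : ((D + 1 - 1 : ℕ) : ℝ) ≤ 2 ^ D := by
    have : D + 1 - 1 ≤ 2 ^ D := by
      have := @Nat.lt_two_pow_self D
      omega
    exact_mod_cast this
  have h3 : ((D + 1 - 1 : ℕ) : ℝ) * ((1 : ℝ) / 2 ^ (5 * D + 2)) ≤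
      2 * (1 / (8 * ((2 : ℝ) ^ D) ^ 4)) := by
    calc ((D + 1 - 1 : ℕ) : ℝ) * ((1 : ℝ) / 2 ^ (5 * D + 2))
        ≤ 2 ^ D * ((1 : ℝ) / 2 ^ (5 * D + 2)) := mul_le_mul_of_nonneg_right h2 (by positivity)
      _ = _ := by
        rw [pow_add, mul_comm 5 D, pow_mul]
        have : (0 : ℝ) < 2 ^ D := by positivity
        generalize (2 : ℝ) ^ D = t at this
        field_simp
        norm_num
  rw [abs_mul, abs_of_pos (by norm_num : (0 : ℝ) < 1 / 2)]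
  linarith

theorem arith (R K D : ℕ) (hD : 4 ≤ D) (h : R * (K + 1) ≤ D) :
    (7 * D + 5 + 8000000 * (K + 1) * (D + 1)) * R ≤ 16000000 * D ^ 2 := by
  have h1 : R ≤ D := by nlinarith [Nat.zero_le (R * K)]
  have h2 : (7 * D + 5) * R ≤ (7 * D + 5) * D := Nat.mul_le_mul_left _ h1
  have h3 : (D + 1) * (R * (K + 1)) ≤ (D + 1) * D := Nat.mul_le_mul_left _ h
  have h4 : 4 * D ≤ D * D := Nat.mul_le_mul_right _ hD
  have h5 : (7 * D + 5 + 8000000 * (K + 1) * (D + 1)) * R =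
      (7 * D + 5) * R + 8000000 * ((D + 1) * (R * (K + 1))) := by ring
  have h6 : (7 * D + 5) * D = 7 * (D * D) + 5 * D := by ring
  have h7 : (D + 1) * D = D * D + D := by ring
  rw [h5, pow_two]
  omega

theorem last (R D W : ℕ) (hR : 1 ≤ R) (h : (7 * D + 5 + W) * R ≤ 16000000 * D ^ 2) :
    2 * ((2 * (2 ^ D * 2 ^ (6 * D + 3 + W)) : ℕ) : ℝ) ≤
      Real.exp (16000000 * (D : ℝ) ^ 2 / R) := by
  have h1 : 2 * ((2 * (2 ^ D * 2 ^ (6 * D + 3 + W)) : ℕ) : ℝ) =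
      ((2 ^ (7 * D + 5 + W) : ℕ) : ℝ) := by
    rw [show 7 * D + 5 + W = D + (6 * D + 3 + W) + 1 + 1 by ring, pow_succ, pow_succ, pow_add 2 D]
    push_cast
    ring
  rw [h1]
  refine (two_pow _).trans (Real.exp_le_exp.2 ?_)
  have hR' : (0 : ℝ) < R := by exact_mod_cast hR
  rw [le_div_iff₀ hR']
  exact_mod_cast h

end AtNumAux

theorem atNum_pf : AtNumStmt := fun R K D ω hR hD hRK hω =>
  ⟨AtNumAux.mm_le D _ ω hω,
    fun _ => Finset.dvd_sum fun _ _ => pow_dvd_pow _ (Nat.le_add_right _ _), AtNumAux.ss_le D ω,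
    AtNumAux.last R D _ hR (AtNumAux.arith R K D hD hRK)⟩

end Vale.Agent.P091K
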