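import Vale.Agent.P091K.Stm

namespace Vale.Agent.P091K

open MeasureTheory Real Filter Topology Vale.Agent.P091

namespace AtomKAux

theorem win {n X M t : ℤ} (hn : 1 ≤ n) (hX : 2 * n ^ 3 ≤ X) (hM0 : 0 ≤ M) (hM : M + n ^ 2 ≤ X)
    (ht : |t| ≤ n ^ 2) : 0 ≤ n * X + n * (M + t) ∧ 2 * (n * X) ≤ 4 * (n * X + n * (M + t)) ∧
      n * X + n * (M + t) ≤ 2 * (n * X) := by
  obtain ⟨t1, t2⟩ := abs_le.mp ht
  have h1 : n ^ 2 ≤ n ^ 3 := pow_le_pow_right₀ hn (by norm_num)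
  have h2 : 0 ≤ n ^ 2 := sq_nonneg n
  have h3 : 0 ≤ n * (X + 2 * (M + t)) := mul_nonneg (by omega) (by linarith)
  have h4 : 0 ≤ n * (X - (M + t)) := mul_nonneg (by omega) (by linarith)
  have h5 : 0 ≤ n * X := mul_nonneg (by omega) (by linarith)
  refine ⟨by linarith, by linarith, by linarith⟩

theorem ends {n X M : ℤ} (hn : 1 ≤ n) (hX : 2 * n ^ 3 ≤ X) (hM0 : 0 ≤ M) (hM : M + n ^ 2 ≤ X) :
    n ^ 3 ≤ n * X + n * M ∧ n * X + n * M + n ^ 3 ≤ 2 * (2 * (n * X)) := by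
  have h0 : 0 ≤ n ^ 3 := by positivity
  have h1 : 0 ≤ (n - 1) * X := mul_nonneg (by omega) (by linarith)
  have h2 : 0 ≤ n * M := mul_nonneg (by omega) hM0
  have h3 : 0 ≤ n * (X - (M + n ^ 2)) := mul_nonneg (by omega) (by linarith)
  constructor <;> nlinarith

theorem sep {n W A a b : ℤ} (hn : 1 ≤ n) (hW : 2 * n ^ 3 ≤ W) (ha : W ∣ a) (hb : W ∣ b)
    (h : A + n * a ≠ A + n * b) : 2 * n ^ 3 ≤ |A + n * a - (A + n * b)| := by
  have h1 : a - b ≠ 0 := fun e => h (by rw [sub_eq_zero.mp e])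
  have h2 : W ≤ |a - b| := Int.le_of_dvd (abs_pos.mpr h1) ((dvd_abs _ _).mpr (ha.sub hb))
  have h3 : A + n * a - (A + n * b) = n * (a - b) := by ring
  rw [h3, abs_mul, abs_of_nonneg (by omega : 0 ≤ n)]
  have h4 : 0 ≤ (n - 1) * |a - b| := mul_nonneg (by omega) (abs_nonneg _)
  linarith

theorem cube {D e : ℕ} (h : 3 * D + 1 ≤ e) : 2 * (2 ^ D) ^ 3 ≤ 2 ^ e := by
  rw [← pow_mul, ← pow_succ']
  exact Nat.pow_le_pow_right (by norm_num) (by omega)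

end AtomKAux

open AtomKAux

theorem atomK_pf (h1 : CanAStmt) (h2 : CanSStmt) (h3 : ErrKStmt) (h4 : GkNStmt) (h5 : LowKStmt)
    (h6 : PAvgStmt) (h7 : AtNumStmt) : AtomKStmt := by
  intro R K hR hRK
  obtain ⟨c1, c2⟩ := h1 R K hR (hR.trans hRK)
  obtain ⟨ω, w1, w2⟩ := h3 R K (5 * DD R K + 2) (CC R K) hRK ⟨c1, c2, h2 R K⟩
  have hD : 4 ≤ DD R K := by
    have : 1 * 2 ≤ R * (K + 1) := Nat.mul_le_mul hR (by omega)
    unfold DD
    omega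
  obtain ⟨n1, n2, n3, n4⟩ := h7 R K (DD R K) ω hR hD (by unfold DD; omega) w1
  have hX : 2 * (2 ^ DD R K) ^ 3 ≤ 2 ^ Ex K (DD R K) := cube (by unfold Ex; omega)
  have hW : 2 * (2 ^ DD R K) ^ 3 ≤ 2 ^ (5 * DD R K + 2) := cube (by omega)
  generalize CC R K = C at c1 c2 w2
  generalize DD R K = D at *
  generalize 2 ^ Ex K D = X at n1 n4 hX
  generalize MM D (5 * D + 2) ω = M at n1 n2 w2
  generalize ss D (5 * D + 2) ω = s at n3 w2
  have hn : 0 < 2 ^ D := Nat.two_pow_pos D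
  have hc : 0 < C.card := by
    rcases Nat.eq_zero_or_pos C.card with h | h
    · rw [h] at c1
      omega
    · exact h
  have hX0 : 0 < X := lt_of_lt_of_le (by positivity) hX
  have hnZ : (1 : ℤ) ≤ 2 ^ D := one_le_pow₀ (by norm_num)
  have hXZ : 2 * ((2 : ℤ) ^ D) ^ 3 ≤ X := by exact_mod_cast hX
  have hWZ : 2 * ((2 : ℤ) ^ D) ^ 3 ≤ 2 ^ (5 * D + 2) := by exact_mod_cast hW
  have hMZ : ∀ j, (M j : ℤ) + (2 ^ D) ^ 2 ≤ X := fun j => by exact_mod_cast n1 j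
  obtain ⟨g1, g2, g3⟩ := h4 (2 * (2 ^ D * X)) (2 ^ D * X) C (fun j => 2 * π * (j + s j) / 2 ^ D)
    (by have := Nat.mul_pos hn hX0; omega) (Finset.card_pos.mp hc)
  obtain ⟨p1, p2⟩ := h6 R D C (by omega) c1 fun j hj => by have := (c2 j hj).2; omega
  refine ⟨⟨gk (2 * (2 ^ D * X)) (2 ^ D * X) C (fun j => 2 * π * (j + s j) / 2 ^ D),
    fun j => 2 ^ D * X + 2 ^ D * M j, PP D C, fun j => QQ D C (M j) s j,
    ((2 * (2 ^ D * X) : ℕ) : ℝ), 2 * (2 * (2 ^ D * X))⟩, ?_, fun j => ?_, fun i j hij => ?_, g2, ?_,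
    n4, g3, fun j hj => ⟨(p1 j hj).1, (p1 j hj).2, ?_⟩, p2, ?_, ?_⟩
  · have e : ((2 * (2 * (2 ^ D * X)) : ℕ) : ℤ) = 2 * ((2 * (2 ^ D * X) : ℕ) : ℤ) := by
      push_cast
      ring
    show Sup _ 0 ((2 * (2 * (2 ^ D * X)) : ℕ) : ℤ)
    rw [e]
    exact g1
  · have := ends hnZ hXZ (Int.natCast_nonneg (M j)) (hMZ j)
    exact ⟨this.1, by push_cast; exact this.2⟩
  · exact sep hnZ hWZ (by exact_mod_cast n2 i) (by exact_mod_cast n2 j) hij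
  · have : 2 ^ D ≤ 2 * (2 ^ D * X) := by nlinarith
    show (2 : ℝ) ^ D ≤ ((2 * (2 ^ D * X) : ℕ) : ℝ)
    exact_mod_cast this
  · unfold QQ dev
    positivity
  · have hc' : (0 : ℝ) < C.card := by exact_mod_cast hc
    simp only [QQ]
    rw [← Finset.mul_sum]
    refine (mul_le_mul_of_nonneg_left w2 (by positivity)).trans (le_of_eq ?_)
    field_simp
  · intro η y j0 t a1 a2 a3 a4 a5
    obtain ⟨b1, b2, b3⟩ := win hnZ hXZ (Int.natCast_nonneg (M j0)) (hMZ j0) a5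
    obtain ⟨N, hN⟩ := Int.eq_ofNat_of_zero_le b1
    have e : (2 : ℤ) ^ D * X + 2 ^ D * M j0 + 2 ^ D * t = N := by
      rw [← hN]
      ring
    rw [hN] at b2 b3
    have key := h5 R D (M j0) j0 N (2 * (2 ^ D * X)) (2 ^ D * X) C s η y t (by omega) c1 c2 a4 a1
      a2 a3 n3 a5 hN.symm (by exact_mod_cast b2) (by exact_mod_cast b3)
      (by have := Nat.mul_le_mul_left (2 * 2 ^ D) hX; nlinarith)
    show _ ≤ gn (2 ^ D * X + 2 ^ D * M j0 + 2 ^ D * t) _ _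
    rw [e]
    exact key

end Vale.Agent.P091K
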