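import Vale.Agent.P091.StmE

namespace Vale.Agent.P091K

open MeasureTheory Real Filter Topology Vale.Agent.P091

noncomputable def E (k : ℤ) (x : ℝ) : ℂ := Complex.exp ((k : ℂ) * (x : ℂ) * Complex.I)

abbrev TP := ℤ →₀ ℂ

/-- value of a trigonometric polynomial -/
noncomputable def ev (x : ℝ) : TP →ₗ[ℂ] ℂ := Finsupp.linearCombination ℂ fun k => E k x

/-- sum of the terms of frequency below `N` -/
noncomputable def ps (N : ℤ) (x : ℝ) : TP →ₗ[ℂ] ℂ :=
  Finsupp.linearCombination ℂ fun k => if k < N then E k x else 0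

/-- sum of the moduli of the coefficients -/
noncomputable def nm (c : TP) : ℝ := ∑ k ∈ c.support, ‖c k‖

/-- real part of the partial sum after removing its phase -/
noncomputable def gn (N : ℤ) (x : ℝ) (c : TP) : ℝ := (Complex.I * E (-N) x * ps N x c).re

noncomputable def LI (W : ℝ → ℝ) : ENNReal := ∫⁻ x in Set.Ioc 0 (2 * π), ENNReal.ofReal (W x)

noncomputable def Ph (u : ℝ) : ℝ := u * √(Real.log (3 + u))

def Sup (c : TP) (a b : ℤ) : Prop := ∀ k ∈ c.support, a ≤ k ∧ k ≤ b

theorem norm_E (k : ℤ) (x : ℝ) : ‖E k x‖ = 1 := norm_exp_pos k x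

theorem E_add (k l : ℤ) (x : ℝ) : E (k + l) x = E k x * E l x := by
  unfold E; rw [← Complex.exp_add]; congr 1; push_cast; ring

theorem E_add' (k : ℤ) (x y : ℝ) : E k (x + y) = E k x * E k y := by
  unfold E; rw [← Complex.exp_add]; congr 1; push_cast; ring

theorem E_sub' (k : ℤ) (x y : ℝ) : E k (x - y) = E k x * E (-k) y := by
  unfold E; rw [← Complex.exp_add]; congr 1; push_cast; ring

theorem E_mul (k l : ℤ) (x : ℝ) : E (l * k) x = E k (l * x) := by
  unfold E; congr 1; push_cast; ring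

theorem E_zero (x : ℝ) : E 0 x = 1 := by simp [E]

theorem E_neg_mul (k : ℤ) (x : ℝ) : E (-k) x * E k x = 1 := by
  rw [← E_add, neg_add_cancel, E_zero]

theorem E_per (k m : ℤ) (x : ℝ) : E k (x + m * (2 * π)) = E k x := by
  unfold E
  have : (k : ℂ) * ((x + m * (2 * π) : ℝ) : ℂ) * Complex.I
      = (k : ℂ) * (x : ℂ) * Complex.I + ((k * m : ℤ) : ℂ) * (2 * π * Complex.I) := by
    push_cast; ring
  rw [this, Complex.exp_add, Complex.exp_int_mul_two_pi_mul_I, mul_one]

theorem E_cont (k : ℤ) : Continuous (E k) := by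
  unfold E; fun_prop

theorem ev_single (x : ℝ) (k : ℤ) (a : ℂ) : ev x (Finsupp.single k a) = a * E k x := by
  simp [ev]

theorem ps_single (N : ℤ) (x : ℝ) (k : ℤ) (a : ℂ) :
    ps N x (Finsupp.single k a) = if k < N then a * E k x else 0 := by
  simp [ps]

theorem ev_eq (x : ℝ) (c : TP) : ev x c = ∑ k ∈ c.support, c k * E k x := by
  simp [ev, Finsupp.linearCombination_apply, Finsupp.sum]

theorem ps_eq (N : ℤ) (x : ℝ) (c : TP) :
    ps N x c = ∑ k ∈ c.support, if k < N then c k * E k x else 0 := by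
  simp [ps, Finsupp.linearCombination_apply, Finsupp.sum]

theorem nm_nonneg (c : TP) : 0 ≤ nm c := Finset.sum_nonneg fun _ _ => norm_nonneg _

theorem norm_ev_le (x : ℝ) (c : TP) : ‖ev x c‖ ≤ nm c := by
  rw [ev_eq]
  refine (norm_sum_le _ _).trans (le_of_eq (Finset.sum_congr rfl fun k _ => ?_))
  rw [norm_mul, norm_E, mul_one]

theorem norm_ps_le (N : ℤ) (x : ℝ) (c : TP) : ‖ps N x c‖ ≤ nm c := by
  rw [ps_eq]
  refine (norm_sum_le _ _).trans (Finset.sum_le_sum fun k _ => ?_)
  split_ifs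
  · rw [norm_mul, norm_E, mul_one]
  · simp

theorem ev_cont (c : TP) : Continuous fun x => ev x c := by
  simp only [ev_eq]
  exact continuous_finset_sum _ fun k _ => continuous_const.mul (E_cont k)

theorem ev_per (c : TP) (x : ℝ) (m : ℤ) : ev (x + m * (2 * π)) c = ev x c := by
  simp only [ev_eq, E_per]

theorem ps_per (N : ℤ) (c : TP) (x : ℝ) (m : ℤ) : ps N (x + m * (2 * π)) c = ps N x c := by
  simp only [ps_eq, E_per]

theorem gn_per (N : ℤ) (c : TP) (x : ℝ) (m : ℤ) : gn N (x + m * (2 * π)) c = gn N x c := by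
  simp only [gn, ps_per, E_per]

theorem ps_low {c : TP} {a b N : ℤ} (h : Sup c a b) (hN : N ≤ a) (x : ℝ) : ps N x c = 0 := by
  rw [ps_eq]
  exact Finset.sum_eq_zero fun k hk => if_neg (by have := (h k hk).1; omega)

theorem ps_high {c : TP} {a b N : ℤ} (h : Sup c a b) (hN : b < N) (x : ℝ) : ps N x c = ev x c := by
  rw [ps_eq, ev_eq]
  exact Finset.sum_congr rfl fun k hk => if_pos (by have := (h k hk).2; omega)

theorem gn_le (N : ℤ) (x : ℝ) (c : TP) : gn N x c ≤ ‖ps N x c‖ := by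
  refine (Complex.re_le_norm _).trans (le_of_eq ?_)
  rw [norm_mul, norm_mul, Complex.norm_I, norm_E, one_mul, one_mul]

theorem gn_add_smul (N : ℤ) (x : ℝ) (c g : TP) (a : ℝ) :
    gn N x (c + (a : ℂ) • g) = gn N x c + a * gn N x g := by
  simp only [gn, map_add, map_smul, smul_eq_mul, mul_add, Complex.add_re]
  congr 1
  rw [show Complex.I * E (-N) x * ((a : ℂ) * ps N x g)
    = (a : ℂ) * (Complex.I * E (-N) x * ps N x g) by ring, Complex.re_ofReal_mul]

theorem sup_single {k a b : ℤ} (z : ℂ) (h1 : a ≤ k) (h2 : k ≤ b) : Sup (Finsupp.single k z) a b := by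
  intro l hl
  have := Finset.mem_singleton.1 (Finsupp.support_single_subset hl)
  omega

theorem sup_add {c d : TP} {a b : ℤ} (h1 : Sup c a b) (h2 : Sup d a b) : Sup (c + d) a b := by
  intro l hl
  rcases Finset.mem_union.1 (Finsupp.support_add hl) with h | h
  exacts [h1 l h, h2 l h]

theorem sup_smul {c : TP} {a b : ℤ} (z : ℂ) (h : Sup c a b) : Sup (z • c) a b :=
  fun l hl => h l (Finsupp.support_smul hl)

theorem sup_sum {ι : Type} {T : Finset ι} {c : ι → TP} {a b : ℤ} (h : ∀ i ∈ T, Sup (c i) a b) :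
    Sup (∑ i ∈ T, c i) a b :=
  Finset.sum_induction c (fun d => Sup d a b) (fun _ _ => sup_add) (fun l hl => by simp at hl) h

end Vale.Agent.P091K
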