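import Vale.Agent.P091K.Stm

namespace Vale.Agent.P091K

namespace CanAAux

theorem forced (R K : ℕ) (hK : 1 ≤ K) :
    ((Finset.range (DD R K)).filter fun p => p % (K + 1) = 0 ∨ p + 1 = DD R K).card ≤ R + 2 := by
  refine (Finset.card_le_card (t := insert (DD R K - 1)
    ((Finset.range (R + 1)).image fun r => r * (K + 1))) fun p hp => ?_).trans ?_
  · obtain ⟨h1, h2⟩ := Finset.mem_filter.1 hp
    rw [Finset.mem_range] at h1
    rcases h2 with h2 | h2
    · obtain ⟨r, rfl⟩ := Nat.dvd_of_mod_eq_zero h2
      refine Finset.mem_insert_of_mem (Finset.mem_image.2 ⟨r, Finset.mem_range.2 ?_, mul_comm _ _⟩)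
      refine lt_of_mul_lt_mul_left (a := K + 1) (h1.trans_le ?_) (Nat.zero_le _)
      rw [DD, mul_add (K + 1), mul_one, mul_comm R]
      omega
    · exact Finset.mem_insert.2 (Or.inl (by omega))
  · refine (Finset.card_insert_le _ _).trans ?_
    have := Finset.card_image_le (s := Finset.range (R + 1)) (f := fun r => r * (K + 1))
    rw [Finset.card_range] at this
    omega

end CanAAux

theorem canA_pf (h : CntStmt) : CanAStmt := by
  intro R K _ hK
  constructor
  · have h1 := h (fun p => decide (p % (K + 1) = 0 ∨ p + 1 = DD R K))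
      (fun p => decide (p + 2 = DD R K)) (DD R K)
    simp only [decide_eq_true_eq, decide_eq_false_iff_not] at h1
    have h2 := Finset.card_filter_add_card_filter_not (s := Finset.range (DD R K))
      fun p => p % (K + 1) = 0 ∨ p + 1 = DD R K
    have h3 := CanAAux.forced R K hK
    rw [Finset.card_range] at h2
    rw [CC, h1, ← pow_add]
    exact Nat.pow_le_pow_right (by norm_num) (by omega)
  · intro j hj
    obtain ⟨h1, h2⟩ := Finset.mem_filter.1 hj
    rw [Finset.mem_range] at h1
    have a1 := h2 (R * (K + 1)) (by rw [DD]; omega) (Or.inl (Nat.mul_mod_left _ _))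
    have a2 := h2 (R * (K + 1) + 1) (by rw [DD]; omega) (Or.inr rfl)
    rw [DD] at a1 a2 h1 ⊢
    generalize R * (K + 1) = m at *
    have b1 : 2 ^ m ≤ j := Nat.ge_two_pow_of_testBit (by simpa using a1)
    have b2 : j < 2 ^ (m + 1) := by
      refine Nat.lt_pow_two_of_testBit _ fun i hi => ?_
      rcases hi.eq_or_lt with rfl | hi
      · simpa using a2
      · exact Nat.testBit_lt_two_pow (h1.trans_le (Nat.pow_le_pow_right (by norm_num) hi))
    rw [pow_succ] at b2
    rw [pow_succ, pow_succ]
    omega

end Vale.Agent.P091K
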