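import Vale.Agent.P091K.Stm

namespace Vale.Agent.P091K

open MeasureTheory Real Filter Topology Vale.Agent.P091

namespace CanBAux

theorem cnt (K k i : ℕ) :
    i / (K + 1) ≤ ((Finset.range i).filter fun p => (p + k) % (K + 1) = 0).card := by
  have r0 : K * k % (K + 1) < K + 1 := Nat.mod_lt _ K.succ_pos
  refine (Finset.card_range _).symm.trans_le (Finset.card_le_card_of_injOn
    (fun q => (K + 1) * q + K * k % (K + 1)) (fun q hq => ?_) fun q _ q' _ h => ?_)
  · have h1 : q + 1 ≤ i / (K + 1) := Finset.mem_range.1 hq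
    have h2 := (Nat.le_div_iff_mul_le K.succ_pos).1 h1
    refine Finset.mem_filter.2 ⟨Finset.mem_range.2 ?_, ?_⟩
    · show (K + 1) * q + K * k % (K + 1) < i
      have e : (q + 1) * K.succ = (K + 1) * q + (K + 1) := by
        rw [Nat.succ_eq_add_one]
        ring
      omega
    · show ((K + 1) * q + K * k % (K + 1) + k) % (K + 1) = 0
      rw [add_assoc, Nat.mul_add_mod, Nat.mod_add_mod, show K * k + k = (K + 1) * k by ring,
        Nat.mul_mod_right]
  · exact Nat.eq_of_mul_eq_mul_left K.succ_pos (Nat.add_right_cancel h)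

end CanBAux

theorem canB_pf (h : CntStmt) : CanBStmt := by
  intro R K k i c hk
  have h1 := h (fun p => decide ((p + k) % (K + 1) = 0)) (fun p => decide (p + k + 2 = DD R K)) i
  have h2 := CanBAux.cnt K k i
  have h3 := Finset.card_filter_add_card_filter_not (s := Finset.range i)
    fun p => (p + k) % (K + 1) = 0
  simp only [decide_eq_true_eq, decide_eq_false_iff_not] at h1
  rw [Finset.card_range] at h3
  refine le_trans (Finset.card_le_card_of_injOn (fun a => a % 2 ^ i) (fun a ha => ?_)
    fun a ha b hb e => ?_) (h1.trans_le (Nat.pow_le_pow_right two_pos (by omega)))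
  · obtain ⟨j, hj, rfl⟩ := Finset.mem_image.1 (Finset.mem_filter.1 ha).1
    refine Finset.mem_filter.2 ⟨Finset.mem_range.2 (Nat.mod_lt _ (by positivity)),
      fun p hp hF => ?_⟩
    show (j / 2 ^ k % 2 ^ i).testBit p = _
    rw [Nat.testBit_mod_two_pow, Nat.testBit_div_two_pow, decide_eq_true hp, Bool.true_and]
    exact (Finset.mem_filter.1 hj).2 (p + k) (by omega) (.inl hF)
  · have e' : a % 2 ^ i = b % 2 ^ i := e
    rw [← Nat.div_add_mod a (2 ^ i), ← Nat.div_add_mod b (2 ^ i), e', (Finset.mem_filter.1 ha).2,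
      (Finset.mem_filter.1 hb).2]

end Vale.Agent.P091K
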