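import Vale.Agent.P091K.Stm

namespace Vale.Agent.P091K

open MeasureTheory Real Filter Topology Vale.Agent.P091

namespace CanSAux

theorem geo_eq (M : ℕ) (hM : 0 < M) (n : ℕ) :
    ∑ i ∈ Finset.range (M * n), ((1 : ℝ) / 2) ^ (i / M) = M * ∑ j ∈ Finset.range n, (1 / 2) ^ j := by
  induction n with
  | zero => simp
  | succ n ih =>
    rw [Nat.mul_succ, Finset.sum_range_add, ih, Finset.sum_range_succ, mul_add]
    refine congrArg _ ?_
    rw [Finset.sum_congr rfl (g := fun _ => ((1 : ℝ) / 2) ^ n) fun x hx => by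
      rw [Nat.mul_add_div hM, Nat.div_eq_of_lt (Finset.mem_range.1 hx), add_zero]]
    simp

theorem geo (M : ℕ) (hM : 0 < M) (N : ℕ) :
    ∑ i ∈ Finset.range N, ((1 : ℝ) / 2) ^ (i / M) ≤ 2 * M := by
  refine le_trans (Finset.sum_le_sum_of_subset_of_nonneg
    (Finset.range_mono (Nat.le_mul_of_pos_left N hM)) fun _ _ _ => by positivity) ?_
  rw [geo_eq M hM, mul_comm]
  exact mul_le_mul_of_nonneg_right (sum_geometric_two_le N) (Nat.cast_nonneg M)

theorem near {a b P : ℕ} (hP : 0 < P) (h : Nat.dist a b < P) :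
    a / P = b / P - 1 ∨ a / P = b / P ∨ a / P = b / P + 1 := by
  have h1 : a / P ≤ (b + P) / P := Nat.div_le_div_right (by unfold Nat.dist at h; omega)
  have h2 : b / P ≤ (a + P) / P := Nat.div_le_div_right (by unfold Nat.dist at h; omega)
  rw [Nat.add_div_right _ hP] at h1 h2
  generalize a / P = x at h1 h2 ⊢
  generalize b / P = y at h1 h2 ⊢
  omega

theorem cast_dist (a b : ℕ) : |(a : ℝ) - b| = (Nat.dist a b : ℝ) := by
  rcases le_total a b with h | h
  · rw [Nat.dist_eq_sub_of_le h, Nat.cast_sub h, abs_sub_comm,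
      abs_of_nonneg (sub_nonneg.2 (Nat.cast_le.2 h))]
  · rw [Nat.dist_eq_sub_of_le_right h, Nat.cast_sub h,
      abs_of_nonneg (sub_nonneg.2 (Nat.cast_le.2 h))]

end CanSAux

open CanSAux in
theorem canS_pf (h : CanBStmt) : CanSStmt := by
  intro R K k hk b hb
  have hlt : ∀ a ∈ Lv (CC R K) k, a < 2 ^ (DD R K - k) := fun a ha => by
    obtain ⟨j, hj, rfl⟩ := Finset.mem_image.1 ha
    rw [Nat.div_lt_iff_lt_mul (by positivity), ← pow_add, Nat.sub_add_cancel hk]
    exact Finset.mem_range.1 (Finset.mem_filter.1 hj).1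
  have hne : ∀ a ∈ (Lv (CC R K) k).erase b, Nat.dist a b ≠ 0 := fun a ha e =>
    (Finset.mem_erase.1 ha).1 (Nat.eq_of_dist_eq_zero e)
  have hmap : ∀ a ∈ (Lv (CC R K) k).erase b,
      Nat.log 2 (Nat.dist a b) ∈ Finset.range (DD R K - k) := fun a ha => by
    refine Finset.mem_range.2 (Nat.log_lt_of_lt_pow (hne a ha) ?_)
    have h1 := hlt a (Finset.mem_erase.1 ha).2
    have h2 := hlt b hb
    unfold Nat.dist
    omega
  rw [← Finset.sum_fiberwise_of_maps_to hmap]
  refine le_trans (Finset.sum_le_sum (g := fun i => 6 * ((1 : ℝ) / 2) ^ (i / (K + 1)))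
    fun i hi => ?_) ?_
  · have hi' : k + (i + 1) ≤ DD R K := by
      have := Finset.mem_range.1 hi
      omega
    have hc : (((Lv (CC R K) k).erase b).filter fun a => Nat.log 2 (Nat.dist a b) = i).card ≤
        3 * 2 ^ (i + 1 - (i + 1) / (K + 1)) := by
      have c1 := h R K k (i + 1) (b / 2 ^ (i + 1) - 1) hi'
      have c2 := h R K k (i + 1) (b / 2 ^ (i + 1)) hi'
      have c3 := h R K k (i + 1) (b / 2 ^ (i + 1) + 1) hi'
      refine le_trans (Finset.card_le_card (t := _ ∪ (_ ∪ _)) fun a ha => ?_)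
        (le_trans (Finset.card_union_le _ _) (le_trans (add_le_add c1
          (le_trans (Finset.card_union_le _ _) (add_le_add c2 c3))) (by omega)))
      obtain ⟨h1, h2⟩ := Finset.mem_filter.1 ha
      have h3 : Nat.dist a b < 2 ^ (i + 1) := h2 ▸ Nat.lt_pow_succ_log_self one_lt_two _
      have h4 := (Finset.mem_erase.1 h1).2
      simp only [Finset.mem_union, Finset.mem_filter, h4, true_and]
      exact near (by positivity) h3
    refine le_trans (Finset.sum_le_card_nsmul _ _ (1 / 2 ^ i) fun a ha => ?_) ?_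
    · obtain ⟨h1, h2⟩ := Finset.mem_filter.1 ha
      rw [cast_dist]
      refine one_div_le_one_div_of_le (by positivity) ?_
      exact_mod_cast h2 ▸ Nat.pow_log_le_self 2 (hne a h1)
    · have hq : i / (K + 1) ≤ (i + 1) / (K + 1) := Nat.div_le_div_right (Nat.le_succ i)
      have hq' : i / (K + 1) ≤ i := Nat.div_le_self _ _
      have hc' := hc.trans (Nat.mul_le_mul_left 3 (Nat.pow_le_pow_right two_pos
        (show i + 1 - (i + 1) / (K + 1) ≤ i - i / (K + 1) + 1 by omega)))
      have e : (2 : ℝ) ^ i = 2 ^ (i - i / (K + 1)) * 2 ^ (i / (K + 1)) := by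
        rw [← pow_add, Nat.sub_add_cancel hq']
      rw [nsmul_eq_mul]
      refine le_trans (mul_le_mul_of_nonneg_right (Nat.cast_le.2 hc') (by positivity)) (le_of_eq ?_)
      rw [e, one_div_pow]
      push_cast
      field_simp
      ring
  · rw [← Finset.mul_sum]
    have := geo (K + 1) (Nat.succ_pos K) (DD R K - k)
    push_cast at this
    linarith

end Vale.Agent.P091K
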