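import Vale.Agent.P091K.Stm

namespace Vale.Agent.P091K

open MeasureTheory Real Filter Topology Vale.Agent.P091

namespace CellAux

theorem shift (n : ℕ) (x : ℝ) : (x + 2 * π) * n / (2 * π) = x * n / (2 * π) + n := by
  have := Real.pi_pos
  field_simp

end CellAux

theorem cell_pf : CellStmt := by
  intro n hn
  have p0 := Real.pi_pos
  have n0 : (0 : ℝ) < n := by exact_mod_cast hn
  have n1 : (0 : ℤ) < n := by exact_mod_cast hn
  have mz : Measurable fun x : ℝ => x * n / (2 * π) := by fun_prop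
  have cst : ∀ x : ℝ, ((cl n x : ℕ) : ℤ) = ⌊x * n / (2 * π)⌋ % n := fun x =>
    Int.toNat_of_nonneg (Int.emod_nonneg _ n1.ne')
  refine ⟨(measurable_of_countable fun k : ℤ => (k % n).toNat).comp mz.floor, fun x => ?_,
    fun x => ?_, fun x => ⟨⌊x * n / (2 * π)⌋ / n, ?_⟩, fun j x hj hx => ?_, fun η => ⟨?_, fun x => ?_⟩⟩
  · apply Int.natCast_inj.1
    rw [cst, cst, CellAux.shift, Int.floor_add_natCast, Int.add_emod_right]
  · apply Int.ofNat_lt.1
    rw [cst]
    exact Int.emod_lt_of_pos _ n1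
  · have e1 : ((cl n x : ℕ) : ℝ) + n * ((⌊x * n / (2 * π)⌋ / n : ℤ) : ℝ) =
        (⌊x * n / (2 * π)⌋ : ℝ) := by
      have := Int.emod_add_mul_ediv ⌊x * n / (2 * π)⌋ n
      rw [← cst] at this
      exact_mod_cast this
    have e2 := Int.floor_add_fract (x * n / (2 * π))
    have e3 : ((cl n x : ℕ) : ℝ) + Int.fract (x * n / (2 * π)) =
        x * n / (2 * π) - n * ((⌊x * n / (2 * π)⌋ / n : ℤ) : ℝ) := by linarith
    rw [e3]
    field_simp
    ring
  · have e : ⌊x * n / (2 * π)⌋ = j := by
      obtain ⟨h1, h2⟩ := hx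
      rw [div_le_iff₀ n0] at h1
      rw [lt_div_iff₀ n0] at h2
      rw [Int.floor_eq_iff, le_div_iff₀ (by positivity), div_lt_iff₀ (by positivity)]
      push_cast
      constructor <;> linarith
    apply Int.natCast_inj.1
    rw [cst, e]
    exact Int.emod_eq_of_lt (Int.natCast_nonneg j) (by exact_mod_cast hj)
  · exact (measurableSet_le measurable_const mz.fract).inter
      (measurableSet_le mz.fract measurable_const)
  · simp only [Ins, Set.mem_ofPred_eq, CellAux.shift, Int.fract_add_natCast]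

end Vale.Agent.P091K
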