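import Vale.Agent.P091K.Stm

namespace Vale.Agent.P091K

open MeasureTheory Real Filter Topology Vale.Agent.P091

namespace CellVAux

theorem meas (n : ℕ) (η : ℝ) : MeasurableSet (Ins n η) := by
  have h : Measurable fun x : ℝ => Int.fract (x * n / (2 * π)) :=
    measurable_fract.comp (by fun_prop)
  exact (measurableSet_le measurable_const h).inter (measurableSet_le h measurable_const)

theorem per (η x : ℝ) : x + 2 * π ∈ Ins 1 η ↔ x ∈ Ins 1 η := by
  have hp : 0 < π := pi_pos
  have e : (x + 2 * π) * ((1 : ℕ) : ℝ) / (2 * π) = x * ((1 : ℕ) : ℝ) / (2 * π) + 1 := by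
    push_cast; field_simp
  simp only [Ins, Set.mem_setOf_eq, e, Int.fract_add_one]

theorem one (η : ℝ) (hη : 0 ≤ η) :
    volume ((Ins 1 η)ᶜ ∩ Set.Ioc 0 (2 * π)) ≤ ENNReal.ofReal (4 * π * η) := by
  have hp : 0 < 2 * π := by positivity
  have hs : (Ins 1 η)ᶜ ∩ Set.Ioc 0 (2 * π) ⊆
      Set.Icc 0 (2 * π * η) ∪ Set.Icc (2 * π * (1 - η)) (2 * π) := by
    rintro x ⟨h1, h2, h3⟩
    rcases h3.eq_or_lt with h4 | h4
    · exact Or.inr ⟨by nlinarith, h3⟩
    have e : Int.fract (x * ((1 : ℕ) : ℝ) / (2 * π)) = x / (2 * π) := by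
      rw [Nat.cast_one, mul_one]
      exact Int.fract_eq_self.2 ⟨by positivity, (div_lt_one hp).2 h4⟩
    simp only [Ins, Set.mem_compl_iff, Set.mem_setOf_eq, e, not_and_or, not_le] at h1
    rcases h1 with h1 | h1
    · rw [div_lt_iff₀ hp] at h1
      exact Or.inl ⟨h2.le, by linarith⟩
    · rw [lt_div_iff₀ hp] at h1
      exact Or.inr ⟨by linarith, h3⟩
  refine (measure_mono hs).trans ((measure_union_le _ _).trans (le_of_eq ?_))
  rw [Real.volume_Icc, Real.volume_Icc, ← ENNReal.ofReal_add (by nlinarith) (by nlinarith)]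
  congr 1
  ring

end CellVAux

open CellVAux in
theorem cellV_pf (h : IndStmt) : CellVStmt := by
  intro n η hn hη
  have hn0 : (n : ℝ) ≠ 0 := by positivity
  have key := h n 1 ((Ins 1 η)ᶜ.indicator 1) (fun _ => 1) hn le_rfl
    (measurable_one.indicator (meas 1 η).compl)
    (fun x => by
      by_cases hx : x ∈ Ins 1 η
      · rw [Set.indicator_of_notMem (by simpa using (per η x).2 hx),
          Set.indicator_of_notMem (by simpa using hx)]
      · rw [Set.indicator_of_mem (s := (Ins 1 η)ᶜ) (fun hh => hx ((per η x).1 hh)),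
          Set.indicator_of_mem (s := (Ins 1 η)ᶜ) hx]
        rfl)
    (fun _ _ => zero_le_one)
  have e : ∀ x : ℝ, (Ins 1 η)ᶜ.indicator (1 : ℝ → ENNReal) ((n : ℝ) * ((1 : ℕ) : ℝ) * x)
      = (Ins n η)ᶜ.indicator (1 : ℝ → ENNReal) x := fun x => by
    have e2 : (n : ℝ) * ((1 : ℕ) : ℝ) * x ∈ Ins 1 η ↔ x ∈ Ins n η := by
      simp only [Ins, Set.mem_setOf_eq, Nat.cast_one, mul_one, mul_comm (n : ℝ) x]
    by_cases hx : x ∈ Ins n η
    · rw [Set.indicator_of_notMem (by simpa using e2.2 hx),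
        Set.indicator_of_notMem (by simpa using hx)]
    · rw [Set.indicator_of_mem (s := (Ins 1 η)ᶜ) (fun hh => hx (e2.1 hh)),
        Set.indicator_of_mem (s := (Ins n η)ᶜ) hx]
      rfl
  simp only [e, ENNReal.ofReal_one, mul_one, Finset.sum_const, Finset.card_range, nsmul_eq_mul,
    div_self hn0] at key
  rw [lintegral_indicator_one (meas n η).compl, lintegral_indicator_one (meas 1 η).compl,
    Measure.restrict_apply (meas n η).compl, Measure.restrict_apply (meas 1 η).compl] at key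
  exact key.trans_le (one η hη)

end Vale.Agent.P091K
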