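import Vale.Agent.P091K.Stm

namespace Vale.Agent.P091K

open MeasureTheory Real Filter Topology Vale.Agent.P091

namespace ChiAux

theorem gap (n M g j0 : ℕ) (η y : ℝ) (hη : η ≤ y) (hy : y ≤ 1 - η) (hj : j0 < n)
    (hg : g < n * (M + 1)) (hne : g / (M + 1) ≠ j0) :
    η ≤ |(j0 : ℝ) + y - g / (M + 1)| ∧ |(j0 : ℝ) + y - g / (M + 1)| ≤ n - η := by
  have hM : (0 : ℝ) < M + 1 := by positivity
  have h0 : (0 : ℝ) ≤ g / (M + 1) := by positivity
  have h1 : (g : ℝ) / (M + 1) ≤ n := by
    rw [div_le_iff₀ hM]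
    exact_mod_cast hg.le
  have hj' : (j0 : ℝ) + 1 ≤ n := by exact_mod_cast hj
  have hj0 : (0 : ℝ) ≤ j0 := Nat.cast_nonneg _
  refine ⟨?_, abs_le.2 ⟨by linarith, by linarith⟩⟩
  rcases lt_or_gt_of_ne hne with h | h
  · have h2 : g < j0 * (M + 1) := (Nat.div_lt_iff_lt_mul (by omega)).1 h
    have h3 : (g : ℝ) / (M + 1) ≤ j0 := by
      rw [div_le_iff₀ hM]
      exact_mod_cast h2.le
    exact le_abs.2 (Or.inl (by linarith))
  · have h2 : (j0 + 1) * (M + 1) ≤ g := (Nat.le_div_iff_mul_le (by omega)).1 h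
    have h3 : (j0 : ℝ) + 1 ≤ g / (M + 1) := by
      rw [le_div_iff₀ hM]
      exact_mod_cast h2
    exact le_abs.2 (Or.inr (by linarith))

end ChiAux

open ChiAux in
theorem chi_pf (h1 : FejAStmt) (h2 : FejBStmt) (h3 : FejCStmt) : ChiStmt := by
  intro n M hn hM
  obtain ⟨G, hG⟩ : ∃ G : ℕ, G = n * (M + 1) := ⟨_, rfl⟩
  have hMG : M < G := by
    have : 1 * (M + 1) ≤ n * (M + 1) := Nat.mul_le_mul_right _ hn
    omega
  have hG0 : (0 : ℝ) < G := by
    have : 0 < G := by omega
    exact_mod_cast this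
  have hn0 : (0 : ℝ) < n := by exact_mod_cast hn
  have hM0 : (0 : ℝ) < M := by exact_mod_cast hM
  obtain ⟨-, hnn, -, htail⟩ := h2 M hM
  have hsum := (h3 M hM).2 G
  refine ⟨fun j => ∑ g ∈ (Finset.range G).filter (fun g => g / (M + 1) = j),
      ∑ k ∈ Finset.range (2 * M + 1), Finsupp.single ((k : ℤ) - M)
        (((1 / G : ℝ) : ℂ) * (kp M k : ℂ) * E (-((k : ℤ) - M)) (2 * π * g / G)),
    fun j x => 1 / G * ∑ g ∈ (Finset.range G).filter (fun g => g / (M + 1) = j),
      fr M (x - 2 * π * g / G), ?_, ?_, ?_, ?_, ?_⟩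
  · intro j
    refine sup_sum fun g _ => sup_sum fun k hk => sup_single _ (by omega) ?_
    have := Finset.mem_range.1 hk
    omega
  · intro j x
    beta_reduce
    rw [map_sum, Finset.mul_sum, Complex.ofReal_sum]
    refine Finset.sum_congr rfl fun g _ => ?_
    rw [map_sum, Complex.ofReal_mul, ← h1 M _ hM, Finset.mul_sum]
    refine Finset.sum_congr rfl fun k _ => ?_
    rw [ev_single, E_sub']
    ring
  · intro j x
    exact mul_nonneg (by positivity) (Finset.sum_nonneg fun _ _ => hnn _)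
  · intro x
    beta_reduce
    rw [← Finset.mul_sum, Finset.sum_fiberwise_of_maps_to, hsum x hMG]
    · field_simp
    · intro g hg
      rw [Finset.mem_range] at hg ⊢
      exact (Nat.div_lt_iff_lt_mul (by omega)).2 (hG ▸ hg)
  · intro η y j0 hη hy1 hy2 hj
    have hs := hsum (2 * π * (j0 + y) / n) hMG
    rw [← Finset.sum_filter_add_sum_filter_not _ (fun g => g / (M + 1) = j0)] at hs
    have hb : ∀ g ∈ (Finset.range G).filter (fun g => ¬g / (M + 1) = j0),
        fr M (2 * π * (j0 + y) / n - 2 * π * g / G) ≤ (n : ℝ) ^ 2 / (4 * M * η ^ 2) := by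
      intro g hg
      obtain ⟨hg1, hg2⟩ := Finset.mem_filter.1 hg
      obtain ⟨a1, a2⟩ := gap n M g j0 η y hy1 hy2 hj (hG ▸ Finset.mem_range.1 hg1) hg2
      have hc : 0 < 2 * π / n := by positivity
      have e : |2 * π * (j0 + y) / n - 2 * π * g / G| =
          2 * π / n * |(j0 : ℝ) + y - g / (M + 1)| := by
        rw [← abs_of_pos hc, ← abs_mul, hG]
        congr 1
        push_cast
        field_simp
      refine (htail _ (2 * π / n * η) (by positivity) ?_ ?_).trans (le_of_eq ?_)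
      · rw [e]
        exact mul_le_mul_of_nonneg_left a1 hc.le
      · rw [e]
        refine (mul_le_mul_of_nonneg_left a2 hc.le).trans (le_of_eq ?_)
        field_simp
      · field_simp
        ring
    have hc := Finset.sum_le_card_nsmul _ _ _ hb
    rw [nsmul_eq_mul] at hc
    have hcard : (((Finset.range G).filter (fun g => ¬g / (M + 1) = j0)).card : ℝ) ≤ G := by
      have := Finset.card_filter_le (Finset.range G) (fun g => ¬g / (M + 1) = j0)
      rw [Finset.card_range] at this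
      exact_mod_cast this
    have hB : (0 : ℝ) ≤ (n : ℝ) ^ 2 / (4 * M * η ^ 2) := by positivity
    have hd := hc.trans (mul_le_mul_of_nonneg_right hcard hB)
    refine le_of_mul_le_mul_left ?_ hG0
    beta_reduce
    rw [mul_sub, ← mul_assoc, mul_one_div_cancel hG0.ne', one_mul, mul_one]
    linarith

end Vale.Agent.P091K
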