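import Vale.Agent.P091K.Stm

namespace Vale.Agent.P091K

namespace CntAux

theorem low (F v : ℕ → Bool) (i a : ℕ) (ha : a < 2 ^ i) :
    (∀ p < i + 1, F p = true → a.testBit p = v p) ↔
      (∀ p < i, F p = true → a.testBit p = v p) ∧ (F i = true → false = v i) := by
  rw [Nat.forall_lt_succ_right, Nat.testBit_lt_two_pow ha]

theorem high (F v : ℕ → Bool) (i a : ℕ) (ha : a < 2 ^ i) :
    (∀ p < i + 1, F p = true → (2 ^ i + a).testBit p = v p) ↔
      (∀ p < i, F p = true → a.testBit p = v p) ∧ (F i = true → true = v i) := by
  rw [Nat.forall_lt_succ_right, Nat.testBit_two_pow_add_eq, Nat.testBit_lt_two_pow ha]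
  refine and_congr (forall_congr' fun p => forall_congr' fun hp => ?_) (by simp)
  rw [Nat.testBit_two_pow_add_gt hp]

end CntAux

open CntAux in
theorem cnt_pf : CntStmt := by
  intro F v i
  induction i with
  | zero => simp
  | succ i ih =>
    rw [Finset.card_filter] at ih
    rw [Finset.card_filter, pow_succ, mul_two, Finset.sum_range_add]
    rw [Finset.sum_congr rfl fun a ha =>
      if_congr (low F v i a (Finset.mem_range.1 ha)) rfl rfl]
    rw [Finset.sum_congr rfl (f := fun a => if ∀ p < i + 1, F p = true → (2 ^ i + a).testBit p = v p then 1 else 0) fun a ha =>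
      if_congr (high F v i a (Finset.mem_range.1 ha)) rfl rfl]
    rw [Finset.range_add_one (n := i), Finset.filter_insert]
    cases hF : F i <;> cases hv : v i
    · simp only [Bool.false_eq_true, false_imp_iff, and_true, if_true, ih]
      rw [Finset.card_insert_of_notMem (by simp), pow_succ, mul_two]
    · simp only [Bool.false_eq_true, false_imp_iff, and_true, if_true, ih]
      rw [Finset.card_insert_of_notMem (by simp), pow_succ, mul_two]
    · simp only [Bool.true_eq_false, imp_false, not_true_eq_false, and_false, if_false,
        imp_self, and_true, ih, Finset.sum_const_zero, add_zero]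
    · simp only [Bool.true_eq_false, Bool.false_eq_true, imp_false, not_true_eq_false, and_false,
        if_false, imp_self, and_true, ih, Finset.sum_const_zero, zero_add]

end Vale.Agent.P091K
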