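import Vale.Agent.P091K.Stm

/-! Embedding a polynomial at the next level. -/

namespace Vale.Agent.P091K

open MeasureTheory Real Filter Topology Vale.Agent.P091

namespace EmbAux

theorem gn_cmp {K L N gp w : ℤ} {x a b : ℝ} {F c : TP} (hK : K = L + w * N - gp)
    (h1 : ‖ps K x F - E L x * ps N (w * x) c‖ ≤ a) (h2 : ‖E gp x - 1‖ ≤ b) :
    gn N (w * x) c - (a + b * nm c) ≤ gn K x F := by
  have e1 : E (-K) x * E L x = E gp x * E (-N) (w * x) := by
    rw [← E_mul, ← E_add, ← E_add]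
    congr 1
    rw [hK]
    ring
  have e2 : Complex.I * E (-K) x * ps K x F - Complex.I * E (-N) (w * x) * ps N (w * x) c =
      Complex.I * E (-K) x * (ps K x F - E L x * ps N (w * x) c) +
        Complex.I * E (-N) (w * x) * ((E gp x - 1) * ps N (w * x) c) := by
    linear_combination (Complex.I * ps N (w * x) c) * e1
  have h3 : ‖Complex.I * E (-K) x * ps K x F - Complex.I * E (-N) (w * x) * ps N (w * x) c‖ ≤
      a + b * nm c := by
    rw [e2]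
    refine (norm_add_le _ _).trans (add_le_add ?_ ?_)
    · rw [norm_mul, norm_mul, Complex.norm_I, norm_E, one_mul, one_mul]
      exact h1
    · rw [norm_mul, norm_mul, Complex.norm_I, norm_E, one_mul, one_mul, norm_mul]
      exact mul_le_mul h2 (norm_ps_le _ _ _) (norm_nonneg _) ((norm_nonneg _).trans h2)
  have h4 := (Complex.abs_re_le_norm _).trans h3
  rw [Complex.sub_re, abs_le] at h4
  unfold gn
  linarith [h4.1]

theorem nums {Q C0 Dg n : ℕ} (hC : 1 ≤ C0) (hn : 2 * (Q + 1) * C0 * (Dg + 2) ≤ n) :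
    1 ≤ n ∧ C0 ≤ n ∧ (Q + 1) * (n * C0 + 1) * (Dg + 2) ≤ n ^ 2 := by
  have h1 : C0 ≤ n := le_trans (by
    calc C0 = 1 * C0 * 1 := by ring
      _ ≤ 2 * (Q + 1) * C0 * (Dg + 2) := by gcongr <;> omega) hn
  have h2 : 1 ≤ n := hC.trans h1
  have h3 : 1 ≤ n * C0 := Nat.mul_pos h2 hC
  refine ⟨h2, h1, ?_⟩
  calc (Q + 1) * (n * C0 + 1) * (Dg + 2) ≤ (Q + 1) * (n * C0 + n * C0) * (Dg + 2) := by gcongr
    _ = n * (2 * (Q + 1) * C0 * (Dg + 2)) := by ring
    _ ≤ n * n := by gcongr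
    _ = n ^ 2 := by ring

end EmbAux

theorem emb_pf (h1 : ChiStmt) (h2 : Nest1Stmt) (h3 : Nest2Stmt) (h4 : AlignStmt) : EmbStmt := by
  intro c Dg δ η hc hδ hη
  have hm := nm_nonneg c
  obtain ⟨Q, hQ⟩ := exists_nat_gt (7 * nm c / δ)
  obtain ⟨C0, hC⟩ := exists_nat_gt (nm c / (2 * η ^ 2 * δ))
  have hQ0 : (0 : ℝ) < Q := lt_of_le_of_lt (by positivity) hQ
  have hC0 : (0 : ℝ) < C0 := lt_of_le_of_lt (by positivity) hC
  have hQ1 : 1 ≤ Q := Nat.cast_pos.1 hQ0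
  have hC1 : 1 ≤ C0 := Nat.cast_pos.1 hC0
  refine ⟨2 * (Q + 1) * C0 * (Dg + 2), fun n hn L B hL hsep => ?_⟩
  obtain ⟨n1, n2, n3⟩ := EmbAux.nums hC1 hn
  obtain ⟨χ, r, c1, c2, c3, c4, c5⟩ := h1 n (n ^ 2 * C0) n1 (Nat.mul_pos (by positivity) hC1)
  obtain ⟨p', hp'⟩ : ∃ p' : ℕ, p' = n * C0 + 1 := ⟨_, rfl⟩
  obtain ⟨p, hp⟩ : ∃ p : ℕ, p = (Q + 1) * p' := ⟨_, rfl⟩
  obtain ⟨M, hM⟩ : ∃ M : ℕ, M = n ^ 2 * C0 := ⟨_, rfl⟩
  rw [← hp', ← hp] at n3
  rw [← hM] at c1 c5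
  have a1 : M < n * p' := by
    rw [hM, hp']
    nlinarith
  have a2 : n * p * (Dg + 2) ≤ n ^ 3 := by
    calc n * p * (Dg + 2) = n * (p * (Dg + 2)) := by ring
      _ ≤ n * n ^ 2 := by gcongr
      _ = n ^ 3 := by ring
  have a3 : n * p = Q * (n * p') + n * p' := by
    rw [hp]
    ring
  have z1 : (M : ℤ) < n * p' := by exact_mod_cast a1
  have z2 : (n : ℤ) * p * (Dg + 2) ≤ n ^ 3 := by exact_mod_cast a2
  have z3 : (n : ℤ) * p = Q * (n * p') + n * p' := by exact_mod_cast a3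
  have z4 : (p : ℤ) * (Dg + 2) ≤ n ^ 2 := by exact_mod_cast n3
  have z5 : (p : ℤ) = Q * p' + p' := by
    rw [hp]
    push_cast
    ring
  have y1 : (0 : ℤ) ≤ Q * (n * p') := by positivity
  have y2 : (0 : ℤ) ≤ n * p * Dg := by positivity
  have y3 : (0 : ℤ) ≤ M := by positivity
  have y4 : (0 : ℤ) ≤ n * p := by positivity
  have ew : ∀ x : ℝ, (((n : ℤ) * (p : ℤ) : ℤ) : ℝ) * x = (n : ℝ) * p * x := fun x => by
    push_cast
    ring
  obtain ⟨s1, s2⟩ := h2 c χ r L n (n * p) Dg M B hc c1 c2 c3 c4 y4 fun j =>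
    ⟨by linarith [(hL j).1], by linarith [(hL j).2]⟩
  refine ⟨nest c χ L n (n * p), p, by rw [hp, hp']; exact Nat.mul_pos (by omega) (by omega), s1,
    fun x => by rw [← ew]; exact s2 x, fun y j0 N hy1 hy2 hj hN0 hN1 => ?_⟩
  obtain ⟨q, q1, q2, q3⟩ := h4 (2 * π * (j0 + y) / n) (n * p') Q hQ1
  have q4 : (1 : ℤ) ≤ q := by exact_mod_cast q1
  have q5 : (q : ℤ) ≤ Q := by exact_mod_cast q2
  have y5 : (0 : ℤ) ≤ n * p' := by positivity
  have y6 : (0 : ℤ) ≤ p' := by positivity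
  have y7 : (0 : ℤ) ≤ p := by positivity
  have y8 : (0 : ℤ) ≤ p * Dg := by positivity
  have g1 := mul_le_mul_of_nonneg_right q4 y5
  have g2 := mul_le_mul_of_nonneg_right q5 y5
  have g3 := mul_le_mul_of_nonneg_right q5 y6
  have g4 := mul_le_mul_of_nonneg_left hN1 y7
  have g5 := mul_nonneg y7 hN0
  have g6 := mul_nonneg (zero_le_one.trans q4) y6
  have e := h3 c χ r L n j0 (n * p) Dg M (q * (n * p')) N (2 * π * (j0 + y) / n) hc c1 c2 c3 c4 y3
    (by linarith) (by linarith) hN0 hN1 hj fun j hj => by linarith [hsep j j0 hj]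
  have k := EmbAux.gn_cmp rfl e q3
  refine ⟨p * N - q * p', abs_le.2 ⟨by linarith, by linarith⟩, ?_⟩
  rw [show L j0 + n * (p * N - q * p') = L j0 + n * p * N - q * (n * p') by ring, ← ew]
  refine le_trans ?_ k
  have b1 : 7 / (Q : ℝ) * nm c ≤ δ := by
    rw [div_lt_iff₀ hδ] at hQ
    rw [div_mul_eq_mul_div, div_le_iff₀ hQ0]
    linarith
  have b2 : 2 * (1 - r j0 (2 * π * (j0 + y) / n)) * nm c ≤ δ := by
    have b3 := c5 η y j0 hη hy1 hy2 hj
    have hn0 : (0 : ℝ) < n := Nat.cast_pos.2 n1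
    have b4 : (n : ℝ) ^ 2 / (4 * M * η ^ 2) = 1 / (4 * C0 * η ^ 2) := by
      rw [hM]
      push_cast
      field_simp
    rw [b4] at b3
    rw [div_lt_iff₀ (by positivity)] at hC
    calc 2 * (1 - r j0 (2 * π * (j0 + y) / n)) * nm c ≤ 2 * (1 / (4 * C0 * η ^ 2)) * nm c := by
          gcongr
      _ = nm c / (2 * C0 * η ^ 2) := by
          field_simp
          ring
      _ ≤ δ := by
          rw [div_le_iff₀ (by positivity)]
          linarith
  linarith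

end Vale.Agent.P091K
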