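import Vale.Agent.P091K.Stm

namespace Vale.Agent.P091K

open MeasureTheory Real Filter Topology Vale.Agent.P091

namespace ErrCAux

theorem sum_eq (D : ℕ) (C : Finset ℕ) (F : ℕ → ℕ → ℕ → ℝ) :
    ∑ i ∈ (Finset.Icc 1 D ×ˢ C ×ˢ Finset.range (2 ^ D)).filter
        (fun i : ℕ × ℕ × ℕ => Cl C i.1 i.2.2 i.2.1), F i.1 i.2.1 i.2.2 =
      ∑ k ∈ Finset.Icc 1 D, ∑ j ∈ C,
        ∑ j0 ∈ (Finset.range (2 ^ D)).filter (fun j0 => Cl C k j0 j), F k j j0 := by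
  simp only [Finset.sum_filter, Finset.sum_product]

end ErrCAux

theorem errC_pf (h1 : AvgStmt) (h2 : ErrWStmt) : ErrCStmt := by
  intro R K C hC
  obtain ⟨col, hc, hs⟩ := h1 (2000000 * (K + 1)) (ℕ × ℕ × ℕ)
    ((Finset.Icc 1 (DD R K) ×ˢ C ×ˢ Finset.range (2 ^ DD R K)).filter
      (fun i : ℕ × ℕ × ℕ => Cl C i.1 i.2.2 i.2.1))
    (fun i => 1 / |(i.2.2 : ℝ) - i.2.1|) (fun i => (i.1, i.2.2 / 2 ^ i.1))
    (fun i => (i.1, i.2.1 / 2 ^ i.1)) (by omega) (fun i _ => by positivity)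
    (fun i hi h => (Finset.mem_filter.1 hi).2.2.1 (Prod.mk.inj h).2)
  refine ⟨col, hc, ?_⟩
  rw [ErrCAux.sum_eq (DD R K) C
    (fun k j j0 => 1 / |(j0 : ℝ) - j| * er (col (k, j0 / 2 ^ k)) (col (k, j / 2 ^ k))),
    ErrCAux.sum_eq (DD R K) C (fun _ j j0 => 1 / |(j0 : ℝ) - j|)] at hs
  refine hs.trans ((mul_le_mul_of_nonneg_left (h2 R K C hC) (by positivity)).trans ?_)
  have hK : (0 : ℝ) < (K : ℝ) + 1 := by positivity
  have e : 2 * π / ((2000000 * (K + 1) : ℕ) : ℝ) * ((DD R K : ℝ) * C.card * (24 * ((K : ℝ) + 1))) =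
      (C.card : ℝ) * DD R K * (48 * π / 2000000) := by
    push_cast
    field_simp
    ring
  rw [e, div_eq_mul_one_div _ (10000 : ℝ)]
  refine mul_le_mul_of_nonneg_left ?_ (by positivity)
  linarith [Real.pi_le_four]

end Vale.Agent.P091K
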