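import Vale.Agent.P091K.Stm

/-! The total phase error on the Cantor set. -/

namespace Vale.Agent.P091K

open MeasureTheory Real Filter Topology Vale.Agent.P091

namespace ErrKAux

theorem num {R K : ℕ} (h : R ≤ K) : 160000 * DD R K ^ 2 ≤ 2 ^ (2000000 * (K + 1)) := by
  have a1 : K + 1 ≤ 2 ^ (K + 1) := Nat.lt_two_pow_self.le
  have a2 : 2 ≤ 2 ^ (K + 1) := Nat.le_self_pow (by omega) 2
  have a3 : (2 ^ (K + 1)) ^ 24 ≤ 2 ^ (2000000 * (K + 1)) := by
    rw [← pow_mul]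
    exact Nat.pow_le_pow_right (by omega) (by omega)
  generalize 2 ^ (K + 1) = x at a1 a2 a3
  have a4 : DD R K ≤ 2 * x ^ 2 := by
    unfold DD
    nlinarith
  calc 160000 * DD R K ^ 2 ≤ 160000 * (2 * x ^ 2) ^ 2 := by gcongr
    _ = 640000 * x ^ 4 := by ring
    _ ≤ x ^ 20 * x ^ 4 := Nat.mul_le_mul_right _ (le_trans (by norm_num) (Nat.pow_le_pow_left a2 20))
    _ ≤ _ := by rwa [← pow_add]

end ErrKAux

theorem errK_pf (h1 : BitsStmt) (h2 : HarmStmt) (h3 : ErrPStmt) (h4 : ErrCStmt) : ErrKStmt := by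
  intro R K i0 C hR hC
  obtain ⟨col, c1, c2⟩ := h4 R K C hC
  have n1 : (160000 : ℝ) * (DD R K : ℝ) ^ 2 ≤ 2 ^ (2000000 * (K + 1)) := by
    exact_mod_cast ErrKAux.num hR
  have d2 : 2 ≤ DD R K := Nat.le_add_left _ _
  have hj : ∀ j ∈ C, j < 2 ^ DD R K := fun j h => by have := (hC.2.1 j h).2; omega
  obtain ⟨m, c1, n1, e8⟩ : ∃ m : ℕ, (∀ z, col z < m) ∧ (160000 : ℝ) * (DD R K : ℝ) ^ 2 ≤ 2 ^ m ∧
    8000000 * (K + 1) = 4 * m := ⟨_, c1, n1, by ring⟩
  rw [e8]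
  generalize DD R K = D at c2 n1 d2 hj
  refine ⟨om m C col, fun k a hk => ?_, ?_⟩
  · have := c1 (k, a)
    have := Nat.mul_le_mul_left (2 * m) (show a % 2 ≤ 1 by omega)
    have := Nat.mul_le_mul_left (4 * m) hk
    unfold om
    split_ifs <;> nlinarith
  obtain ⟨T, hT⟩ : ∃ T : ℕ → ℕ → ℕ → ℝ, ∀ k j0 j, T k j0 j = if Cl C k j0 j then
    er (col (k, j0 / 2 ^ k)) (col (k, j / 2 ^ k)) else 0 := ⟨_, fun _ _ _ => rfl⟩
  have T0 : ∀ k j0 j, 0 ≤ T k j0 j := fun k j0 j => by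
    rw [hT, er]
    positivity
  have a1 : ∀ j0 ∈ Finset.range (2 ^ D), ∀ j ∈ C.erase j0,
      dev (MM D i0 (om m C col) j0) (ss D i0 (om m C col) j) j0 j / |(j0 : ℝ) - j| ≤
      ∑ k ∈ Finset.Icc 1 D, 1 / |(j0 : ℝ) - j| * T k j0 j +
        D ^ 2 * (π / 2 ^ m) * (1 / |(j0 : ℝ) - j|) := fun j0 h0 j h => by
    obtain ⟨b1, b2⟩ := Finset.mem_erase.1 h
    rw [← Finset.mul_sum, mul_comm (1 / _), ← add_mul, mul_one_div]
    refine div_le_div_of_nonneg_right ((h1 D i0 _ j0 j (Finset.mem_range.1 h0) (hj j b2) b1).trans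
      ((Finset.sum_le_sum fun k hk => Finset.sum_le_sum fun k' hk' => h3 m C col k k' j0 j c1
        (Finset.mem_Icc.1 hk).1 (Finset.mem_Icc.1 hk').1 b2).trans_eq ?_)) (abs_nonneg _)
    simp only [Finset.sum_add_distrib, ite_and, Finset.sum_ite_eq, Finset.sum_const, Nat.card_Icc,
      Nat.add_sub_cancel, nsmul_eq_mul, ← hT]
    rw [Finset.sum_congr rfl fun k hk => if_pos hk]
    ring
  have a2 : ∑ j0 ∈ Finset.range (2 ^ D), ∑ j ∈ C, ∑ k ∈ Finset.Icc 1 D,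
      1 / |(j0 : ℝ) - j| * T k j0 j ≤ (C.card : ℝ) * D / 10000 := by
    refine le_of_eq_of_le ?_ c2
    rw [Finset.sum_comm, Finset.sum_comm (s := Finset.Icc 1 D)]
    refine Finset.sum_congr rfl fun j _ => ?_
    rw [Finset.sum_comm]
    refine Finset.sum_congr rfl fun k _ => ?_
    rw [Finset.sum_filter]
    exact Finset.sum_congr rfl fun j0 _ => by rw [hT, mul_ite, mul_zero]
  have a3 : ∑ j0 ∈ Finset.range (2 ^ D), ∑ j ∈ C, 1 / |(j0 : ℝ) - j| ≤ C.card * (4 * D) := by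
    rw [Finset.sum_comm, ← nsmul_eq_mul]
    refine Finset.sum_le_card_nsmul _ _ _ fun j h => le_of_eq_of_le ?_ (h2 D j d2 (hj j h)).2
    rw [Finset.sum_erase _ (by simp)]
    exact Finset.sum_congr rfl fun j0 _ => by rw [abs_sub_comm]
  have a4 : (D : ℝ) ^ 2 * (π / 2 ^ m) ≤ 1 / 40000 := by
    rw [← mul_div_assoc, div_le_iff₀ (by positivity)]
    nlinarith [mul_le_mul_of_nonneg_left pi_le_four (sq_nonneg (D : ℝ))]
  refine (Finset.sum_le_sum fun j0 h0 => (Finset.sum_le_sum (a1 j0 h0)).trans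
    (Finset.sum_le_sum_of_subset_of_nonneg (Finset.erase_subset _ _) fun j _ _ =>
      add_nonneg (Finset.sum_nonneg fun k _ => mul_nonneg (by positivity) (T0 _ _ _))
        (by positivity))).trans ?_
  simp only [Finset.sum_add_distrib, ← Finset.mul_sum (a := (D : ℝ) ^ 2 * (π / 2 ^ m))]
  have := mul_le_mul a4 a3 (by positivity) (by norm_num)
  linarith

end Vale.Agent.P091K
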