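import Vale.Agent.P091K.Stm

namespace Vale.Agent.P091K

open MeasureTheory Real Filter Topology Vale.Agent.P091

namespace ErrPAux

theorem er_zero {x y : ℕ} (h : y < x) : er x y = 0 := if_neg (by omega)

theorem er_le {x y m : ℕ} (h : x + m ≤ y) : er x y ≤ π / 2 ^ m := by
  unfold er
  rw [if_pos (by omega), div_le_div_iff₀ (by positivity) (by positivity), mul_assoc, ← pow_add]
  exact mul_le_mul_of_nonneg_left (pow_le_pow_right₀ one_le_two h) pi_pos.le

theorem er_add (z x y : ℕ) : er (z + x) (z + y) = er x y := by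
  unfold er
  by_cases h : x ≤ y
  · rw [if_pos h, if_pos (by omega), pow_add, pow_add]
    field_simp
  · rw [if_neg h, if_neg (by omega)]

theorem er_nonneg (x y : ℕ) : 0 ≤ er x y := by
  unfold er
  split_ifs
  · positivity
  · exact le_rfl

end ErrPAux

open ErrPAux in
theorem errP_pf : ErrPStmt := by
  intro m C col k k' j0 j hc _ hk' hj
  have he : 0 ≤ π / 2 ^ m := by positivity
  have h0 : (0 : ℝ) ≤ if k = k' ∧ Cl C k j0 j then
      er (col (k, j0 / 2 ^ k)) (col (k, j / 2 ^ k)) else 0 := by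
    split_ifs
    · exact er_nonneg _ _
    · exact le_rfl
  have hb : om m C col (k', j / 2 ^ k') =
      4 * m * k' + 2 * m * (j / 2 ^ k' % 2) + col (k', j / 2 ^ k') :=
    if_pos (Finset.mem_image_of_mem (fun j : ℕ => j / 2 ^ k') hj)
  by_cases e : (k, j0 / 2 ^ k) = (k', j / 2 ^ k')
  · rw [if_pos e]
    exact add_nonneg h0 he
  rw [if_neg e, hb]
  have h1 := hc (k, j0 / 2 ^ k)
  have h2 := hc (k', j / 2 ^ k')
  have far : ∀ x y : ℕ, x + m ≤ y ∨ y < x → er x y ≤ (if k = k' ∧ Cl C k j0 j then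
      er (col (k, j0 / 2 ^ k)) (col (k, j / 2 ^ k)) else 0) + π / 2 ^ m := by
    rintro x y (h | h)
    · exact (er_le h).trans (le_add_of_nonneg_left h0)
    · rw [er_zero h]
      exact add_nonneg h0 he
  by_cases ha : j0 / 2 ^ k ∈ Lv C k
  swap
  · have h3 : om m C col (k, j0 / 2 ^ k) = 0 := if_neg ha
    have h4 : 4 * m * 1 ≤ 4 * m * k' := Nat.mul_le_mul_left _ hk'
    rw [h3]
    exact far _ _ (Or.inl (by omega))
  have h3 : om m C col (k, j0 / 2 ^ k) =
      4 * m * k + 2 * m * (j0 / 2 ^ k % 2) + col (k, j0 / 2 ^ k) := if_pos ha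
  rw [h3]
  have p1 : 2 * m * (j0 / 2 ^ k % 2) ≤ 2 * m * 1 := Nat.mul_le_mul_left _ (by omega)
  have p2 : 2 * m * (j / 2 ^ k' % 2) ≤ 2 * m * 1 := Nat.mul_le_mul_left _ (by omega)
  rcases lt_trichotomy k k' with h | h | h
  · have h4 : 4 * m * (k + 1) ≤ 4 * m * k' := Nat.mul_le_mul_left _ h
    rw [mul_add] at h4
    exact far _ _ (Or.inl (by omega))
  · subst h
    by_cases hp : j0 / 2 ^ k % 2 = j / 2 ^ k % 2
    · rw [if_pos ⟨rfl, ha, fun e' => e (by rw [e']), hp⟩, hp, er_add]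
      exact le_add_of_nonneg_right he
    · rcases Nat.mod_two_eq_zero_or_one (j0 / 2 ^ k) with q | q
      · have q' : j / 2 ^ k % 2 = 1 := by omega
        refine far _ _ (Or.inl ?_)
        rw [q, q']
        omega
      · have q' : j / 2 ^ k % 2 = 0 := by omega
        refine far _ _ (Or.inr ?_)
        rw [q, q']
        omega
  · have h4 : 4 * m * (k' + 1) ≤ 4 * m * k := Nat.mul_le_mul_left _ h
    rw [mul_add] at h4
    exact far _ _ (Or.inr (by omega))

end Vale.Agent.P091K
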