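import Vale.Agent.P091K.Stm

namespace Vale.Agent.P091K

open MeasureTheory Real Filter Topology Vale.Agent.P091

namespace ErrWAux

theorem inner (h : NodeStmt) (D K k j : ℕ) (C : Finset ℕ) (hD : 2 ≤ D) (hj : j < 2 ^ D)
    (hs : ∑ a ∈ (Lv C k).erase (j / 2 ^ k), 1 / |(a : ℝ) - (j / 2 ^ k : ℕ)| ≤
      12 * ((K : ℝ) + 1)) :
    ∑ j0 ∈ (Finset.range (2 ^ D)).filter (fun j0 => Cl C k j0 j), 1 / |(j0 : ℝ) - j|
      ≤ 24 * ((K : ℝ) + 1) := by
  have hm : ∀ j0 ∈ (Finset.range (2 ^ D)).filter (fun j0 => Cl C k j0 j), j0 / 2 ^ k ∈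
      ((Lv C k).erase (j / 2 ^ k)).filter fun a => a % 2 = j / 2 ^ k % 2 := by
    intro j0 h0
    obtain ⟨-, h1, h2, h3⟩ := Finset.mem_filter.1 h0
    exact Finset.mem_filter.2 ⟨Finset.mem_erase.2 ⟨h2, h1⟩, h3⟩
  rw [← Finset.sum_fiberwise_of_maps_to hm]
  calc _ ≤ ∑ a ∈ ((Lv C k).erase (j / 2 ^ k)).filter (fun a => a % 2 = j / 2 ^ k % 2),
        2 * (1 / |(a : ℝ) - (j / 2 ^ k : ℕ)|) := by
        refine Finset.sum_le_sum fun a ha => ?_
        obtain ⟨h1, h2⟩ := Finset.mem_filter.1 ha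
        have h3 := (Finset.mem_erase.1 h1).1
        have h4 := h D k j a hD hj h3
        have h5 : Nat.dist (j / 2 ^ k) a ≠ 1 := by
          unfold Nat.dist
          omega
        unfold wt at h4
        rw [if_neg h5, zero_add, abs_sub_comm _ (a : ℝ), div_eq_mul_one_div] at h4
        refine le_trans ?_ h4
        calc _ ≤ ∑ j0 ∈ (Finset.range (2 ^ D)).filter (fun j0 => j0 / 2 ^ k = a),
              1 / |(j0 : ℝ) - j| := by
              refine Finset.sum_le_sum_of_subset_of_nonneg (fun j0 h0 => ?_)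
                fun _ _ _ => by positivity
              obtain ⟨h6, h7⟩ := Finset.mem_filter.1 h0
              exact Finset.mem_filter.2 ⟨(Finset.mem_filter.1 h6).1, h7⟩
          _ = _ := Finset.sum_congr rfl fun j0 _ => by rw [abs_sub_comm]
    _ ≤ ∑ a ∈ (Lv C k).erase (j / 2 ^ k), 2 * (1 / |(a : ℝ) - (j / 2 ^ k : ℕ)|) :=
        Finset.sum_le_sum_of_subset_of_nonneg (Finset.filter_subset _ _) fun _ _ _ => by positivity
    _ ≤ _ := by
        rw [← Finset.mul_sum]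
        linarith

end ErrWAux

theorem errW_pf (h : NodeStmt) : ErrWStmt := by
  intro R K C hC
  obtain ⟨-, h1, h2⟩ := hC
  have hD : 2 ≤ DD R K := by unfold DD; omega
  calc _ ≤ ∑ k ∈ Finset.Icc 1 (DD R K), ∑ j ∈ C, 24 * ((K : ℝ) + 1) := by
        refine Finset.sum_le_sum fun k hk => Finset.sum_le_sum fun j hj => ?_
        have h3 := (h1 j hj).2
        exact ErrWAux.inner h _ K k j C hD (by omega)
          (h2 k (Finset.mem_Icc.1 hk).2 _ (Finset.mem_image_of_mem _ hj))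
    _ = _ := by
        rw [Finset.sum_const, Finset.sum_const, Nat.card_Icc, nsmul_eq_mul, nsmul_eq_mul,
          Nat.add_sub_cancel, mul_assoc]

end Vale.Agent.P091K
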