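import Vale.Agent.P091K.Stm

namespace Vale.Agent.P091K

open MeasureTheory Real Filter Topology Vale.Agent.P091

namespace FejAAux

theorem dir (M : ℕ) (t : ℝ) : ∑ j ∈ Finset.range (2 * M + 1), E ((j : ℤ) - M) t =
    (∑ a ∈ Finset.range M, E a t) * E (-(M : ℤ)) t + 1 +
      E M t * ∑ a ∈ Finset.range M, E (-(a : ℤ)) t := by
  rw [show 2 * M + 1 = M + (M + 1) by ring, Finset.sum_range_add, Finset.sum_range_succ',
    Finset.sum_mul, Finset.mul_sum, ← Finset.sum_range_reflect (fun a => E M t * E (-(a : ℤ)) t) M]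
  have e1 : ∑ x ∈ Finset.range M, E ((x : ℤ) - M) t =
      ∑ a ∈ Finset.range M, E a t * E (-(M : ℤ)) t :=
    Finset.sum_congr rfl fun a _ => by rw [← E_add, sub_eq_add_neg]
  have e2 : ∑ x ∈ Finset.range M, E (((M + (x + 1) : ℕ) : ℤ) - M) t =
      ∑ j ∈ Finset.range M, E M t * E (-((M - 1 - j : ℕ) : ℤ)) t :=
    Finset.sum_congr rfl fun a ha => by
      rw [← E_add]
      have := Finset.mem_range.1 ha
      congr 1
      omega
  have e3 : E (((M + 0 : ℕ) : ℤ) - M) t = 1 := by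
    rw [add_zero, sub_self, E_zero]
  rw [e1, e2, e3]
  ring

theorem main (M : ℕ) (t : ℝ) :
    ∑ k ∈ Finset.range (2 * M + 1), (((M : ℝ) - |(k : ℝ) - M| : ℝ) : ℂ) * E ((k : ℤ) - M) t =
      (∑ a ∈ Finset.range M, E a t) * ∑ a ∈ Finset.range M, E (-(a : ℤ)) t := by
  induction M with
  | zero => simp
  | succ M ih =>
    have z1 : (((M + 1 : ℕ) : ℝ) - |((0 : ℕ) : ℝ) - (M + 1 : ℕ)| : ℝ) = 0 := by
      rw [Nat.cast_zero, zero_sub, abs_neg, abs_of_nonneg (Nat.cast_nonneg _), sub_self]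
    have z2 : (((M + 1 : ℕ) : ℝ) - |((2 * M + 1 + 1 : ℕ) : ℝ) - (M + 1 : ℕ)| : ℝ) = 0 := by
      have : ((2 * M + 1 + 1 : ℕ) : ℝ) - (M + 1 : ℕ) = (M + 1 : ℕ) := by push_cast; ring
      rw [this, abs_of_nonneg (Nat.cast_nonneg _), sub_self]
    have mid : ∑ k ∈ Finset.range (2 * M + 1),
        ((((M + 1 : ℕ) : ℝ) - |((k + 1 : ℕ) : ℝ) - (M + 1 : ℕ)| : ℝ) : ℂ) *
          E (((k + 1 : ℕ) : ℤ) - (M + 1 : ℕ)) t =
        ∑ k ∈ Finset.range (2 * M + 1), (((M : ℝ) - |(k : ℝ) - M| : ℝ) : ℂ) * E ((k : ℤ) - M) t +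
          ∑ j ∈ Finset.range (2 * M + 1), E ((j : ℤ) - M) t := by
      rw [← Finset.sum_add_distrib]
      refine Finset.sum_congr rfl fun k _ => ?_
      have a1 : ((k + 1 : ℕ) : ℝ) - (M + 1 : ℕ) = (k : ℝ) - M := by push_cast; ring
      have a2 : ((k + 1 : ℕ) : ℤ) - (M + 1 : ℕ) = (k : ℤ) - M := by push_cast; ring
      rw [a1, a2]
      push_cast
      ring
    rw [show 2 * (M + 1) + 1 = 2 * M + 1 + 1 + 1 by ring, Finset.sum_range_succ,
      Finset.sum_range_succ', mid, z1, z2, ih, dir, Finset.sum_range_succ, Finset.sum_range_succ]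
    have := E_neg_mul M t
    push_cast
    linear_combination (-1 : ℂ) * this

theorem conj_E (k : ℤ) (t : ℝ) : (starRingEnd ℂ) (E k t) = E (-k) t := by
  unfold E
  rw [← Complex.exp_conj]
  congr 1
  simp

end FejAAux

theorem fejA_pf : FejAStmt := by
  intro M t hM
  have hM0 : (M : ℂ) ≠ 0 := by exact_mod_cast (by omega : M ≠ 0)
  have h1 := FejAAux.main M t
  have h2 : ((‖∑ a ∈ Finset.range M, E a t‖ ^ 2 : ℝ) : ℂ) =
      (∑ a ∈ Finset.range M, E a t) * ∑ a ∈ Finset.range M, E (-(a : ℤ)) t := by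
    rw [← Complex.normSq_eq_norm_sq, ← Complex.mul_conj, map_sum]
    simp only [FejAAux.conj_E]
  rw [fr, Complex.ofReal_div, h2, ← h1, Finset.sum_div]
  refine Finset.sum_congr rfl fun k _ => ?_
  rw [kp]
  push_cast
  field_simp

end Vale.Agent.P091K
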