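import Vale.Agent.P091K.Stm

open MeasureTheory Real Filter Topology Vale.Agent.P091

namespace Vale.Agent.P091K

namespace FejBAux

theorem geom (M : ℕ) (t : ℝ) : (E 1 t - 1) * ∑ a ∈ Finset.range M, E a t = E M t - 1 := by
  induction M with
  | zero => simp [E_zero]
  | succ M ih =>
    rw [Finset.sum_range_succ, mul_add, ih, Nat.cast_succ, E_add]
    ring

theorem norm_sub_one (t : ℝ) : ‖E 1 t - 1‖ = 2 * |Real.sin (t / 2)| := by
  have := Complex.norm_exp_I_mul_ofReal_sub_one t
  rw [norm_mul, Real.norm_eq_abs, Real.norm_eq_abs, abs_two] at this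
  rw [← this, E]
  congr 3
  push_cast
  ring

theorem sin_ge {t ρ : ℝ} (h0 : 0 < ρ) (h1 : ρ ≤ |t|) (h2 : |t| ≤ 2 * π - ρ) :
    ρ / π ≤ |Real.sin (t / 2)| := by
  have hp := Real.pi_pos
  have e : Real.sin (|t| / 2) ≤ |Real.sin (t / 2)| := by
    rcases abs_cases t with h | h
    · rw [h.1]
      exact le_abs_self _
    · rw [h.1, neg_div, Real.sin_neg]
      exact neg_le_abs _
  refine le_trans ?_ e
  have k : ∀ v, ρ / 2 ≤ v → v ≤ π / 2 → ρ / π ≤ Real.sin v := fun v a b => by
    refine le_trans ?_ (Real.mul_le_sin (by linarith) b)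
    rw [div_mul_eq_mul_div]
    exact div_le_div_of_nonneg_right (by linarith) hp.le
  rcases le_total (|t| / 2) (π / 2) with h | h
  · exact k _ (by linarith) h
  · rw [← Real.sin_pi_sub]
    exact k _ (by linarith) (by linarith)

end FejBAux

open FejBAux

theorem fejB_pf : FejBStmt := by
  intro M hM
  have hM0 : (0 : ℝ) < M := by exact_mod_cast hM
  have hp := Real.pi_pos
  refine ⟨?_, fun t => ?_, fun t => ?_, fun t ρ h0 h1 h2 => ?_⟩
  · unfold fr
    exact ((continuous_finsetSum _ fun a _ => E_cont _).norm.pow 2).div_const _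
  · unfold fr
    positivity
  · unfold fr
    have : ‖∑ a ∈ Finset.range M, E a t‖ ≤ M :=
      (norm_sum_le _ _).trans (by simp [norm_E])
    rw [div_le_iff₀ hM0, pow_two]
    exact mul_self_le_mul_self (norm_nonneg _) this
  · unfold fr
    have h3 : ‖E 1 t - 1‖ * ‖∑ a ∈ Finset.range M, E a t‖ ≤ 2 := by
      rw [← norm_mul, geom]
      refine (norm_sub_le _ _).trans ?_
      rw [norm_E, norm_one]
      norm_num
    rw [norm_sub_one] at h3
    have h4 := mul_le_mul_of_nonneg_right (sin_ge h0 h1 h2)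
      (norm_nonneg (∑ a ∈ Finset.range M, E a t))
    have h5 : ‖∑ a ∈ Finset.range M, E a t‖ ≤ π / ρ := by
      rw [le_div_iff₀ h0]
      rw [div_mul_eq_mul_div, div_le_iff₀ hp] at h4
      nlinarith
    have h6 := pow_le_pow_left₀ (norm_nonneg _) h5 2
    refine (div_le_div_of_nonneg_right h6 hM0.le).trans_eq ?_
    rw [div_pow, div_div, mul_comm]

end Vale.Agent.P091K
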