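import Vale.Agent.P091K.Stm

namespace Vale.Agent.P091K

open MeasureTheory Real Filter Topology Vale.Agent.P091

namespace FejCAux

theorem int_E (d : ℤ) :
    (∫ x in (0 : ℝ)..(2 * π), E d x) = if d = 0 then ((2 * π : ℝ) : ℂ) else 0 := by
  split_ifs with h
  · subst h
    simp [E_zero]
  · have hd : (d : ℂ) * Complex.I ≠ 0 := mul_ne_zero (by exact_mod_cast h) Complex.I_ne_zero
    have e : ∀ x : ℝ, E d x = Complex.exp ((d : ℂ) * Complex.I * x) := fun x => by
      unfold E; congr 1; ring
    simp only [e]
    rw [integral_exp_mul_complex hd]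
    have e2 : (d : ℂ) * Complex.I * ((2 * π : ℝ) : ℂ) = (d : ℂ) * (2 * π * Complex.I) := by
      push_cast; ring
    rw [e2, Complex.exp_int_mul_two_pi_mul_I]
    simp

theorem grid_E (d : ℤ) (G : ℕ) (hG : |d| < G) :
    ∑ g ∈ Finset.range G, E d (2 * π * g / G) = if d = 0 then (G : ℂ) else 0 := by
  split_ifs with h
  · subst h
    simp [E_zero]
  · have hG0 : 0 < G := by
      have := abs_nonneg d
      omega
    have hGc : (G : ℂ) ≠ 0 := by exact_mod_cast hG0.ne'
    have e : ∀ g : ℕ, E d (2 * π * g / G) =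
        Complex.exp ((d : ℂ) / G * (2 * π * Complex.I)) ^ g := fun g => by
      rw [← Complex.exp_nat_mul]
      unfold E; congr 1; push_cast; ring
    have h1 : Complex.exp ((d : ℂ) / G * (2 * π * Complex.I)) ≠ 1 := by
      intro h1
      obtain ⟨n, hn⟩ := Complex.exp_eq_one_iff.1 h1
      have h2 : (d : ℂ) / G = n := mul_right_cancel₀ Complex.two_pi_I_ne_zero hn
      rw [div_eq_iff hGc] at h2
      have h3 : d = n * G := by exact_mod_cast h2
      have h4 : (G : ℤ) ≤ |d| :=
        Int.le_of_dvd (abs_pos.2 h) ((dvd_abs _ _).2 ⟨n, by rw [h3, mul_comm]⟩)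
      omega
    have h2 : Complex.exp ((d : ℂ) / G * (2 * π * Complex.I)) ^ G = 1 := by
      rw [← Complex.exp_nat_mul, ← mul_assoc, mul_div_cancel₀ _ hGc,
        Complex.exp_int_mul_two_pi_mul_I]
    simp only [e]
    rw [geom_sum_eq h1, h2, sub_self, zero_div]

theorem kp_self (M : ℕ) : kp M M = 1 := by simp [kp]

end FejCAux

open FejCAux in
theorem fejC_pf (h : FejAStmt) : FejCStmt := by
  intro M hM
  have hMm : M ∈ Finset.range (2 * M + 1) := Finset.mem_range.2 (by omega)
  refine ⟨fun p => ?_, fun G x hG => ?_⟩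
  · apply Complex.ofReal_injective
    rw [← intervalIntegral.integral_ofReal]
    simp only [← h M _ hM, E_sub']
    rw [intervalIntegral.integral_finset_sum (f := fun (k : ℕ) (x : ℝ) =>
      (kp M k : ℂ) * (E ((k : ℤ) - M) x * E (-((k : ℤ) - M)) p)) fun k _ =>
      (continuous_const.mul ((E_cont _).mul continuous_const)).intervalIntegrable _ _]
    simp only [intervalIntegral.integral_const_mul, intervalIntegral.integral_mul_const, int_E]
    rw [Finset.sum_eq_single_of_mem M hMm]
    · simp [kp_self, E_zero]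
    · intro k _ hk
      rw [if_neg (by omega)]
      simp
  · apply Complex.ofReal_injective
    push_cast
    simp only [← h M _ hM, E_sub']
    rw [Finset.sum_comm]
    simp only [← Finset.mul_sum]
    rw [Finset.sum_eq_single_of_mem M hMm]
    · simp [kp_self, E_zero]
    · intro k hk hkM
      have := Finset.mem_range.1 hk
      rw [grid_E _ G (by rw [abs_lt]; omega), if_neg (by omega)]
      simp

end Vale.Agent.P091K
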