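import Vale.Agent.P091K.Stm

namespace Vale.Agent.P091K

open MeasureTheory Real Filter Topology Vale.Agent.P091

namespace GkNAux

theorem term (M k : ℕ) (x y : ℝ) :
    E (-(k : ℤ)) y * E k x = E M (x - y) * E ((k : ℤ) - M) (x - y) := by
  rw [← E_add, add_sub_cancel, E_sub', mul_comm]

theorem val (h1 : FejAStmt) {M : ℕ} (hM : 1 ≤ M) (L0 : ℤ) (C : Finset ℕ) (p : ℕ → ℝ) (x : ℝ) :
    ev x (gk M L0 C p) = ∑ j ∈ C, ((1 / C.card : ℝ) : ℂ) * E L0 (p j) * E M (x - p j) *
      (fr M (x - p j) : ℂ) := by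
  unfold gk
  rw [map_sum]
  refine Finset.sum_congr rfl fun j _ => ?_
  rw [map_sum, ← h1 M (x - p j) hM, Finset.mul_sum]
  refine Finset.sum_congr rfl fun k _ => ?_
  rw [ev_single, mul_assoc, term M k]
  ring

theorem bnd (h1 : FejAStmt) (h2 : FejBStmt) {M : ℕ} (hM : 1 ≤ M) (L0 : ℤ) (C : Finset ℕ)
    (p : ℕ → ℝ) (x : ℝ) :
    ‖ev x (gk M L0 C p)‖ ≤ ∑ j ∈ C, (1 / C.card : ℝ) * fr M (x - p j) := by
  rw [val h1 hM]
  refine (norm_sum_le _ _).trans (le_of_eq (Finset.sum_congr rfl fun j _ => ?_))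
  rw [norm_mul, norm_mul, norm_mul, norm_E, norm_E, mul_one, mul_one, Complex.norm_real,
    Complex.norm_real, Real.norm_of_nonneg (by positivity),
    Real.norm_of_nonneg ((h2 M hM).2.1 _)]

end GkNAux

theorem gkN_pf (h1 : FejAStmt) (h2 : FejBStmt) (h3 : FejCStmt) : GkNStmt := by
  intro M L0 C p hM hC
  obtain ⟨c1, c2, c3, -⟩ := h2 M hM
  have hc : (C.card : ℝ) ≠ 0 := Nat.cast_ne_zero.2 hC.card_pos.ne'
  have avg : ∀ y : ℝ, ∑ _j ∈ C, (1 / C.card : ℝ) * y = y := fun y => by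
    rw [Finset.sum_const, nsmul_eq_mul]
    field_simp
  refine ⟨sup_sum fun j _ => sup_sum fun k hk => sup_single _ (by omega)
    (by have := Finset.mem_range.1 hk; omega), fun x => ?_, ?_⟩
  · refine (GkNAux.bnd h1 h2 hM L0 C p x).trans (le_trans ?_ (avg M).le)
    exact Finset.sum_le_sum fun j _ => mul_le_mul_of_nonneg_left (c3 _) (by positivity)
  · have ct : ∀ j, Continuous fun x => (1 / C.card : ℝ) * fr M (x - p j) := fun j =>
      continuous_const.mul (c1.comp (continuous_sub_right _))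
    have cs : Continuous fun x => ∑ j ∈ C, (1 / C.card : ℝ) * fr M (x - p j) :=
      continuous_finsetSum _ fun j _ => ct j
    have e : ∫ x in Set.Ioc 0 (2 * π), ∑ j ∈ C, (1 / C.card : ℝ) * fr M (x - p j) = 2 * π := by
      rw [← intervalIntegral.integral_of_le two_pi_pos.le,
        intervalIntegral.integral_finsetSum fun j _ => (ct j).intervalIntegrable _ _]
      refine Eq.trans (Finset.sum_congr rfl fun j _ => ?_) (avg _)
      rw [intervalIntegral.integral_const_mul, (h3 M hM).1]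
    refine (lintegral_mono fun x =>
      ENNReal.ofReal_le_ofReal (GkNAux.bnd h1 h2 hM L0 C p x)).trans (le_of_eq ?_)
    rw [← ofReal_integral_eq_lintegral_ofReal (cs.integrableOn_Icc.mono_set Set.Ioc_subset_Icc_self)
      (ae_of_all _ fun x => Finset.sum_nonneg fun j _ => mul_nonneg (by positivity) (c2 _)), e]

end Vale.Agent.P091K
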