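import Vale.Agent.P091K.Stm

namespace Vale.Agent.P091K

open MeasureTheory Real Filter Topology Vale.Agent.P091

namespace GkPAux

noncomputable def AA (M N : ℕ) (u : ℝ) : ℂ :=
  ∑ k ∈ Finset.range (2 * M + 1), if (k : ℤ) < (N : ℤ) then (kp M k : ℂ) * E k u else 0

theorem ps_gk (M N : ℕ) (L0 : ℤ) (C : Finset ℕ) (p : ℕ → ℝ) (x : ℝ) :
    ps N x (gk M L0 C p) =
      ((1 / C.card : ℝ) : ℂ) * ∑ j ∈ C, E L0 (p j) * AA M N (x - p j) := by
  rw [gk, map_sum, Finset.mul_sum]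
  refine Finset.sum_congr rfl fun j _ => ?_
  rw [map_sum, AA, Finset.mul_sum, Finset.mul_sum]
  refine Finset.sum_congr rfl fun k _ => ?_
  rw [ps_single]
  split_ifs
  · rw [E_sub']
    ring
  · simp

theorem one (h1 : KerStmt) (h2 : AbelStmt) {M N : ℕ} (L0 : ℤ) {x q ρ : ℝ} (hM : 1 ≤ M)
    (hN : N ≤ M) (hρ : 0 < ρ) (ha : ρ ≤ |x - q|) (hb : |x - q| ≤ 3 * π / 2) :
    (N : ℝ) / M * ((E (L0 - N) q).re / (x - q)) - 3 - 32 / (M * ρ ^ 2) ≤
      (Complex.I * E (-N) x * (E L0 q * AA M N (x - q))).re := by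
  have u0 : x - q ≠ 0 := abs_pos.1 (hρ.trans_le ha)
  obtain ⟨k1, k2⟩ := h1 (x - q) u0 hb
  have k3 : ρ / 4 ≤ ‖E 1 (x - q) - 1‖ := by linarith
  have k4 : E 1 (x - q) ≠ 1 := by
    intro e
    rw [e, sub_self, norm_zero] at k3
    linarith
  have k5 := h2 M N (x - q) hM hN k4
  have M0 : (0 : ℝ) < M := by exact_mod_cast hM
  have k6 : 2 / (M * ‖E 1 (x - q) - 1‖ ^ 2) ≤ 32 / (M * ρ ^ 2) := by
    have : (ρ / 4) ^ 2 ≤ ‖E 1 (x - q) - 1‖ ^ 2 := pow_le_pow_left₀ (by positivity) k3 2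
    calc 2 / (M * ‖E 1 (x - q) - 1‖ ^ 2) ≤ 2 / (M * (ρ / 4) ^ 2) := by gcongr
      _ = 32 / (M * ρ ^ 2) := by
        field_simp
        norm_num
  have r0 : (0 : ℝ) ≤ (N : ℝ) / M := by positivity
  have r1 : (N : ℝ) / M ≤ 1 := (div_le_one M0).2 (by exact_mod_cast hN)
  have e0 : E (-N) x * E L0 q * E N (x - q) = E (L0 - N) q := by
    rw [E_sub', sub_eq_add_neg L0, E_add]
    linear_combination (E L0 q * E (-N) q) * E_neg_mul N x
  have e1 : Complex.I * E (-N) x * (E L0 q * AA M N (x - q)) =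
      (((N : ℝ) / M * (1 / (x - q)) : ℝ) : ℂ) * E (L0 - N) q +
      ((((N : ℝ) / M : ℝ) : ℂ) * E (L0 - N) q *
        (Complex.I / (E 1 (x - q) - 1) - ((1 / (x - q) : ℝ) : ℂ)) +
      Complex.I * E (-N) x * E L0 q * (AA M N (x - q) -
        (((N : ℝ) / M : ℝ) : ℂ) * (E N (x - q) / (E 1 (x - q) - 1)))) := by
    rw [← e0, Complex.ofReal_mul]
    ring
  have n1 : ‖(((N : ℝ) / M : ℝ) : ℂ) * E (L0 - N) q *
      (Complex.I / (E 1 (x - q) - 1) - ((1 / (x - q) : ℝ) : ℂ))‖ ≤ 3 := by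
    rw [norm_mul, norm_mul, norm_E, mul_one, Complex.norm_real, Real.norm_of_nonneg r0]
    exact (mul_le_of_le_one_left (norm_nonneg _) r1).trans k1
  have n2 : ‖Complex.I * E (-N) x * E L0 q * (AA M N (x - q) -
      (((N : ℝ) / M : ℝ) : ℂ) * (E N (x - q) / (E 1 (x - q) - 1)))‖ ≤ 32 / (M * ρ ^ 2) := by
    rw [norm_mul, norm_mul, norm_mul, norm_E, norm_E, Complex.norm_I, one_mul, one_mul, one_mul]
    exact k5.trans k6
  rw [e1, Complex.add_re, Complex.add_re, Complex.re_ofReal_mul, mul_assoc, one_div_mul_eq_div]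
  have n3 := (abs_le.1 ((Complex.abs_re_le_norm _).trans n1)).1
  have n4 := (abs_le.1 ((Complex.abs_re_le_norm _).trans n2)).1
  linarith

end GkPAux

open GkPAux in
theorem gkP_pf (h1 : KerStmt) (h2 : AbelStmt) : GkPStmt := by
  intro M N L0 C p x ρ hM hN hC hρ h
  have c0 : (0 : ℝ) < C.card := by exact_mod_cast hC.card_pos
  have s := Finset.sum_le_sum fun j hj => one h1 h2 L0 hM hN hρ (h j hj).1 (h j hj).2
  rw [Finset.sum_sub_distrib, Finset.sum_sub_distrib, Finset.sum_const, Finset.sum_const,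
    nsmul_eq_mul, nsmul_eq_mul, ← Finset.mul_sum, ← Complex.re_sum, ← Finset.mul_sum] at s
  rw [gn, ps_gk, mul_left_comm _ (((1 / C.card : ℝ) : ℂ)), Complex.re_ofReal_mul]
  refine le_of_eq_of_le ?_ (mul_le_mul_of_nonneg_left s (by positivity))
  field_simp

end Vale.Agent.P091K
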