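import Vale.Agent.P091K.Stm

namespace Vale.Agent.P091K

open MeasureTheory Real Filter Topology Vale.Agent.P091

namespace H2Aux

theorem fz_cont (b : ℕ → Blk) (τ : ℕ → ℝ) (r : ℕ) : Continuous (fz b τ r) :=
  (E_cont _).mul ((ev_cont _).comp (continuous_id.sub continuous_const))

theorem fz_per (b : ℕ → Blk) (τ : ℕ → ℝ) (r : ℕ) (x : ℝ) : fz b τ r (x + 2 * π) = fz b τ r x := by
  unfold fz
  have h1 := E_per (Gam b r) 1 x
  have h2 := ev_per (b r).c (x - τ r) 1
  rw [Int.cast_one, one_mul] at h1 h2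
  rw [h1, show x + 2 * π - τ r = x - τ r + 2 * π by ring, h2]

theorem lint_le (h : PhiLStmt) {b : ℕ → Blk} (τ : ℕ → ℝ) (hb : Ch b) (r : ℕ) :
    ∫⁻ x in Set.Ioc 0 (2 * π), ‖fz b τ r x‖ₑ ≤ ENNReal.ofReal ((1 / 2) ^ r) := by
  obtain ⟨-, hR, hL, hC, -⟩ := hb r
  have hp : Function.Periodic (fun x => ENNReal.ofReal ((b r).h x)) (2 * π) := fun x => by
    simp only [hR.2.1 x]
  refine le_trans ?_ ((lint_shift hp (τ r)).le.trans hL)
  refine lintegral_mono fun x => ?_
  show ‖fz b τ r x‖ₑ ≤ ENNReal.ofReal ((b r).h (x - τ r))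
  rw [← ofReal_norm]
  refine ENNReal.ofReal_le_ofReal ?_
  have h1 := hC 0 (x - τ r) le_rfl (Finset.sum_nonneg fun s _ => nm_nonneg _)
  have h2 : Ph 0 = 0 := by simp [Ph]
  rw [h2, zero_add, zero_add] at h1
  unfold fz
  rw [norm_mul, norm_E, one_mul]
  exact (h.2.1 _ (norm_nonneg _)).trans h1

end H2Aux

open H2Aux in
theorem h2_pf (h : PhiLStmt) : H2Stmt := by
  intro b τ hb
  have hT : (0 : ℝ) ≤ 2 * π := by positivity
  set μ : Measure ℝ := volume.restrict (Set.Ioc 0 (2 * π)) with hμ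
  have hi : ∀ r, Integrable (fz b τ r) μ := fun r => ((fz_cont b τ r).intervalIntegrable 0 (2 * π)).1
  have hle : ∀ r, ∫ x, ‖fz b τ r x‖ ∂μ ≤ (1 / 2) ^ r := by
    intro r
    rw [integral_norm_eq_lintegral_enorm (hi r).1]
    exact ENNReal.toReal_le_of_le_ofReal (by positivity) (lint_le h τ hb r)
  have hs : Summable fun r => ∫ x, ‖fz b τ r x‖ ∂μ :=
    Summable.of_nonneg_of_le (fun r => integral_nonneg fun _ => norm_nonneg _) hle
      summable_geometric_two
  refine ⟨fun x => ?_, ?_, fun k => ?_⟩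
  · unfold FF
    simp only [fz_per]
  · rw [intervalIntegrable_iff_integrableOn_Ioc_of_le hT]
    have hm : Measurable (FF b τ) := Measurable.tsum fun r => (fz_cont b τ r).measurable
    refine ⟨hm.aestronglyMeasurable, ?_⟩
    calc ∫⁻ x, ‖FF b τ x‖ₑ ∂μ ≤ ∫⁻ x, ∑' r, ‖fz b τ r x‖ₑ ∂μ :=
          lintegral_mono fun x => enorm_tsum_le_tsum_enorm
      _ = ∑' r, ∫⁻ x, ‖fz b τ r x‖ₑ ∂μ := lintegral_tsum fun r => (hi r).1.enorm
      _ ≤ ∑' r : ℕ, ENNReal.ofReal ((1 / 2) ^ r) := ENNReal.tsum_le_tsum (lint_le h τ hb)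
      _ < ⊤ := by
        rw [← ENNReal.ofReal_tsum_of_nonneg (fun r => by positivity) summable_geometric_two]
        exact ENNReal.ofReal_lt_top
  · unfold coef
    refine HasSum.mul_left _ ?_
    simp only [intervalIntegral.integral_of_le hT]
    set F : ℕ → ℝ → ℂ := fun r x =>
      fz b τ r x * Complex.exp (-((k : ℂ) * (x : ℂ) * Complex.I)) with hF
    have hFc : ∀ r, Continuous (F r) := by
      intro r
      have := fz_cont b τ r
      simp only [hF]
      fun_prop
    have hFi : ∀ r, Integrable (F r) μ := fun r => ((hFc r).intervalIntegrable 0 (2 * π)).1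
    have hn : ∀ r x, ‖F r x‖ = ‖fz b τ r x‖ := by
      intro r x
      simp only [hF]
      rw [norm_mul, norm_exp_neg, mul_one]
    have hS := hasSum_integral_of_summable_integral_norm hFi (by simpa only [hn] using hs)
    have e : ∀ x, ∑' r, F r x = FF b τ x * Complex.exp (-((k : ℂ) * (x : ℂ) * Complex.I)) :=
      fun x => tsum_mul_right
    simp only [e] at hS
    exact hS

end Vale.Agent.P091K
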