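import Vale.Agent.P091K.Stm

namespace Vale.Agent.P091K

open MeasureTheory Real Filter Topology Vale.Agent.P091

namespace H3Aux

theorem gam_lt (b : ℕ → Blk) {s r : ℕ} (h : s < r) : Gam b s + ((b s).Dg + 1) ≤ Gam b r := by
  unfold Gam
  rw [← Finset.sum_range_succ (fun s => (b s).Dg + 1)]
  exact Finset.sum_le_sum_of_subset (Finset.range_subset_range.2 h)

end H3Aux

open H3Aux in
theorem h3_pf (h1 : SPolyStmt) (h2 : H2Stmt) : H3Stmt := by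
  rintro b τ hc x hx ⟨B, hB⟩
  have hs : ∀ N : ℕ, HasSum (fun s => E (Gam b s) x * ps ((N : ℤ) + 1 - Gam b s) (x - τ s) (b s).c)
      (S (FF b τ) N x) := fun N => by
    have e : ∀ s, E (Gam b s) x * ps ((N : ℤ) + 1 - Gam b s) (x - τ s) (b s).c =
        S (fz b τ s) N x := fun s =>
      (h1 (b s).c (b s).Dg (Gam b s) (τ s) x N (hc s).1 (Int.natCast_nonneg _)).symm
    simp only [e]
    unfold S
    exact hasSum_sum fun k _ => ((h2 b τ hc).2.2 k).mul_right _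
  obtain ⟨r, hr, hA⟩ := frequently_atTop.1 hx (⌈2 * B⌉₊ + 1)
  obtain ⟨N, n0, n1, hN⟩ := (hc r).2.2.2.2.2.2.2 _ hA
  have g1 := gam_lt b (show 0 < r by omega)
  obtain ⟨N₁, e1⟩ : ∃ N₁ : ℕ, (N₁ : ℤ) + 1 = Gam b r + N := ⟨Gam b r + N.toNat - 1, by omega⟩
  obtain ⟨N₀, e0⟩ : ∃ N₀ : ℕ, (N₀ : ℤ) + 1 = Gam b r := ⟨Gam b r - 1, by omega⟩
  have h3 := ((hs N₁).sub (hs N₀)).unique (hasSum_single r fun s hsr => by
    rcases lt_or_gt_of_ne hsr with h | h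
    · have := gam_lt b h
      rw [ps_high (hc s).1 (by omega), ps_high (hc s).1 (by omega), sub_self]
    · have := gam_lt b h
      rw [ps_low (hc s).1 (by omega), ps_low (hc s).1 (by omega), sub_self])
  rw [e1, e0, add_sub_cancel_left, sub_self, ps_low (hc r).1 le_rfl, mul_zero, sub_zero] at h3
  have h4 := norm_sub_le (S (FF b τ) N₁ x) (S (FF b τ) N₀ x)
  rw [h3, norm_mul, norm_E, one_mul] at h4
  have b1 : ‖S (FF b τ) N₁ x‖ ≤ B := hB ⟨N₁, rfl⟩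
  have b0 : ‖S (FF b τ) N₀ x‖ ≤ B := hB ⟨N₀, rfl⟩
  have b4 : ((⌈2 * B⌉₊ + 1 : ℕ) : ℝ) ≤ r := by exact_mod_cast hr
  push_cast at b4
  linarith [Nat.le_ceil (2 * B)]

end Vale.Agent.P091K
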