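import Vale.Agent.P091K.Stm

namespace Vale.Agent.P091K

open MeasureTheory Real Filter Topology Vale.Agent.P091

namespace H4Aux

theorem pw (hP : PhiLStmt) (f : ℕ → ℂ) (h : ℕ → ℝ) (h0 : ∀ r, 0 ≤ h r)
    (hs : ∀ r, Ph (∑ s ∈ Finset.range r, ‖f s‖) ≤ ∑ s ∈ Finset.range r, h s) :
    ENNReal.ofReal (Ph ‖∑' r, f r‖) ≤ ∑' r, ENNReal.ofReal (h r) := by
  obtain ⟨hm, hl, hc, -⟩ := hP
  by_cases ht : ∑' r, ENNReal.ofReal (h r) = ⊤
  · rw [ht]
    exact le_top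
  have hsum : Summable h := by
    refine (ENNReal.summable_toReal ht).congr fun r => ?_
    exact ENNReal.toReal_ofReal (h0 r)
  have p0 : ∀ r, 0 ≤ ∑ s ∈ Finset.range r, ‖f s‖ := fun r =>
    Finset.sum_nonneg fun _ _ => norm_nonneg _
  have hb : ∀ r, Ph (∑ s ∈ Finset.range r, ‖f s‖) ≤ ∑' r, h r := fun r =>
    (hs r).trans (hsum.sum_le_tsum _ fun i _ => h0 i)
  have ha : Summable fun r => ‖f r‖ :=
    summable_of_sum_range_le (fun _ => norm_nonneg _) fun r => (hl _ (p0 r)).trans (hb r)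
  have t0 : 0 ≤ ∑' r, ‖f r‖ := tsum_nonneg fun _ => norm_nonneg _
  have hlim : Tendsto (fun r => ∑ s ∈ Finset.range r, ‖f s‖) atTop
      (𝓝[Set.Ici 0] (∑' r, ‖f r‖)) :=
    tendsto_nhdsWithin_iff.2 ⟨ha.hasSum.tendsto_sum_nat, Eventually.of_forall p0⟩
  have h2 : Ph (∑' r, ‖f r‖) ≤ ∑' r, h r :=
    le_of_tendsto' ((hc _ t0).tendsto.comp hlim) hb
  rw [← ENNReal.ofReal_tsum_of_nonneg h0 hsum]
  exact ENNReal.ofReal_le_ofReal
    ((hm _ _ (norm_nonneg _) (norm_tsum_le_tsum_norm ha)).trans h2)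

theorem norm_fz (b : ℕ → Blk) (τ : ℕ → ℝ) (r : ℕ) (x : ℝ) :
    ‖fz b τ r x‖ = ‖ev (x - τ r) (b r).c‖ := by
  rw [fz, norm_mul, norm_E, one_mul]

theorem part (b : ℕ → Blk) (τ : ℕ → ℝ) (hb : Ch b) (x : ℝ) (r : ℕ) :
    Ph (∑ s ∈ Finset.range r, ‖fz b τ s x‖) ≤ ∑ s ∈ Finset.range r, (b s).h (x - τ s) := by
  induction r with
  | zero => simp [Ph]
  | succ r ih =>
    rw [Finset.sum_range_succ, Finset.sum_range_succ, norm_fz b τ r]
    have hc := (hb r).2.2.2.1 (∑ s ∈ Finset.range r, ‖fz b τ s x‖) (x - τ r)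
      (Finset.sum_nonneg fun _ _ => norm_nonneg _)
      (Finset.sum_le_sum fun s _ => by rw [norm_fz]; exact norm_ev_le _ _)
    linarith

end H4Aux

theorem h4_pf (h : PhiLStmt) : H4Stmt := by
  intro b τ hb
  have h1 : LI (fun x => Ph ‖FF b τ x‖) ≤
      ∫⁻ x in Set.Ioc 0 (2 * π), ∑' r, ENNReal.ofReal ((b r).h (x - τ r)) :=
    lintegral_mono fun x => H4Aux.pw h (fun r => fz b τ r x) (fun r => (b r).h (x - τ r))
      (fun r => (hb r).2.1.2.2 _) (H4Aux.part b τ hb x)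
  have hm : ∀ r, Measurable fun x : ℝ => ENNReal.ofReal ((b r).h (x - τ r)) := fun r =>
    ((hb r).2.1.1.comp (measurable_id.sub_const _)).ennreal_ofReal
  rw [lintegral_tsum fun r => (hm r).aemeasurable] at h1
  have h2 : ∀ r, ∫⁻ x in Set.Ioc 0 (2 * π), ENNReal.ofReal ((b r).h (x - τ r)) ≤
      ENNReal.ofReal ((1 / 2) ^ r) := by
    intro r
    have hp : Function.Periodic (fun x => ENNReal.ofReal ((b r).h x)) (2 * π) := fun x => by
      simp only [(hb r).2.1.2.1 x]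
    rw [lint_shift hp (τ r)]
    exact (hb r).2.2.1
  refine lt_of_le_of_lt (h1.trans (ENNReal.tsum_le_tsum h2)) ?_
  rw [← ENNReal.ofReal_tsum_of_nonneg (fun r => by positivity) summable_geometric_two]
  exact ENNReal.ofReal_lt_top

end Vale.Agent.P091K
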