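import Vale.Agent.P091K.Stm

namespace Vale.Agent.P091K

open MeasureTheory Real Filter Topology Vale.Agent.P091

namespace IndAux

theorem cells (f : ℝ → ENNReal) {d : ℝ} (hd : 0 ≤ d) (k : ℕ) :
    ∫⁻ x in Set.Ico 0 (d * k), f x =
      ∑ j ∈ Finset.range k, ∫⁻ x in Set.Ico (d * j) (d * (j + 1)), f x := by
  induction k with
  | zero => simp
  | succ k ih =>
    have h1 : 0 ≤ d * k := mul_nonneg hd (Nat.cast_nonneg k)
    have h2 : d * k ≤ d * (k + 1) := by linarith
    rw [Finset.sum_range_succ, ← ih, Nat.cast_succ, ← Set.Ico_union_Ico_eq_Ico h1 h2,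
      lintegral_union measurableSet_Ico Set.Ico_disjoint_Ico_same]

end IndAux

open IndAux

theorem ind_pf (h1 : CellStmt) (h2 : IndAStmt) : IndStmt := by
  intro n p W z hn hp hW hP hz
  have n0 : (0 : ℝ) < n := by exact_mod_cast hn
  have p0 : (0 : ℝ) < p := by exact_mod_cast hp
  have e : 2 * π = 2 * π / n * n := by field_simp
  have hc := (h1 n hn).2.2.2.2.1
  rw [← setLIntegral_congr Ico_ae_eq_Ioc, e, cells _ (by positivity), ← e, Finset.sum_div,
    ENNReal.ofReal_sum_of_nonneg fun j hj => div_nonneg (hz j (Finset.mem_range.1 hj)) n0.le,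
    Finset.mul_sum]
  refine Finset.sum_congr rfl fun j hj => ?_
  have hj' := Finset.mem_range.1 hj
  have a1 : 2 * π / n * (j + 1) = 2 * π / n * j + p * (2 * π) / (n * p) := by field_simp
  have a2 : ∫⁻ x in Set.Ico (2 * π / n * j) (2 * π / n * (j + 1)),
      W ((n : ℝ) * p * x) * ENNReal.ofReal (z (cl n x)) =
      ∫⁻ x in Set.Ico (2 * π / n * j) (2 * π / n * (j + 1)),
      W ((n : ℝ) * p * x) * ENNReal.ofReal (z j) := by
    refine setLIntegral_congr_fun measurableSet_Ico fun x hx => ?_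
    rw [hc j x hj' (by rwa [mul_div_right_comm, mul_div_right_comm (2 * π) ((j : ℝ) + 1)])]
  rw [a2, lintegral_mul_const' _ _ ENNReal.ofReal_ne_top, a1,
    h2 W hW hP (n * p) _ p (by positivity), mul_comm (ENNReal.ofReal _), mul_assoc,
    ← ENNReal.ofReal_mul (by positivity)]
  have a3 : (p : ℝ) / (n * p) * z j = z j / n := by field_simp
  rw [a3]

end Vale.Agent.P091K
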