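import Vale.Agent.P091K.Stm

namespace Vale.Agent.P091K

open MeasureTheory Real Filter Topology Vale.Agent.P091

namespace IndAAux

theorem one {W : ℝ → ENNReal} (hp : Function.Periodic W (2 * π)) (c : ℝ) :
    ∫⁻ x in Set.Ico c (c + 2 * π), W x = ∫⁻ x in Set.Ioc 0 (2 * π), W x := by
  rw [← lint_shift hp (-c), setLIntegral_congr Ico_ae_eq_Ioc]
  have := (measurePreserving_sub_right (volume : Measure ℝ) (-c)).setLIntegral_comp_preimage_emb
    (MeasurableEquiv.subRight (-c)).measurableEmbedding W (Set.Ioc c (c + 2 * π))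
  rw [← this]
  congr 2
  ext x
  simp only [Set.mem_Ioc, Set.mem_preimage]
  constructor <;> rintro ⟨a, b⟩ <;> constructor <;> linarith

theorem many {W : ℝ → ENNReal} (hp : Function.Periodic W (2 * π)) (c : ℝ) (p : ℕ) :
    ∫⁻ x in Set.Ico c (c + p * (2 * π)), W x = p * ∫⁻ x in Set.Ioc 0 (2 * π), W x := by
  induction p with
  | zero => simp
  | succ p ih =>
    have hT : (0 : ℝ) < 2 * π := by positivity
    have h0 : (0 : ℝ) ≤ p * (2 * π) := by positivity
    have e : Set.Ico c (c + ((p + 1 : ℕ) : ℝ) * (2 * π))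
        = Set.Ico c (c + p * (2 * π)) ∪ Set.Ico (c + p * (2 * π)) (c + p * (2 * π) + 2 * π) := by
      rw [Set.Ico_union_Ico_eq_Ico (by linarith) (by linarith)]
      congr 1
      push_cast
      ring
    rw [e, lintegral_union measurableSet_Ico Set.Ico_disjoint_Ico_same, ih, one hp]
    push_cast
    ring

end IndAAux

open IndAAux in
theorem indA_pf : IndAStmt := by
  intro W hW hp w a p hw
  have hm : Measurable fun x : ℝ => w * x := by fun_prop
  have e : Set.Ico a (a + p * (2 * π) / w)
      = (fun x : ℝ => w * x) ⁻¹' Set.Ico (w * a) (w * a + p * (2 * π)) := by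
    ext x
    simp only [Set.mem_Ico, Set.mem_preimage]
    have k : w * a + p * (2 * π) = w * (a + p * (2 * π) / w) := by field_simp
    rw [k, mul_le_mul_iff_right₀ hw, mul_lt_mul_iff_right₀ hw]
  rw [e, ← setLIntegral_map measurableSet_Ico hW hm, Real.map_volume_mul_left hw.ne',
    Measure.restrict_smul, lintegral_smul_measure, many hp, abs_of_pos (inv_pos.2 hw),
    smul_eq_mul, ← mul_assoc, div_eq_mul_inv, mul_comm (p : ℝ),
    ENNReal.ofReal_mul (inv_pos.2 hw).le, ENNReal.ofReal_natCast]

end Vale.Agent.P091K
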