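import Vale.Agent.P091K.Stm

namespace Vale.Agent.P091K

open MeasureTheory Real Filter Topology Vale.Agent.P091

namespace IterAux

theorem LI_one : LI (fun _ => (1 : ℝ)) = ENNReal.ofReal (2 * π) := by
  simp [LI]

theorem LI_zero : LI (fun _ => (0 : ℝ)) = 0 := by
  simp [LI]

theorem reg_zero : Reg (fun _ => (0 : ℝ)) :=
  ⟨measurable_const, fun _ => rfl, fun _ => le_rfl⟩

theorem base (V : ℝ) : Inv V 0 (2 * π) 0 0 ⟨0, 0, fun _ => 0, fun _ => 0, fun _ => 0⟩ := by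
  refine ⟨?_, reg_zero, reg_zero, reg_zero, ?_, ?_, ?_, ?_, ?_, ?_⟩
  · intro k hk
    simp at hk
  · intro x
    simp
  · simp only [neg_zero, Real.exp_zero]
    exact LI_one.le
  · exact LI_zero.le.trans zero_le
  · exact LI_zero.le.trans zero_le
  · intro u x _ _
    simp
  · intro x
    refine ⟨0, le_rfl, by simp, ?_⟩
    simp [gn]

end IterAux

theorem iter_pf (h : LevelStmt) : IterStmt := by
  intro V R l hV hR
  induction l with
  | zero =>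
    refine ⟨⟨0, 0, fun _ => 0, fun _ => 0, fun _ => 0⟩, ?_⟩
    have := IterAux.base V
    simpa using this
  | succ l ih =>
    obtain ⟨d, hd⟩ := ih
    obtain ⟨d', hd'⟩ := h V _ _ _ R l d hV (by positivity) (by positivity) (by positivity) hR hd
    refine ⟨d', ?_⟩
    have e1 : 2 * π * Real.exp (-(((l + 1 : ℕ) : ℝ) * (1 / 2) ^ R / 408))
        = 2 * π * Real.exp (-((l : ℝ) * (1 / 2) ^ R / 408)) * Real.exp (-((1 / 2) ^ R / 408)) := by
      rw [mul_assoc (2 * π), ← Real.exp_add]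
      congr 2
      push_cast
      ring
    have e2 : ((l + 1 : ℕ) : ℝ) * (1 / 2) ^ R / 500
        = (l : ℝ) * (1 / 2) ^ R / 500 + (1 / 2) ^ R / 500 := by
      push_cast
      ring
    have e3 : ((l + 1 : ℕ) : ℝ) * (26000 * (1 / 2) ^ R / √(R : ℝ))
        = (l : ℝ) * (26000 * (1 / 2) ^ R / √(R : ℝ)) + 26000 * (1 / 2) ^ R / √(R : ℝ) := by
      push_cast
      ring
    rw [e1, e2, e3]
    exact hd'

theorem sup_pf (h1 : IterStmt) (h2 : MarkStmt) : SupStmt := by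
  intro V κ G hV hκ
  obtain ⟨T0, hT0⟩ := exists_nat_ge (2 * G)
  obtain ⟨T, hT1, hTG⟩ : ∃ T : ℕ, (1 : ℝ) ≤ T ∧ 2 * G ≤ T := by
    refine ⟨T0 + 1, ?_, ?_⟩
    · push_cast
      have : (0 : ℝ) ≤ T0 := Nat.cast_nonneg _
      linarith
    · push_cast
      linarith
  obtain ⟨R0, hR0⟩ := exists_nat_ge ((816 * (T : ℝ) * 26000 / κ) ^ 2)
  obtain ⟨R, hR1, hRs⟩ : ∃ R : ℕ, 1 ≤ R ∧ 816 * (T : ℝ) * 26000 / κ ≤ √(R : ℝ) := by
    refine ⟨R0 + 1, by omega, ?_⟩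
    apply Real.le_sqrt_of_sq_le
    push_cast
    linarith
  have hs : 0 < √(R : ℝ) := Real.sqrt_pos.2 (by exact_mod_cast hR1)
  obtain ⟨d, hS, hY, hE, hh, -, hρ, he, hk, hC, hG⟩ := h1 V R (816 * T * 2 ^ R) hV hR1
  have hl : ((816 * T * 2 ^ R : ℕ) : ℝ) * (1 / 2) ^ R = 816 * T := by
    push_cast
    rw [mul_assoc, ← mul_pow]
    norm_num
  have e1 : -(((816 * T * 2 ^ R : ℕ) : ℝ) * (1 / 2) ^ R / 408) = -(2 * (T : ℝ)) := by
    rw [hl]
    ring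
  have e3 : ((816 * T * 2 ^ R : ℕ) : ℝ) * (26000 * (1 / 2) ^ R / √(R : ℝ)) ≤ κ := by
    have : ((816 * T * 2 ^ R : ℕ) : ℝ) * (26000 * (1 / 2) ^ R / √(R : ℝ))
        = 816 * (T : ℝ) * 26000 / √(R : ℝ) := by
      rw [← hl]
      ring
    rw [this, div_le_iff₀ hs]
    rw [div_le_iff₀ hκ] at hRs
    linarith
  rw [e1] at hρ
  rw [hl] at he
  have hM := h2 d.Y d.Er T _ hY.1 hE.1 hE.2.2 hT1 (by linarith) hρ he
  refine ⟨⟨d.c, d.Dg, d.h, {x | (T : ℝ) / 2 ≤ d.Y x - d.Er x}⟩, hS, hh,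
    hk.trans (ENNReal.ofReal_le_ofReal e3), hC, ?_, ?_, hM, ?_⟩
  · exact measurableSet_le measurable_const (hY.1.sub hE.1)
  · intro x
    simp only [Set.mem_setOf_eq, hY.2.1 x, hE.2.1 x]
  · intro x hx
    obtain ⟨N, hN0, hN1, hN⟩ := hG x
    refine ⟨N, hN0, hN1, ?_⟩
    have h3 := gn_le N x d.c
    have hx' : (T : ℝ) / 2 ≤ d.Y x - d.Er x := hx
    linarith

end Vale.Agent.P091K
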