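import Vale.Agent.P091K.Stm

namespace Vale.Agent.P091K

open MeasureTheory Real Filter Topology Vale.Agent.P091

theorem iterB_pf (h : LevelStmt) : IterStmt := by
  intro V R l hV hR
  have z : Reg fun _ => (0 : ℝ) := ⟨measurable_const, fun _ => rfl, fun _ => le_rfl⟩
  induction l with
  | zero =>
    refine ⟨⟨0, 0, fun _ => 0, fun _ => 0, fun _ => 0⟩, fun k hk => by simp at hk, z, z, z,
      fun x => by simp, ?_, by simp [LI], by simp [LI], fun u x _ _ => by simp,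
      fun x => ⟨0, le_rfl, by simp, by simp [gn]⟩⟩
    simp [LI]
  | succ l ih =>
    obtain ⟨d, hd⟩ := ih
    obtain ⟨d', hd'⟩ := h V _ _ _ R l d hV (by positivity) (by positivity) (by positivity) hR hd
    refine ⟨d', ?_⟩
    convert hd' using 1
    · rw [mul_assoc (2 * π), ← Real.exp_add]
      congr 2
      push_cast
      ring
    · push_cast
      ring
    · push_cast
      ring

theorem supB_pf (h1 : IterStmt) (h2 : MarkStmt) : SupStmt := by
  intro V κ G hV hκ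
  obtain ⟨T, hT⟩ := exists_nat_ge (1 + 2 * |G|)
  have T1 : (1 : ℝ) ≤ T := by linarith [abs_nonneg G]
  have TG : G ≤ (T : ℝ) / 2 := by linarith [le_abs_self G]
  obtain ⟨R, hR⟩ := exists_nat_ge (1 + (816 * T * 26000 / κ) ^ 2)
  have R1 : (1 : ℝ) ≤ R := by nlinarith [sq_nonneg (816 * T * 26000 / κ)]
  have sR : 816 * T * 26000 / κ ≤ √(R : ℝ) := Real.le_sqrt_of_sq_le (by linarith)
  have s0 : 0 < √(R : ℝ) := Real.sqrt_pos.2 (by linarith)
  obtain ⟨d, i1, i2, i3, i4, -, i6, i7, i8, i9, i10⟩ :=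
    h1 V R (816 * T * 2 ^ R) hV (by exact_mod_cast R1)
  have e : ((816 * T * 2 ^ R : ℕ) : ℝ) * (1 / 2) ^ R = 816 * T := by
    push_cast
    rw [mul_assoc, ← mul_pow]
    norm_num
  rw [e, show (816 : ℝ) * T / 408 = 2 * T by ring] at i6
  rw [e] at i7
  have e2 : ((816 * T * 2 ^ R : ℕ) : ℝ) * (26000 * (1 / 2) ^ R / √(R : ℝ)) ≤ κ := by
    rw [show ((816 * T * 2 ^ R : ℕ) : ℝ) * (26000 * (1 / 2) ^ R / √(R : ℝ)) =
      ((816 * T * 2 ^ R : ℕ) : ℝ) * (1 / 2) ^ R * 26000 / √(R : ℝ) by ring, e, div_le_iff₀ s0]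
    rw [div_le_iff₀ hκ] at sR
    linarith
  refine ⟨⟨d.c, d.Dg, d.h, {x | (T : ℝ) / 2 ≤ d.Y x - d.Er x}⟩, i1, i4,
    i8.trans (ENNReal.ofReal_le_ofReal e2), i9,
    measurableSet_le measurable_const (i2.1.sub i3.1), fun x => ?_,
    h2 d.Y d.Er T _ i2.1 i3.1 i3.2.2 T1 (by linarith) i6 i7, fun x hx => ?_⟩
  · simp only [Set.mem_setOf_eq, i2.2.1 x, i3.2.1 x]
  · obtain ⟨N, n1, n2, n3⟩ := i10 x
    exact ⟨N, n1, n2, TG.trans (le_trans hx (n3.trans (gn_le _ _ _)))⟩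

end Vale.Agent.P091K
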