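import Vale.Agent.P091K.Stm

namespace Vale.Agent.P091K

open MeasureTheory Real Filter Topology Vale.Agent.P091

namespace KerAux

theorem h1 (v : ℝ) : |v * Real.cos v - Real.sin v| ≤ v ^ 2 := by
  have hd : ∀ t : ℝ, HasDerivAt (fun t => t * Real.cos t - Real.sin t) (-(t * Real.sin t)) t := by
    intro t
    have := ((hasDerivAt_id' t).mul (Real.hasDerivAt_cos t)).sub (Real.hasDerivAt_sin t)
    exact this.congr_deriv (by ring)
  have := (convex_uIcc (0 : ℝ) v).norm_image_sub_le_of_norm_hasDerivWithin_le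
    (f := fun t => t * Real.cos t - Real.sin t) (f' := fun t => -(t * Real.sin t)) (C := |v|)
    (fun t _ => (hd t).hasDerivWithinAt)
    (fun t ht => by
      have h := Set.abs_sub_left_of_mem_uIcc ht
      rw [sub_zero, sub_zero] at h
      rw [Real.norm_eq_abs, abs_neg, abs_mul]
      exact (mul_le_of_le_one_right (abs_nonneg _) (Real.abs_sin_le_one t)).trans h)
    Set.left_mem_uIcc Set.right_mem_uIcc
  simp only [zero_mul, Real.sin_zero, sub_zero, Real.norm_eq_abs] at this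
  rw [← sq_abs v, pow_two]
  exact this

theorem h2 {w : ℝ} (h0 : 0 ≤ w) (h : w ≤ 3 * π / 4) : w / 4 ≤ Real.sin w := by
  have hp := Real.pi_pos
  have hp4 := Real.pi_lt_d2
  rcases le_total w (π / 2) with hw | hw
  · have h3 := Real.mul_le_sin h0 hw
    have h4 : (1 / 4 : ℝ) ≤ 2 / π := by
      rw [div_le_div_iff₀ (by norm_num) hp]; linarith
    nlinarith [mul_le_mul_of_nonneg_right h4 h0]
  · rw [← Real.sin_pi_sub]
    have h3 : Real.sin (π / 4) ≤ Real.sin (π - w) :=
      Real.sin_le_sin_of_le_of_le_pi_div_two (by linarith) (by linarith) (by linarith)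
    rw [Real.sin_pi_div_four] at h3
    have h4 : (1.4 : ℝ) ≤ √2 := Real.le_sqrt_of_sq_le (by norm_num)
    linarith

theorem h3 {v : ℝ} (h : |v| ≤ 3 * π / 4) : |v| / 4 ≤ |Real.sin v| := by
  have := h2 (abs_nonneg v) h
  rcases abs_cases v with ⟨e, _⟩ | ⟨e, _⟩
  · rw [e] at this ⊢; exact this.trans (le_abs_self _)
  · rw [e] at this ⊢; rw [Real.sin_neg] at this; exact this.trans (neg_le_abs _)

theorem h4 (v : ℝ) : E 1 (2 * v) - 1 =
    2 * (Real.sin v : ℂ) * Complex.I * ((Real.cos v : ℂ) + (Real.sin v : ℂ) * Complex.I) := by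
  have e : E 1 (2 * v) = ((Real.cos v : ℂ) + (Real.sin v : ℂ) * Complex.I) ^ 2 := by
    rw [Complex.ofReal_cos, Complex.ofReal_sin, ← Complex.exp_mul_I, pow_two, ← Complex.exp_add]
    unfold E; congr 1; push_cast; ring
  have hs : (Real.sin v : ℂ) ^ 2 + (Real.cos v : ℂ) ^ 2 = 1 := by
    exact_mod_cast Real.sin_sq_add_cos_sq v
  rw [e]
  linear_combination hs - (Real.sin v : ℂ) ^ 2 * Complex.I_sq

theorem h5 (v : ℝ) : ‖E 1 (2 * v) - 1‖ = 2 * |Real.sin v| := by
  have e : ‖(Real.cos v : ℂ) + (Real.sin v : ℂ) * Complex.I‖ = 1 := by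
    rw [Complex.ofReal_cos, Complex.ofReal_sin, ← Complex.exp_mul_I,
      Complex.norm_exp_ofReal_mul_I]
  rw [h4, norm_mul, e, norm_mul, norm_mul, Complex.norm_I, Complex.norm_real, Real.norm_eq_abs]
  simp

theorem h6 {v : ℝ} (hs : Real.sin v ≠ 0) : Complex.I / (E 1 (2 * v) - 1) =
    ((Real.cos v / (2 * Real.sin v) : ℝ) : ℂ) - Complex.I / 2 := by
  have hn : E 1 (2 * v) - 1 ≠ 0 := by
    rw [← norm_ne_zero_iff, h5]
    exact mul_ne_zero two_ne_zero (abs_ne_zero.2 hs)
  have hs' : (Real.sin v : ℂ) ≠ 0 := by exact_mod_cast hs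
  have hq : (Real.sin v : ℂ) ^ 2 + (Real.cos v : ℂ) ^ 2 = 1 := by
    exact_mod_cast Real.sin_sq_add_cos_sq v
  rw [div_eq_iff hn, h4, Complex.ofReal_div, Complex.ofReal_mul, Complex.ofReal_ofNat]
  generalize (Real.sin v : ℂ) = s at *
  generalize (Real.cos v : ℂ) = c at *
  have e : c / (2 * s) * (2 * s) = c := div_mul_cancel₀ c (mul_ne_zero two_ne_zero hs')
  linear_combination (-(Complex.I * (c + s * Complex.I))) * e - Complex.I * hq +
    s ^ 2 * Complex.I * Complex.I_sq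

end KerAux

theorem ker_pf : KerStmt := by
  intro u hu h
  obtain ⟨v, rfl⟩ : ∃ v, u = 2 * v := ⟨u / 2, by ring⟩
  have hv : v ≠ 0 := fun e => hu (by rw [e, mul_zero])
  have ha : |2 * v| = 2 * |v| := by rw [abs_mul, abs_two]
  have hv0 : 0 < |v| := abs_pos.2 hv
  rw [ha] at h ⊢
  have h3 := KerAux.h3 (v := v) (by linarith)
  have hs0 : 0 < |Real.sin v| := by linarith
  have hs : Real.sin v ≠ 0 := abs_pos.1 hs0
  refine ⟨?_, by rw [KerAux.h5]; linarith⟩
  rw [KerAux.h6 hs]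
  have e : ((Real.cos v / (2 * Real.sin v) : ℝ) : ℂ) - Complex.I / 2 - ((1 / (2 * v) : ℝ) : ℂ)
      = (((v * Real.cos v - Real.sin v) / (2 * (v * Real.sin v)) : ℝ) : ℂ) - Complex.I / 2 := by
    have : (v * Real.cos v - Real.sin v) / (2 * (v * Real.sin v))
        = Real.cos v / (2 * Real.sin v) - 1 / (2 * v) := by
      field_simp
    rw [this, Complex.ofReal_sub]; ring
  rw [e]
  refine (norm_sub_le _ _).trans ?_
  have e2 : ‖Complex.I / 2‖ = 1 / 2 := by simp
  have e3 : |(v * Real.cos v - Real.sin v) / (2 * (v * Real.sin v))| ≤ 2 := by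
    rw [abs_div, abs_mul, abs_mul, abs_two, div_le_iff₀ (by positivity)]
    have := KerAux.h1 v
    rw [← sq_abs v] at this
    nlinarith [mul_le_mul_of_nonneg_left h3 hv0.le]
  rw [e2, Complex.norm_real, Real.norm_eq_abs]
  linarith

end Vale.Agent.P091K
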