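import Vale.Agent.P091K.Stm

namespace Vale.Agent.P091K

open MeasureTheory Real Filter Topology Vale.Agent.P091

namespace LevAAux

theorem exp_le {z : ℝ} (h0 : 0 ≤ z) (h1 : z ≤ 1) : Real.exp (-z) ≤ 1 - z / 2 := by
  have a1 : z + 1 ≤ Real.exp z := Real.add_one_le_exp z
  have a2 : Real.exp (-z) * Real.exp z = 1 := by rw [← Real.exp_add, neg_add_cancel, Real.exp_zero]
  have a3 : 0 < Real.exp (-z) := Real.exp_pos _
  have a4 : Real.exp (-z) * (z + 1) ≤ 1 := (mul_le_mul_of_nonneg_left a1 a3.le).trans a2.le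
  have a5 : 1 ≤ (1 - z / 2) * (z + 1) := by nlinarith
  exact le_of_mul_le_mul_right (a4.trans a5) (by linarith)

end LevAAux

open LevAAux

theorem levA_pf (h1 : CellStmt) (h2 : IndStmt) : LevAStmt := by
  intro n p Y Z ρ μ hn hp hY hP hZ hμ hρ hL
  have hn0 : (0 : ℝ) < n := by exact_mod_cast hn
  have key := h2 n p (fun x => ENNReal.ofReal (Real.exp (-Y x))) (fun j => Real.exp (-Z j)) hn hp
    (ENNReal.measurable_ofReal.comp (Real.measurable_exp.comp hY.neg))
    (fun x => by simp only [hP x]) fun j _ => (Real.exp_pos _).le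
  have e : ∀ x, ENNReal.ofReal (Real.exp (-(Y ((n : ℝ) * p * x) + Z (cl n x)))) =
      ENNReal.ofReal (Real.exp (-Y ((n : ℝ) * p * x))) * ENNReal.ofReal (Real.exp (-Z (cl n x))) :=
    fun x => by rw [neg_add, Real.exp_add, ENNReal.ofReal_mul (Real.exp_pos _).le]
  have a1 : ∑ j ∈ Finset.range n, Real.exp (-Z j) ≤ ∑ j ∈ Finset.range n, (1 - Z j / 2) :=
    Finset.sum_le_sum fun j hj =>
      exp_le (hZ j (Finset.mem_range.1 hj)).1 (hZ j (Finset.mem_range.1 hj)).2
  rw [Finset.sum_sub_distrib, Finset.sum_const, Finset.card_range, nsmul_eq_mul, mul_one,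
    ← Finset.sum_div] at a1
  have a2 : (∑ j ∈ Finset.range n, Real.exp (-Z j)) / n ≤ Real.exp (-(μ / 2)) := by
    refine le_trans ?_ (Real.add_one_le_exp _)
    rw [div_le_iff₀ hn0]
    linarith
  unfold LI at hL ⊢
  simp only [e]
  rw [key, ENNReal.ofReal_mul hρ]
  exact mul_le_mul' hL (ENNReal.ofReal_le_ofReal a2)

end Vale.Agent.P091K
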