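import Vale.Agent.P091K.Stm

namespace Vale.Agent.P091K

open MeasureTheory Real Filter Topology Vale.Agent.P091

theorem levB_pf (h1 : CellStmt) (h2 : IndStmt) (h3 : CellVStmt) : LevBStmt := by
  intro n p Er q e qb β γ η hn hp hm hper _ hq hs he hβ hγ hη hL
  obtain ⟨hc, -, -, -, -, hI⟩ := h1 n hn
  have hn0 : (0 : ℝ) < n := by exact_mod_cast hn
  have hs0 : 0 ≤ ∑ j ∈ Finset.range n, q j :=
    Finset.sum_nonneg fun j hj => hq j (Finset.mem_range.1 hj)
  have hqb : 0 ≤ qb := nonneg_of_mul_nonneg_right (hs0.trans hs) hn0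
  have hpi : (0 : ℝ) ≤ 2 * π := by positivity
  have hv : volume (Set.Ioc (0 : ℝ) (2 * π)) = ENNReal.ofReal (2 * π) := by
    rw [Real.volume_Ioc, sub_zero]
  have t1 : ∫⁻ x in Set.Ioc 0 (2 * π), ENNReal.ofReal (Er ((n : ℝ) * p * x)) ≤
      ENNReal.ofReal e := by
    have k := h2 n p (fun x => ENNReal.ofReal (Er x)) (fun _ => 1) hn hp hm.ennreal_ofReal
      (fun x => by simp only [hper x]) fun _ _ => zero_le_one
    simp only [ENNReal.ofReal_one, mul_one, Finset.sum_const, Finset.card_range, nsmul_eq_mul,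
      div_self hn0.ne'] at k
    rw [k]
    exact hL
  have t2 : ∫⁻ x in Set.Ioc 0 (2 * π), ENNReal.ofReal (q (cl n x)) ≤
      ENNReal.ofReal (2 * π * qb) := by
    have k := h2 n p (fun _ => 1) q hn hp measurable_const (fun _ => rfl) hq
    simp only [one_mul, setLIntegral_const, hv] at k
    rw [k, ← ENNReal.ofReal_mul hpi]
    refine ENNReal.ofReal_le_ofReal (mul_le_mul_of_nonneg_left ?_ hpi)
    rw [div_le_iff₀ hn0, mul_comm]
    exact hs
  have t3 : ∫⁻ _ in Set.Ioc (0 : ℝ) (2 * π), ENNReal.ofReal β = ENNReal.ofReal (2 * π * β) := by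
    rw [setLIntegral_const, hv, ← ENNReal.ofReal_mul hβ, mul_comm]
  have t4 : ∫⁻ x in Set.Ioc 0 (2 * π), (Ins n η)ᶜ.indicator (fun _ => ENNReal.ofReal γ) x ≤
      ENNReal.ofReal (γ * (4 * π * η)) := by
    rw [lintegral_indicator_const (hI η).1.compl, Measure.restrict_apply (hI η).1.compl,
      ENNReal.ofReal_mul hγ]
    exact mul_le_mul_right (h3 n η hn hη) _
  have m2 : Measurable fun x => ENNReal.ofReal (q (cl n x)) :=
    ((measurable_of_countable q).comp hc).ennreal_ofReal
  have m4 : Measurable ((Ins n η)ᶜ.indicator fun _ => ENNReal.ofReal γ) :=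
    measurable_const.indicator (hI η).1.compl
  calc LI (fun x => Er ((n : ℝ) * p * x) + q (cl n x) + β + γ * (Ins n η)ᶜ.indicator 1 x)
      ≤ ∫⁻ x in Set.Ioc 0 (2 * π), (ENNReal.ofReal (Er ((n : ℝ) * p * x)) +
        ENNReal.ofReal (q (cl n x)) + ENNReal.ofReal β +
        (Ins n η)ᶜ.indicator (fun _ => ENNReal.ofReal γ) x) := by
        refine lintegral_mono fun x => ENNReal.ofReal_add_le.trans (add_le_add
          (ENNReal.ofReal_add_le.trans (add_le_add ENNReal.ofReal_add_le le_rfl)) (le_of_eq ?_))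
        by_cases hx : x ∈ (Ins n η)ᶜ
        · simp only [Set.indicator_of_mem hx, Pi.one_apply, mul_one]
        · simp only [Set.indicator_of_notMem hx, mul_zero, ENNReal.ofReal_zero]
    _ ≤ ENNReal.ofReal e + ENNReal.ofReal (2 * π * qb) + ENNReal.ofReal (2 * π * β) +
        ENNReal.ofReal (γ * (4 * π * η)) := by
        rw [lintegral_add_right _ m4, lintegral_add_right _ measurable_const,
          lintegral_add_right _ m2, t3]
        exact add_le_add (add_le_add (add_le_add t1 t2) le_rfl) t4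
    _ = _ := by
        rw [ENNReal.ofReal_add (by positivity) (by positivity),
          ENNReal.ofReal_add (by positivity) (by positivity),
          ENNReal.ofReal_add he (by positivity)]

end Vale.Agent.P091K
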