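import Vale.Agent.P091K.Stm

namespace Vale.Agent.P091K

open MeasureTheory Real Filter Topology Vale.Agent.P091

namespace LevCAux

theorem li_scale (h3 : IndStmt) (n p : ℕ) (h : ℝ → ℝ) (hn : 1 ≤ n) (hp : 1 ≤ p)
    (hm : Measurable h) (hper : Function.Periodic h (2 * π)) :
    LI (fun x => h ((n : ℝ) * p * x)) = LI h := by
  have e := h3 n p (fun x => ENNReal.ofReal (h x)) (fun _ => 1) hn hp hm.ennreal_ofReal
    (fun x => by simp only [hper x]) (fun _ _ => zero_le_one)
  have hn' : (n : ℝ) ≠ 0 := by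
    have : (1 : ℝ) ≤ n := by exact_mod_cast hn
    linarith
  simp only [ENNReal.ofReal_one, mul_one, Finset.sum_const, Finset.card_range, nsmul_eq_mul,
    div_self hn'] at e
  exact e

end LevCAux

theorem levC_pf (h1 : PhiLStmt) (_h2 : CellStmt) (h3 : IndStmt) : LevCStmt := by
  intro n p c F g h V κ H a Lg hn hp hm hper h0 hκ hL hC hF hg hLg ha ha1 hH hlog
  have hLg0 : 0 ≤ Lg := (Real.sqrt_nonneg _).trans hlog
  have hb : 0 ≤ a * (Lg + 1) := mul_nonneg ha (by linarith)
  obtain ⟨mono, -, -, inc, -, -⟩ := h1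
  constructor
  · have e1 : LI (fun x => h ((n : ℝ) * p * x) + a * (Lg + 1) * ‖ev x g‖) =
        LI (fun x => h ((n : ℝ) * p * x)) +
          ENNReal.ofReal (a * (Lg + 1)) * LI (fun x => ‖ev x g‖) := by
      have hm' : Measurable fun x : ℝ => ENNReal.ofReal (h ((n : ℝ) * p * x)) :=
        (hm.comp (measurable_const_mul _)).ennreal_ofReal
      simp only [LI]
      rw [← lintegral_const_mul _ (ev_cont g).norm.measurable.ennreal_ofReal,
        ← lintegral_add_left hm']
      refine lintegral_congr fun x => ?_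
      rw [ENNReal.ofReal_add (h0 _) (mul_nonneg hb (norm_nonneg _)), ENNReal.ofReal_mul hb]
    rw [e1, LevCAux.li_scale h3 n p h hn hp hm hper,
      ENNReal.ofReal_add hκ (mul_nonneg hb (by positivity)), ENNReal.ofReal_mul hb]
    exact add_le_add hL (mul_le_mul_right hLg _)
  · intro u x hu huV
    have a1 : ‖ev x (F + (a : ℂ) • g)‖ ≤ ‖ev ((n : ℝ) * p * x) c‖ + a * ‖ev x g‖ := by
      rw [map_add, map_smul]
      refine (norm_add_le _ _).trans (add_le_add (hF x) (le_of_eq ?_))
      rw [norm_smul, Complex.norm_real, Real.norm_of_nonneg ha]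
    have a2 := hC u ((n : ℝ) * p * x) hu huV
    have a3 := norm_ev_le ((n : ℝ) * p * x) c
    have a4 := norm_nonneg (ev ((n : ℝ) * p * x) c)
    have a5 := norm_nonneg (ev x g)
    have a6 := hg x
    have a0 := norm_nonneg (ev x (F + (a : ℂ) • g))
    generalize ‖ev ((n : ℝ) * p * x) c‖ = A at a1 a2 a3 a4
    have v0 : 0 ≤ a * ‖ev x g‖ := mul_nonneg ha a5
    have v1 : a * ‖ev x g‖ ≤ H := (mul_le_of_le_one_left a5 ha1).trans a6
    have b1 := mono (u + ‖ev x (F + (a : ℂ) • g)‖) (u + A + a * ‖ev x g‖) (by linarith)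
      (by linarith)
    have b2 := inc (u + A) (a * ‖ev x g‖) (by linarith) v0
    have b3 : √(Real.log (3 + (u + A) + a * ‖ev x g‖)) ≤ Lg :=
      (Real.sqrt_le_sqrt (Real.log_le_log (by linarith) (by linarith))).trans hlog
    have b4 : a * ‖ev x g‖ * (√(Real.log (3 + (u + A) + a * ‖ev x g‖)) + 1) ≤
        a * ‖ev x g‖ * (Lg + 1) := mul_le_mul_of_nonneg_left (by linarith) v0
    have b5 : a * ‖ev x g‖ * (Lg + 1) = a * (Lg + 1) * ‖ev x g‖ := by ring
    linarith

end Vale.Agent.P091K
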