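import Vale.Agent.P091K.Stm

namespace Vale.Agent.P091K

open MeasureTheory Real Filter Topology Vale.Agent.P091

namespace LevelAux

theorem reg_dil {W : ℝ → ℝ} (h : Reg W) (n p : ℕ) : Reg fun x => W ((n : ℝ) * p * x) := by
  refine ⟨h.1.comp (by fun_prop), fun x => ?_, fun x => h.2.2 _⟩
  have := h.2.1.nat_mul (n * p) ((n : ℝ) * p * x)
  simp only []
  rw [← this]
  congr 1
  push_cast
  ring

theorem reg_cl (hC : CellStmt) {n : ℕ} (hn : 1 ≤ n) (z : ℕ → ℝ) (hz : ∀ j < n, 0 ≤ z j) :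
    Reg fun x => z (cl n x) := by
  obtain ⟨c1, c2, c3, -⟩ := hC n hn
  exact ⟨(measurable_of_countable z).comp c1, fun x => by simp only [c2 x], fun x => hz _ (c3 x)⟩

theorem reg_add {U W : ℝ → ℝ} (h1 : Reg U) (h2 : Reg W) : Reg fun x => U x + W x :=
  ⟨h1.1.add h2.1, fun x => by simp only [h1.2.1 x, h2.2.1 x],
    fun x => add_nonneg (h1.2.2 x) (h2.2.2 x)⟩

theorem reg_const {c : ℝ} (h : 0 ≤ c) : Reg fun _ => c :=
  ⟨measurable_const, fun _ => rfl, fun _ => h⟩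

theorem reg_ind (hC : CellStmt) {n : ℕ} (hn : 1 ≤ n) (η : ℝ) {c : ℝ} (h : 0 ≤ c) :
    Reg fun x => c * (Ins n η)ᶜ.indicator (1 : ℝ → ℝ) x := by
  obtain ⟨m1, m2⟩ := (hC n hn).2.2.2.2.2 η
  refine ⟨measurable_const.mul (measurable_const.indicator m1.compl), fun x => ?_, fun x => ?_⟩
  · by_cases hx : x ∈ Ins n η
    · simp [hx, (m2 x).2 hx]
    · simp [hx, mt (m2 x).1 hx]
  · exact mul_nonneg h (Set.indicator_nonneg (fun _ _ => zero_le_one) x)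

theorem reg_ev (g : TP) {c : ℝ} (h : 0 ≤ c) : Reg fun x => c * ‖ev x g‖ := by
  refine ⟨measurable_const.mul (ev_cont g).norm.measurable, fun x => ?_,
    fun x => mul_nonneg h (norm_nonneg _)⟩
  have := ev_per g x 1
  simp only [Int.cast_one, one_mul] at this
  simp only [this]

theorem num_e {e ϑ δ η l : ℝ} (ϑ0 : 0 < ϑ) (l0 : 0 < l + 1) (hδ : δ = ϑ / 20000)
    (hη : η = δ / (2 * (l + 1))) :
    e + 2 * π * (ϑ / 15000) + 2 * π * (3 * δ) + (l + 1) * (4 * π * η) ≤ e + ϑ / 500 := by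
  have e1 : (l + 1) * (4 * π * η) = 2 * π * δ := by rw [hη]; field_simp; ring
  rw [e1, hδ]
  nlinarith [mul_le_mul_of_nonneg_right Real.pi_lt_d2.le ϑ0.le]

theorem num_k {κ ϑ al D s Lg : ℝ} (ϑ0 : 0 < ϑ) (al0 : 0 < al) (hal : al * D = ϑ) (sR : 0 < s)
    (sR1 : s ≤ D) (hLg : Lg = 4000 * D / s) :
    κ + al * (Lg + 1) * (2 * π) ≤ κ + 26000 * ϑ / s := by
  have e0 : 1 ≤ D / s := (one_le_div sR).2 sR1
  have e1 : Lg + 1 ≤ 4001 * (D / s) := by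
    rw [hLg, mul_div_assoc]; linarith
  have e2 : al * (4001 * (D / s)) = 4001 * (ϑ / s) := by rw [← hal]; ring
  have e3 := mul_le_mul_of_nonneg_left e1 al0.le
  rw [e2] at e3
  have e4 : 0 ≤ ϑ / s := by positivity
  have e5 := mul_le_mul_of_nonneg_right e3 (by positivity : 0 ≤ 2 * π)
  rw [mul_div_assoc]
  nlinarith [mul_le_mul_of_nonneg_right Real.pi_lt_d2.le e4]

theorem num_o {ϑ al D η δ X : ℝ} (η0 : 0 < η) (δ0 : 0 < δ) (D0 : 0 < D) (hal : al * D = ϑ)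
    (ϑ2 : ϑ * X = 1) (h : 40 / (η * δ) ≤ D) : al * (40 * X / η) ≤ δ := by
  refine le_of_mul_le_mul_right ?_ D0
  have e1 : al * (40 * X / η) * D = 40 * (ϑ * X) / η := by rw [← hal]; ring
  rw [e1, ϑ2, mul_one, div_le_iff₀ η0]
  rw [div_le_iff₀ (by positivity)] at h
  linarith

theorem num_l {H D R Lg : ℝ} (H0 : 0 < 2 * H) (D0 : 0 < D) (R1 : 1 ≤ R)
    (hLg : Lg = 4000 * D / √R) (b6 : 2 * H ≤ Real.exp (16000000 * D ^ 2 / R)) :
    √(Real.log (2 * H)) ≤ Lg := by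
  have Lg0 : 0 ≤ Lg := by rw [hLg]; positivity
  rw [Real.sqrt_le_left Lg0, Real.log_le_iff_le_exp H0, hLg, div_pow,
    Real.sq_sqrt (by linarith)]
  refine b6.trans (le_of_eq ?_)
  congr 1
  ring

theorem num_s {R D : ℝ} (R1 : 1 ≤ R) (h : R ≤ D) : √R ≤ D := by
  rw [Real.sqrt_le_left (by linarith)]
  nlinarith

end LevelAux

open LevelAux in
theorem level_pf (hA : AtomKStmt) (hE : EmbStmt) (hC : CellStmt) (h1 : LevAStmt) (h2 : LevBStmt)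
    (h3 : LevCStmt) (h4 : LevGStmt) : LevelStmt := by
  intro V ρ e κ R l d hV hρ he hκ hR hI
  obtain ⟨i1, i2, i3, i4, i5, i6, i7, i8, i9, i10⟩ := hI
  obtain ⟨ϑ, hϑ⟩ : ∃ ϑ : ℝ, ϑ = (1 / 2) ^ R := ⟨_, rfl⟩
  rw [← hϑ]
  have ϑ0 : 0 < ϑ := by rw [hϑ]; positivity
  have ϑ1 : ϑ ≤ 1 := by rw [hϑ]; exact pow_le_one₀ (by norm_num) (by norm_num)
  have ϑ2 : ϑ * 2 ^ R = 1 := by rw [hϑ, ← mul_pow]; norm_num
  obtain ⟨δ, hδ⟩ : ∃ δ : ℝ, δ = ϑ / 20000 := ⟨_, rfl⟩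
  have δ0 : 0 < δ := by rw [hδ]; positivity
  have l0 : (0 : ℝ) < (l : ℝ) + 1 := by positivity
  obtain ⟨η, hη⟩ : ∃ η : ℝ, η = δ / (2 * ((l : ℝ) + 1)) := ⟨_, rfl⟩
  have η0 : 0 < η := by rw [hη]; positivity
  obtain ⟨n0, hn0⟩ := hE d.c d.Dg δ η i1 δ0 η0
  have nm0 := nm_nonneg d.c
  obtain ⟨K, hK⟩ := exists_nat_ge ((R : ℝ) + n0 + 1 / η + 40 / (η * δ) + (3 + V + nm d.c))
  have a1 : (0 : ℝ) ≤ 1 / η := by positivity
  have a2 : (0 : ℝ) ≤ 40 / (η * δ) := by positivity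
  have a3 : (0 : ℝ) ≤ n0 := Nat.cast_nonneg _
  have R1 : (1 : ℝ) ≤ R := by exact_mod_cast hR
  have hRK : R ≤ K := by exact_mod_cast (by linarith : (R : ℝ) ≤ K)
  obtain ⟨a, ha⟩ := hA R K hR hRK
  have hKD : K ≤ DD R K := by unfold DD; nlinarith
  generalize DD R K = D at ha hKD
  have kD : (K : ℝ) ≤ D := by exact_mod_cast hKD
  have D0 : (0 : ℝ) < D := by linarith
  have Dn : (D : ℝ) ≤ 2 ^ D := by exact_mod_cast (Nat.lt_two_pow_self (n := D)).le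
  have hn1 : 1 ≤ 2 ^ D := Nat.one_le_two_pow
  have hcast : ((2 ^ D : ℕ) : ℝ) = 2 ^ D := by push_cast; rfl
  have hcz : ((2 ^ D : ℕ) : ℤ) = 2 ^ D := by push_cast; rfl
  have ha' := ha
  obtain ⟨b1, b2, b3, b4, b5, b6, b7, b8, b9, b10, -⟩ := ha'
  obtain ⟨F, p, p1, f1, f2, f3⟩ := hn0 (2 ^ D)
    (by exact_mod_cast (by rw [hcast]; linarith : (n0 : ℝ) ≤ ((2 ^ D : ℕ) : ℝ))) a.L a.Dg
    (by rw [hcz]; exact b2) (by rw [hcz]; exact b3)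
  obtain ⟨al, hal⟩ : ∃ al : ℝ, al * D = ϑ := ⟨ϑ / D, div_mul_cancel₀ _ D0.ne'⟩
  have al0 : 0 < al := (mul_pos_iff_of_pos_right D0).1 (by rw [hal]; exact ϑ0)
  have al1 : al ≤ 1 := le_of_mul_le_mul_right (by linarith) D0
  have z1 : ∀ j < 2 ^ D, 0 ≤ al * a.P j / 51 ∧ al * a.P j / 51 ≤ 1 := fun j hj => by
    obtain ⟨u1, u2, -⟩ := b8 j hj
    refine ⟨by positivity, ?_⟩
    have := mul_le_mul_of_nonneg_left u2 al0.le
    have e1 : al * (2 ^ (R + 4) * D) = 16 * (ϑ * 2 ^ R) := by rw [← hal]; ring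
    rw [e1, ϑ2] at this
    linarith
  have q1 : ∀ j < 2 ^ D, 0 ≤ al * a.Q j / 3 := fun j hj => by
    have := (b8 j hj).2.2
    positivity
  have sR : 0 < √(R : ℝ) := Real.sqrt_pos.2 (by linarith)
  have sR1 : √(R : ℝ) ≤ D := num_s R1 (by linarith)
  obtain ⟨Lg, hLg⟩ : ∃ Lg : ℝ, Lg = 4000 * D / √(R : ℝ) := ⟨_, rfl⟩
  have Lg0 : 0 ≤ Lg := by rw [hLg]; positivity
  have H0 : 0 < 2 * a.H := by
    have : (0 : ℝ) < 2 ^ D := by positivity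
    linarith
  have lg1 : √(Real.log (2 * a.H)) ≤ Lg := num_l H0 D0 R1 hLg b6
  obtain ⟨c1, c2⟩ := h3 (2 ^ D) p d.c F a.g d.h V κ a.H al Lg hn1 p1 i4.1 i4.2.1 i4.2.2 hκ i8 i9 f2
    b4 b7 al0.le al1 (by linarith) lg1
  have hηn : 1 / (2 : ℝ) ^ D ≤ η := by
    rw [div_le_iff₀ (by positivity)]
    have : 1 / η ≤ 2 ^ D := by linarith
    rw [div_le_iff₀ η0] at this
    linarith
  have hO : al * (40 * 2 ^ R / η) ≤ δ := num_o η0 δ0 D0 hal ϑ2 (by linarith)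
  refine ⟨⟨F + (al : ℂ) • a.g, a.Dg,
    fun x => d.Y (((2 ^ D : ℕ) : ℝ) * p * x) + al * a.P (cl (2 ^ D) x) / 51,
    fun x => d.Er (((2 ^ D : ℕ) : ℝ) * p * x) + al * a.Q (cl (2 ^ D) x) / 3 + 3 * δ +
      ((l : ℝ) + 1) * (Ins (2 ^ D) η)ᶜ.indicator 1 x,
    fun x => d.h (((2 ^ D : ℕ) : ℝ) * p * x) + al * (Lg + 1) * ‖ev x a.g‖⟩,
    sup_add f1 (sup_smul _ b1),
    reg_add (reg_dil i2 _ _) (reg_cl hC hn1 (fun j => al * a.P j / 51) fun j hj => (z1 j hj).1),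
    reg_add (reg_add (reg_add (reg_dil i3 _ _) (reg_cl hC hn1 (fun j => al * a.Q j / 3) q1))
      (reg_const (by positivity))) (reg_ind hC hn1 η l0.le),
    reg_add (reg_dil i4 _ _) (reg_ev a.g (by positivity)), fun x => ?_, ?_, ?_, ?_, c2, ?_⟩
  · have := (z1 _ ((hC _ hn1).2.2.1 x)).2
    have := i5 (((2 ^ D : ℕ) : ℝ) * p * x)
    push_cast at *
    linarith
  · have := h1 (2 ^ D) p d.Y (fun j => al * a.P j / 51) ρ (ϑ / 204) hn1 p1 i2.1 i2.2.1 z1 (by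
      rw [← Finset.sum_div, ← Finset.mul_sum, hcast, ← hal]
      have := mul_le_mul_of_nonneg_left b9 al0.le
      linarith) hρ i6
    rwa [show ϑ / 204 / 2 = ϑ / 408 by ring] at this
  · have := h2 (2 ^ D) p d.Er (fun j => al * a.Q j / 3) e (ϑ / 15000) (3 * δ) ((l : ℝ) + 1) η hn1
      p1 i3.1 i3.2.1 i3.2.2 q1 (by
      rw [← Finset.sum_div, ← Finset.mul_sum, hcast, ← hal]
      have := mul_le_mul_of_nonneg_left b10 al0.le
      linarith) he (by positivity) l0.le η0.le i7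
    exact this.trans (ENNReal.ofReal_le_ofReal (num_e ϑ0 l0 hδ hη))
  · exact c1.trans (ENNReal.ofReal_le_ofReal (num_k ϑ0 al0 hal sR sR1 hLg))
  · exact h4 d a F _ R D p l al δ η i10 i5 i3.2.2 ha f1 al0.le δ0.le hηn hO
      (fun j hj => (z1 j hj).2) f3

end Vale.Agent.P091K
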