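import Vale.Agent.P091K.Stm

namespace Vale.Agent.P091K

open MeasureTheory Real Filter Topology Vale.Agent.P091

namespace LowKAux

theorem gap {n η y s : ℝ} {j0 j : ℕ} (hn : 4 ≤ n) (h1 : 1 / n ≤ η) (h2 : η ≤ y) (h3 : y ≤ 1 - η)
    (hs : |s| ≤ 1 / (8 * n ^ 4)) (a1 : n ≤ 4 * j) (a2 : 2 * (j : ℝ) ≤ n) (a3 : (j0 : ℝ) + 1 ≤ n) :
    π / n ^ 2 ≤ |2 * π * (j0 + y) / n - 2 * π * (j + s) / n| ∧
      |2 * π * (j0 + y) / n - 2 * π * (j + s) / n| ≤ 3 * π / 2 := by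
  have hn0 : 0 < n := by linarith
  have hp := pi_pos
  have b0 : 0 < 1 / n := by positivity
  have b1 : 1 / (8 * n ^ 4) ≤ 1 / n / 2 := by
    rw [div_div]
    refine one_div_le_one_div_of_le (by positivity) ?_
    have : n ≤ n ^ 4 := le_self_pow₀ (by linarith) (by norm_num)
    linarith
  obtain ⟨b2, b3⟩ := abs_le.1 (hs.trans b1)
  have e : 2 * π * (j0 + y) / n - 2 * π * (j + s) / n = 2 * π / n * (j0 - j + (y - s)) := by ring
  have b4 : 1 / n / 2 ≤ |(j0 : ℝ) - j + (y - s)| := by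
    rcases le_or_gt j j0 with h | h
    · have : (j : ℝ) ≤ j0 := by exact_mod_cast h
      exact le_abs.2 (Or.inl (by linarith))
    · have : (j0 : ℝ) + 1 ≤ j := by exact_mod_cast h
      exact le_abs.2 (Or.inr (by linarith))
  have b5 : |(j0 : ℝ) - j + (y - s)| ≤ 3 * n / 4 := by
    have : (0 : ℝ) ≤ j0 := Nat.cast_nonneg _
    exact abs_le.2 ⟨by linarith, by linarith⟩
  have b6 : 0 < 2 * π / n := by positivity
  rw [e, abs_mul, abs_of_pos b6]
  constructor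
  · calc π / n ^ 2 = 2 * π / n * (1 / n / 2) := by field_simp
      _ ≤ _ := mul_le_mul_of_nonneg_left b4 b6.le
  · calc _ ≤ 2 * π / n * (3 * n / 4) := mul_le_mul_of_nonneg_left b5 b6.le
      _ = 3 * π / 2 := by field_simp; ring

theorem scal {lam X A B : ℝ} (h1 : 1 / 4 ≤ lam) (h2 : lam ≤ 1) (hA : 0 ≤ A) (hB : 0 ≤ B)
    (h : A - B ≤ X) : A / 4 - B ≤ lam * X := by
  have := mul_le_mul_of_nonneg_left h (by linarith : 0 ≤ lam)
  nlinarith

end LowKAux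

theorem lowK_pf (h1 : GkPStmt) (h2 : LowRStmt) : LowKStmt := by
  intro R D M j0 N Rr L0 C s η y t hD hC hj hj0 e1 e2 e3 hs ht hN r1 r2 r3
  have hp := pi_pos
  have hn : (4 : ℝ) ≤ 2 ^ D := by
    calc (4 : ℝ) = 2 ^ 2 := by norm_num
      _ ≤ 2 ^ D := pow_le_pow_right₀ one_le_two hD
  have hη : 0 < η := lt_of_lt_of_le (by positivity) e1
  have hR : 0 < Rr := lt_of_lt_of_le (by positivity) r3
  have hR' : (0 : ℝ) < Rr := by exact_mod_cast hR
  have hne : C.Nonempty := by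
    rw [← Finset.card_pos]
    exact Nat.pos_of_mul_pos_left (lt_of_lt_of_le (by positivity) hC)
  have a1 := h1 Rr N L0 C (fun j => 2 * π * (j + s j) / 2 ^ D) (2 * π * (j0 + y) / 2 ^ D)
    (π / ((2 : ℝ) ^ D) ^ 2) hR r2 hne (by positivity) fun j hjC =>
      LowKAux.gap hn e1 e2 e3 (hs j) (by exact_mod_cast (hj j hjC).1)
        (by exact_mod_cast (hj j hjC).2.le) (by exact_mod_cast hj0)
  have a2 := h2 R D M j0 C s η y t hD hC (fun j hjC => by have := (hj j hjC).2; omega) hj0 e1 e2 e3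
    hs ht
  rw [show L0 - (N : ℤ) = -((2 : ℤ) ^ D * (M + t)) by rw [hN]; ring] at a1
  have hP : 0 ≤ PP D C j0 := by
    unfold PP
    positivity
  have hQ : 0 ≤ QQ D C M s j0 := by
    unfold QQ dev
    positivity
  have a3 := LowKAux.scal (lam := (N : ℝ) / Rr)
    (by
      rw [le_div_iff₀ hR']
      have : (Rr : ℝ) ≤ 4 * N := by exact_mod_cast r1
      linarith)
    (div_le_one_of_le₀ (by exact_mod_cast r2) hR'.le) (by positivity) (by positivity) a2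
  have a4 : 32 / (Rr * (π / ((2 : ℝ) ^ D) ^ 2) ^ 2) ≤ 1 := by
    have b1 : 4 * ((2 : ℝ) ^ D) ^ 4 ≤ Rr := by exact_mod_cast r3
    have b2 : (π / ((2 : ℝ) ^ D) ^ 2) ^ 2 = π ^ 2 / ((2 : ℝ) ^ D) ^ 4 := by
      rw [div_pow, ← pow_mul]
    have b3 : 9 ≤ π ^ 2 := by nlinarith [pi_gt_three]
    have b4 : 0 < ((2 : ℝ) ^ D) ^ 4 := by positivity
    refine div_le_one_of_le₀ ?_ (by positivity)
    rw [b2, ← mul_div_assoc, le_div_iff₀ b4]
    nlinarith
  have a5 : 2 ≤ 2 ^ R / η := by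
    rw [le_div_iff₀ hη]
    have : (1 : ℝ) ≤ 2 ^ R := one_le_pow₀ one_le_two
    linarith
  have a6 : PP D C j0 / 51 ≤ PP D C j0 / (4 * π) / 4 := by
    rw [div_div]
    exact div_le_div_of_nonneg_left hP (by positivity) (by linarith [pi_lt_d2])
  rw [mul_div_assoc (4 : ℝ)] at a3
  rw [mul_div_assoc (40 : ℝ)]
  linarith

end Vale.Agent.P091K
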