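import Vale.Agent.P091K.Stm

namespace Vale.Agent.P091K

open MeasureTheory Real Filter Topology Vale.Agent.P091

namespace LowRAux

theorem E_eq (D M j : ℕ) (s : ℝ) (t : ℤ) :
    E (-((2 : ℤ) ^ D * (M + t))) (2 * π * (j + s) / 2 ^ D) =
      Complex.exp (((-(2 * π * M * s) : ℝ) : ℂ) * Complex.I) *
        Complex.exp (Complex.I * ((-(2 * π * t * s) : ℝ) : ℂ)) := by
  unfold E
  have h2 : (2 : ℂ) ^ D ≠ 0 := pow_ne_zero _ two_ne_zero
  have e : (((-((2 : ℤ) ^ D * (M + t)) : ℤ) : ℂ) * ((2 * π * (j + s) / 2 ^ D : ℝ) : ℂ) * Complex.I)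
      = ((-(2 * π * M * s) : ℝ) : ℂ) * Complex.I + Complex.I * ((-(2 * π * t * s) : ℝ) : ℂ) +
        ((-((M + t) * j) : ℤ) : ℂ) * (2 * π * Complex.I) := by
    push_cast
    field_simp
    ring
  rw [e, Complex.exp_add, Complex.exp_int_mul_two_pi_mul_I, mul_one, Complex.exp_add]

theorem E_dev (D M j0 j : ℕ) (s : ℝ) (t : ℤ) :
    ‖E (-((2 : ℤ) ^ D * (M + t))) (2 * π * (j + s) / 2 ^ D) - sg j0 j‖ ≤
      dev M s j0 j + 2 * π * (|(t : ℝ)| * |s|) := by
  rw [E_eq, dev]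
  have h1 := Complex.norm_exp_ofReal_mul_I (-(2 * π * M * s))
  have h2 := Real.norm_exp_I_mul_ofReal_sub_one_le (x := -(2 * π * t * s))
  rw [Real.norm_eq_abs, abs_neg, mul_assoc, abs_mul, abs_mul (t : ℝ),
    abs_of_pos (by positivity : 0 < 2 * π), ← mul_assoc (2 * π) (t : ℝ) s] at h2
  generalize Complex.exp (((-(2 * π * M * s) : ℝ) : ℂ) * Complex.I) = a at h1 ⊢
  generalize Complex.exp (Complex.I * ((-(2 * π * t * s) : ℝ) : ℂ)) = b at h2 ⊢
  rw [show a * b - sg j0 j = (a - sg j0 j) + a * (b - 1) by ring]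
  refine (norm_add_le _ _).trans ?_
  rw [norm_mul, h1, one_mul]
  linarith

theorem num {n c S1 S2 X η r d : ℝ} (hn : 1 ≤ n) (hc : 1 ≤ c) (hη : 0 < η) (hr : n ≤ 4 * r * c)
    (h1 : S1 ≤ 4 * d) (hd : d ≤ n) (h2 : 0 ≤ S2)
    (h : 1 / 2 * S1 - 2 * (S2 + π / (4 * n ^ 2) * S1) - 5 / η ≤ X) :
    n / c * S1 / (4 * π) - (n / c * S2 / 3 + 1 + 4 * r / η) ≤ 1 / c * (n / (2 * π) * X) := by
  have p1 := Real.pi_gt_three
  have n0 : 0 < n := by linarith
  have c0 : 0 < c := by linarith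
  have a := mul_le_mul_of_nonneg_left h (by positivity : 0 ≤ 1 / c * (n / (2 * π)))
  have e : 1 / c * (n / (2 * π)) * (1 / 2 * S1 - 2 * (S2 + π / (4 * n ^ 2) * S1) - 5 / η) =
      n / c * S1 / (4 * π) - n / c * S2 / π - S1 / (4 * n * c) - n / c * (5 / (2 * π)) / η := by
    field_simp
    ring
  have b1 : n / c * S2 / π ≤ n / c * S2 / 3 :=
    div_le_div_of_nonneg_left (by positivity) (by norm_num) p1.le
  have b2 : S1 / (4 * n * c) ≤ 1 := by
    rw [div_le_one (by positivity)]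
    nlinarith
  have b3 : n / c * (5 / (2 * π)) / η ≤ 4 * r / η := by
    refine div_le_div_of_nonneg_right ?_ hη.le
    have b4 : n / c ≤ 4 * r := (div_le_iff₀ c0).2 hr
    have b5 : 5 / (2 * π) ≤ 1 := by
      rw [div_le_one (by positivity)]
      linarith
    exact (mul_le_of_le_one_right (by positivity) b5).trans b4
  rw [← mul_assoc]
  linarith

end LowRAux

theorem lowR_pf (h1 : HarmStmt) (h2 : RealKStmt) : LowRStmt := by
  intro R D M j0 C s η y t hD hC hj hj0 hη hy1 hy2 hs ht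
  have p0 := Real.pi_pos
  have hn : (1 : ℝ) ≤ 2 ^ D := one_le_pow₀ one_le_two
  have hc : (1 : ℝ) ≤ C.card := by
    have : C.card ≠ 0 := fun h => by
      rw [h, mul_zero] at hC
      exact absurd hC (not_le.2 (by positivity))
    exact_mod_cast Nat.one_le_iff_ne_zero.2 this
  have η0 : 0 < η := lt_of_lt_of_le (by positivity) hη
  have hr : (2 : ℝ) ^ D ≤ 4 * 2 ^ R * C.card := by
    have : ((2 ^ D : ℕ) : ℝ) ≤ ((2 ^ (R + 2) * C.card : ℕ) : ℝ) := Nat.cast_le.2 hC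
    push_cast at this
    rw [pow_add] at this
    linarith
  have hd : (D : ℝ) ≤ 2 ^ D := by exact_mod_cast Nat.lt_two_pow_self.le
  have ht' : |(t : ℝ)| ≤ ((2 : ℝ) ^ D) ^ 2 := by exact_mod_cast ht
  have hH : ∑ j ∈ C.erase j0, 1 / |(j0 : ℝ) - j| ≤ 4 * D :=
    (Finset.sum_le_sum_of_subset_of_nonneg (Finset.erase_subset_erase _ fun j h =>
      Finset.mem_range.2 (hj j h)) fun _ _ _ => by positivity).trans (h1 D j0 hD hj0).2
  have hz := fun j => LowRAux.E_dev D M j0 j (s j) t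
  have hn1 : ∀ j : ℕ, ‖E (-((2 : ℤ) ^ D * (M + t))) (2 * π * (j + s j) / 2 ^ D)‖ ≤ 1 :=
    fun j => (norm_E _ _).le
  unfold PP QQ
  generalize E (-((2 : ℤ) ^ D * (M + t))) = W at hz hn1 ⊢
  generalize (2 : ℝ) ^ D = n at hη hs hn hr hd ht' hz hn1 ⊢
  have n0 : 0 < n := by linarith
  have hs' : ∀ j, |s j| ≤ η / 2 := fun j => by
    refine (hs j).trans (le_trans ?_ (div_le_div_of_nonneg_right hη zero_le_two))
    rw [div_div]
    refine one_div_le_one_div_of_le (by positivity) ?_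
    have := le_self_pow₀ hn (by norm_num : 4 ≠ 0)
    linarith
  have hβ : ∀ j, 2 * π * (|(t : ℝ)| * |s j|) ≤ π / (4 * n ^ 2) := fun j => by
    have a := mul_le_mul ht' (hs j) (abs_nonneg _) (by positivity)
    refine (mul_le_mul_of_nonneg_left a (by positivity)).trans (le_of_eq ?_)
    field_simp
    ring
  have k := h2 C j0 (fun j => y - s j) (fun j => dev M (s j) j0 j + π / (4 * n ^ 2))
    (fun j => W (2 * π * (j + s j) / n)) η η0 (by linarith)
    (fun j => by have := abs_le.1 (hs' j); constructor <;> linarith [this.1, this.2]) hn1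
    (fun j _ => (hz j).trans (by linarith [hβ j]))
  have e1 : ∑ j ∈ C.erase j0, (dev M (s j) j0 j + π / (4 * n ^ 2)) / |(j0 : ℝ) - j| =
      ∑ j ∈ C.erase j0, dev M (s j) j0 j / |(j0 : ℝ) - j| +
        π / (4 * n ^ 2) * ∑ j ∈ C.erase j0, 1 / |(j0 : ℝ) - j| := by
    rw [Finset.mul_sum, ← Finset.sum_add_distrib]
    exact Finset.sum_congr rfl fun j _ => by rw [add_div, mul_one_div]
  have e2 : ∑ j ∈ C, (W (2 * π * (j + s j) / n)).re /
      (2 * π * (j0 + y) / n - 2 * π * (j + s j) / n) =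
      n / (2 * π) * ∑ j ∈ C, (W (2 * π * (j + s j) / n)).re / ((j0 : ℝ) - j + (y - s j)) := by
    rw [Finset.mul_sum]
    refine Finset.sum_congr rfl fun j _ => ?_
    rw [show 2 * π * (j0 + y) / n - 2 * π * (j + s j) / n =
      2 * π / n * ((j0 : ℝ) - j + (y - s j)) by ring, ← div_div, div_div_eq_mul_div]
    ring
  rw [e1] at k
  rw [e2]
  exact LowRAux.num hn hc η0 hr hH hd
    (Finset.sum_nonneg fun j _ => div_nonneg (norm_nonneg _) (abs_nonneg _)) k

end Vale.Agent.P091K
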