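import Vale.Agent.P091K.Stm
import Vale.Agent.P091E.Glue

namespace Vale.Agent.P091K

open MeasureTheory Real Filter Topology Vale.Agent.P091

theorem main_of (hP : PhiLStmt) (h1 : SeqKStmt) (hT : TransStmt) (h2 : H2Stmt) (h3 : H3Stmt)
    (h4 : H4Stmt) : ∃ f : ℝ → ℂ, Function.Periodic f (2 * π) ∧
    IntervalIntegrable f volume 0 (2 * π) ∧
    (∫⁻ x in Set.Ioc 0 (2 * π), ENNReal.ofReal (‖f x‖ * √(Real.log (2 + ‖f x‖)))) < ⊤ ∧
    ∀ x : ℝ, ¬ BddAbove (Set.range fun N : ℕ => ‖S f N x‖) := by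
  obtain ⟨b, hb⟩ := h1
  obtain ⟨τ, hτ⟩ := hT (fun r => (b r).A) (fun r => (hb r).2.2.2.2.1)
    (fun r => (hb r).2.2.2.2.2.1) (fun r => (hb r).2.2.2.2.2.2.1)
  obtain ⟨a1, a2, -⟩ := h2 b τ hb
  have a3 : ∀ᵐ x : ℝ, ¬ BddAbove (Set.range fun N : ℕ => ‖S (FF b τ) N x‖) := by
    filter_upwards [hτ] with x hx
    exact h3 b τ hb x hx
  have a4 := h4 b τ hb
  obtain ⟨g, g1, g2, g3, g4⟩ := Vale.Agent.P091E.upgrade a2 a3
  obtain ⟨p1, p2, -, -, p5, p6⟩ := hP
  refine ⟨fun y => FF b τ y + g y, fun y => by simp only [a1 y, g2 y],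
    a2.add (g1.intervalIntegrable _ _), ?_, g4⟩
  have e : ∀ x, ENNReal.ofReal (‖FF b τ x + g x‖ * √(Real.log (2 + ‖FF b τ x + g x‖))) ≤
      3 * ENNReal.ofReal (Ph ‖FF b τ x‖) + ENNReal.ofReal (Ph 4) := fun x => by
    have n := (norm_add_le (FF b τ x) (g x)).trans (add_le_add_right (g3 x) _)
    refine (ENNReal.ofReal_le_ofReal (p5 _ (norm_nonneg _))).trans ?_
    rcases le_total ‖FF b τ x‖ 2 with k | k
    · exact (ENNReal.ofReal_le_ofReal (p1 _ 4 (norm_nonneg _) (by linarith))).trans le_add_self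
    · refine le_trans ?_ le_self_add
      have := (p1 _ (2 * ‖FF b τ x‖) (norm_nonneg (FF b τ x + g x)) (by linarith)).trans
        (p6 _ (norm_nonneg _))
      refine (ENNReal.ofReal_le_ofReal this).trans (le_of_eq ?_)
      rw [ENNReal.ofReal_mul (by norm_num)]
      norm_num
  refine (lintegral_mono e).trans_lt ?_
  rw [lintegral_add_right _ measurable_const, lintegral_const,
    lintegral_const_mul' _ _ (by norm_num)]
  exact ENNReal.add_lt_top.2 ⟨ENNReal.mul_lt_top (by norm_num) a4,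
    ENNReal.mul_lt_top ENNReal.ofReal_lt_top (by
      rw [Measure.restrict_apply_univ]; exact measure_Ioc_lt_top)⟩

end Vale.Agent.P091K
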