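import Vale.Agent.P091K.Stm

namespace Vale.Agent.P091K

open MeasureTheory Real Filter Topology Vale.Agent.P091

namespace MarkAux

/-- Markov bound in real form. -/
theorem markov (μ : Measure ℝ) (W : ℝ → ℝ) (hW : Measurable W) (a b c : ℝ) (ha : 0 < a)
    (hc : b ≤ a * c) (h : ∫⁻ x, ENNReal.ofReal (W x) ∂μ ≤ ENNReal.ofReal b) :
    μ {x | a ≤ W x} ≤ ENNReal.ofReal c := by
  have h1 := mul_meas_ge_le_lintegral (μ := μ) (f := fun x => ENNReal.ofReal (W x))
    hW.ennreal_ofReal (ENNReal.ofReal a)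
  have h2 : {x | a ≤ W x} ⊆ {x | ENNReal.ofReal a ≤ ENNReal.ofReal (W x)} := fun x hx =>
    ENNReal.ofReal_le_ofReal hx
  have h3 : ENNReal.ofReal a * μ {x | a ≤ W x} ≤ ENNReal.ofReal a * ENNReal.ofReal c := by
    calc ENNReal.ofReal a * μ {x | a ≤ W x}
        ≤ ENNReal.ofReal a * μ {x | ENNReal.ofReal a ≤ ENNReal.ofReal (W x)} := by
          gcongr
      _ ≤ ENNReal.ofReal b := h1.trans h
      _ ≤ ENNReal.ofReal (a * c) := ENNReal.ofReal_le_ofReal hc
      _ = ENNReal.ofReal a * ENNReal.ofReal c := ENNReal.ofReal_mul ha.le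
  have ha0 : ENNReal.ofReal a ≠ 0 := by
    simpa using ha
  exact (ENNReal.mul_le_mul_iff_right ha0 ENNReal.ofReal_ne_top).1 h3

theorem num1 (T : ℝ) (hT : 1 ≤ T) :
    2 * π * Real.exp (-(2 * T)) ≤ Real.exp (-T) * (232 / 100) := by
  have h1 : Real.exp (-(2 * T)) = Real.exp (-T) * Real.exp (-T) := by
    rw [← Real.exp_add]; ring_nf
  have h2 : Real.exp (-T) ≤ Real.exp (-1) := Real.exp_le_exp.2 (by linarith)
  have h3 : Real.exp (-1) * Real.exp 1 = 1 := by
    rw [← Real.exp_add]; simp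
  have h4 := Real.exp_one_gt_d9
  have h5 := Real.pi_lt_d4
  have h6 : 0 < Real.exp (-1) := Real.exp_pos _
  have h7 : Real.exp (-1) ≤ 3679 / 10000 := by nlinarith
  have h8 : 0 < Real.exp (-T) := Real.exp_pos _
  have h9 : 2 * π * Real.exp (-T) ≤ 232 / 100 := by
    have := Real.pi_pos
    nlinarith
  rw [h1]
  nlinarith

end MarkAux

theorem mark_pf : MarkStmt := by
  intro Y Er T e hY hE hE0 hT he h1 h2
  set μ : Measure ℝ := volume.restrict (Set.Ioc 0 (2 * π)) with hμ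
  have hA : μ {x | Real.exp (-T) ≤ Real.exp (-Y x)} ≤ ENNReal.ofReal (232 / 100) :=
    MarkAux.markov μ (fun x => Real.exp (-Y x)) (Real.measurable_exp.comp hY.neg) _ _ _
      (Real.exp_pos _) (MarkAux.num1 T hT) h1
  have hB : μ {x | T / 2 ≤ Er x} ≤ ENNReal.ofReal (328 / 100) :=
    MarkAux.markov μ Er hE (T / 2) e _ (by linarith) (by linarith) h2
  have hmS : MeasurableSet {x | T / 2 ≤ Y x - Er x} :=
    measurableSet_le measurable_const (hY.sub hE)
  have hcov : (Set.univ : Set ℝ) ⊆ {x | T / 2 ≤ Y x - Er x} ∪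
      ({x | Real.exp (-T) ≤ Real.exp (-Y x)} ∪ {x | T / 2 ≤ Er x}) := by
    intro x _
    by_cases hy : Y x ≤ T
    · exact Or.inr (Or.inl (Real.exp_le_exp.2 (by linarith)))
    · by_cases hr : T / 2 ≤ Er x
      · exact Or.inr (Or.inr hr)
      · refine Or.inl ?_
        show T / 2 ≤ Y x - Er x
        push Not at hy hr
        linarith
  have hu : μ Set.univ = ENNReal.ofReal (2 * π) := by
    rw [hμ, Measure.restrict_apply_univ, Real.volume_Ioc, sub_zero]
  have hS : μ {x | T / 2 ≤ Y x - Er x} =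
      volume ({x | T / 2 ≤ Y x - Er x} ∩ Set.Ioc 0 (2 * π)) := by
    rw [hμ, Measure.restrict_apply hmS]
  rw [← hS]
  have hle : ENNReal.ofReal (2 * π) ≤ μ {x | T / 2 ≤ Y x - Er x} + ENNReal.ofReal (56 / 10) := by
    calc ENNReal.ofReal (2 * π) = μ Set.univ := hu.symm
      _ ≤ μ ({x | T / 2 ≤ Y x - Er x} ∪
          ({x | Real.exp (-T) ≤ Real.exp (-Y x)} ∪ {x | T / 2 ≤ Er x})) := measure_mono hcov
      _ ≤ μ {x | T / 2 ≤ Y x - Er x} +
          μ ({x | Real.exp (-T) ≤ Real.exp (-Y x)} ∪ {x | T / 2 ≤ Er x}) := measure_union_le _ _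
      _ ≤ μ {x | T / 2 ≤ Y x - Er x} +
          (μ {x | Real.exp (-T) ≤ Real.exp (-Y x)} + μ {x | T / 2 ≤ Er x}) := by
          gcongr
          exact measure_union_le _ _
      _ ≤ μ {x | T / 2 ≤ Y x - Er x} +
          (ENNReal.ofReal (232 / 100) + ENNReal.ofReal (328 / 100)) := by
          gcongr
      _ = μ {x | T / 2 ≤ Y x - Er x} + ENNReal.ofReal (56 / 10) := by
          rw [← ENNReal.ofReal_add (by norm_num) (by norm_num)]
          norm_num
  have hpi := Real.pi_gt_three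
  have hsum : ENNReal.ofReal (π / 8) + ENNReal.ofReal (56 / 10) ≤ ENNReal.ofReal (2 * π) := by
    rw [← ENNReal.ofReal_add (by positivity) (by norm_num)]
    exact ENNReal.ofReal_le_ofReal (by linarith)
  exact ENNReal.le_of_add_le_add_right ENNReal.ofReal_ne_top (hsum.trans hle)

end Vale.Agent.P091K
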