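import Vale.Agent.P091K.Stm

namespace Vale.Agent.P091K

open MeasureTheory Real Filter Topology Vale.Agent.P091

theorem nest1_pf : Nest1Stmt := by
  intro c χ r L n w Dg M B hc hχ hr r0 r1 hw hL
  refine ⟨sup_sum fun j _ => sup_sum fun k hk => sup_sum fun m hm => ?_, fun x => ?_⟩
  · have h1 := hc k hk
    have h2 := hχ j m hm
    have h3 := hL j
    have h4 := mul_nonneg hw h1.1
    have h5 := mul_le_mul_of_nonneg_left h1.2 hw
    exact sup_single _ (by omega) (by omega)
  · have e : ev x (nest c χ L n w) =
        ∑ j ∈ Finset.range n, (r j x : ℂ) * (E (L j) x * ev (w * x) c) := by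
      simp only [nest, map_sum, ev_single]
      refine Finset.sum_congr rfl fun j _ => ?_
      rw [← hr j x, ev_eq, ev_eq, Finset.mul_sum, Finset.mul_sum]
      refine Finset.sum_congr rfl fun k _ => ?_
      rw [Finset.sum_mul]
      refine Finset.sum_congr rfl fun m _ => ?_
      rw [E_add, E_add, E_mul]
      ring
    rw [e]
    refine (norm_sum_le _ _).trans (le_of_eq ?_)
    have k : ∀ j ∈ Finset.range n, ‖(r j x : ℂ) * (E (L j) x * ev (w * x) c)‖ =
        r j x * ‖ev (w * x) c‖ := fun j _ => by
      rw [norm_mul, norm_mul, norm_E, one_mul, Complex.norm_real, Real.norm_of_nonneg (r0 j x)]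
    rw [Finset.sum_congr rfl k, ← Finset.sum_mul, r1, one_mul]

end Vale.Agent.P091K
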