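import Vale.Agent.P091K.Stm

namespace Vale.Agent.P091K

open MeasureTheory Real Filter Topology Vale.Agent.P091

namespace Nest2Aux

theorem cond {a a0 w Dg M gp N k m : ℤ} (hM : 0 ≤ M) (h1 : M < gp) (h2 : gp + M < w) (hN : 0 ≤ N)
    (hN' : N ≤ Dg + 1) (hL : a ≠ a0 → 2 * (w * (Dg + 2)) ≤ |a - a0|) (hk : 0 ≤ k ∧ k ≤ Dg)
    (hm : -M ≤ m ∧ m ≤ M) : a + w * k + m < a0 + w * N - gp ↔
      k < if a = a0 then N else if a < a0 then Dg + 1 else 0 := by
  have hw : 0 ≤ w := by omega
  have k0 : 0 ≤ w * k := mul_nonneg hw hk.1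
  have k1 : w * k ≤ w * Dg := mul_le_mul_of_nonneg_left hk.2 hw
  have n0 : 0 ≤ w * N := mul_nonneg hw hN
  have n1 : w * N ≤ w * (Dg + 1) := mul_le_mul_of_nonneg_left hN' hw
  rw [mul_add, mul_one] at n1
  split_ifs with e1 e2
  · subst e1
    constructor
    · intro h
      by_contra hk'
      have := mul_le_mul_of_nonneg_left (not_lt.1 hk') hw
      omega
    · intro h
      have := mul_le_mul_of_nonneg_left (show k + 1 ≤ N by omega) hw
      rw [mul_add, mul_one] at this
      omega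
  · have h3 := hL e1
    rw [abs_of_neg (by omega), mul_add] at h3
    omega
  · have h3 := hL e1
    rw [abs_of_nonneg (by omega), mul_add] at h3
    omega

theorem term (c d : TP) (a w N1 N2 : ℤ) (x : ℝ)
    (h : ∀ k ∈ c.support, ∀ m ∈ d.support, a + w * k + m < N1 ↔ k < N2) :
    ps N1 x (∑ k ∈ c.support, ∑ m ∈ d.support, Finsupp.single (a + w * k + m) (c k * d m)) =
      ev x d * (E a x * ps N2 (w * x) c) := by
  rw [map_sum, ps_eq N2, Finset.mul_sum, Finset.mul_sum]
  refine Finset.sum_congr rfl fun k hk => ?_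
  rw [map_sum, ev_eq, Finset.sum_mul]
  refine Finset.sum_congr rfl fun m hm => ?_
  rw [ps_single]
  by_cases e : k < N2
  · rw [if_pos ((h k hk m hm).2 e), if_pos e, E_add, E_add, E_mul]
    ring
  · rw [if_neg fun q => e ((h k hk m hm).1 q), if_neg e, mul_zero, mul_zero]

end Nest2Aux

open Nest2Aux

theorem nest2_pf : Nest2Stmt := by
  intro c χ r L n j0 w Dg M gp N x hc hχ hr h0 h1 hM a1 a2 hN hN' hj hL
  have e : ps (L j0 + w * N - gp) x (nest c χ L n w) = ∑ j ∈ Finset.range n, (r j x : ℂ) *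
      (E (L j) x * ps (if L j = L j0 then N else if L j < L j0 then Dg + 1 else 0) (w * x) c) := by
    rw [nest, map_sum]
    refine Finset.sum_congr rfl fun j _ => ?_
    rw [term c (χ j) (L j) w _ _ x fun k hk m hm =>
      cond hM a1 a2 hN hN' (hL j) (hc k hk) (hχ j m hm), hr]
  have hj' := Finset.mem_range.2 hj
  have hs : ∑ j ∈ (Finset.range n).erase j0, r j x = 1 - r j0 x := by
    rw [← h1 x, ← Finset.add_sum_erase _ (fun j => r j x) hj']
    ring
  have hb : ∀ (a N' : ℤ), ‖E a x * ps N' (w * x) c‖ ≤ nm c := fun a N' => by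
    rw [norm_mul, norm_E, one_mul]
    exact norm_ps_le _ _ _
  have h2 : 0 ≤ 1 - r j0 x := hs ▸ Finset.sum_nonneg fun j _ => h0 j x
  rw [e, ← Finset.add_sum_erase _ _ hj', if_pos rfl, add_sub_right_comm]
  refine (norm_add_le _ _).trans ?_
  have b1 : ‖(r j0 x : ℂ) * (E (L j0) x * ps N (w * x) c) - E (L j0) x * ps N (w * x) c‖ ≤
      (1 - r j0 x) * nm c := by
    rw [norm_sub_rev, ← one_sub_mul, norm_mul, ← Complex.ofReal_one, ← Complex.ofReal_sub,
      Complex.norm_real, Real.norm_of_nonneg h2]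
    exact mul_le_mul_of_nonneg_left (hb _ _) h2
  have b2 : ‖∑ j ∈ (Finset.range n).erase j0, (r j x : ℂ) * (E (L j) x *
      ps (if L j = L j0 then N else if L j < L j0 then Dg + 1 else 0) (w * x) c)‖ ≤
      (1 - r j0 x) * nm c := by
    rw [← hs, Finset.sum_mul]
    refine (norm_sum_le _ _).trans (Finset.sum_le_sum fun j _ => ?_)
    rw [norm_mul, Complex.norm_real, Real.norm_of_nonneg (h0 j x)]
    exact mul_le_mul_of_nonneg_left (hb _ _) (h0 j x)
  linarith

end Vale.Agent.P091K
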