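import Vale.Agent.P091K.Stm

namespace Vale.Agent.P091K

open MeasureTheory Real Filter Topology Vale.Agent.P091

namespace PAvgAux

theorem swap (n : ℕ) (C : Finset ℕ) :
    ∑ j0 ∈ Finset.range n, ∑ j ∈ C.erase j0, 1 / |(j0 : ℝ) - j| =
      ∑ j ∈ C, ∑ j0 ∈ (Finset.range n).erase j, 1 / |(j : ℝ) - j0| := by
  rw [Finset.sum_comm' (t' := C) (s' := fun j => (Finset.range n).erase j)]
  · refine Finset.sum_congr rfl fun j _ => Finset.sum_congr rfl fun j0 _ => ?_
    rw [abs_sub_comm]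
  · intro a b
    simp only [Finset.mem_erase]
    constructor
    · rintro ⟨h1, h2, h3⟩
      exact ⟨⟨fun h => h2 h.symm, h1⟩, h3⟩
    · rintro ⟨⟨h1, h2⟩, h3⟩
      exact ⟨h2, fun h => h1 h.symm, h3⟩

end PAvgAux

theorem pAvg_pf (h : HarmStmt) : PAvgStmt := by
  intro R D C hD hc hC
  have hc0 : 0 < C.card := by
    rcases Nat.eq_zero_or_pos C.card with h0 | h0
    · rw [h0, mul_zero] at hc
      have : 0 < 2 ^ D := by positivity
      omega
    · exact h0
  have hc1 : (0 : ℝ) < C.card := by exact_mod_cast hc0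
  have hc2 : (2 : ℝ) ^ D / C.card ≤ 2 ^ (R + 2) := by
    rw [div_le_iff₀ hc1]
    exact_mod_cast hc
  have hn : ∀ (j0 : ℕ) (S : Finset ℕ), ∀ j ∈ S, 0 ≤ 1 / |(j0 : ℝ) - j| := fun _ _ _ _ => by
    positivity
  refine ⟨fun j0 hj => ⟨?_, ?_⟩, ?_⟩
  · exact mul_nonneg (by positivity) (Finset.sum_nonneg (hn j0 _))
  · have h1 : ∑ j ∈ C.erase j0, 1 / |(j0 : ℝ) - j| ≤ 4 * D := by
      refine le_trans (Finset.sum_le_sum_of_subset_of_nonneg ?_ fun _ _ _ => by positivity)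
        (h D j0 hD hj).2
      exact Finset.erase_subset_erase _ fun j hj => Finset.mem_range.2 (hC j hj)
    have h2 : PP D C j0 ≤ 2 ^ (R + 2) * (4 * D) :=
      mul_le_mul hc2 h1 (Finset.sum_nonneg (hn j0 _)) (by positivity)
    refine h2.trans (le_of_eq ?_)
    ring
  · unfold PP
    rw [← Finset.mul_sum, PAvgAux.swap]
    have h1 : (C.card : ℝ) * (D / 4) ≤
        ∑ j ∈ C, ∑ j0 ∈ (Finset.range (2 ^ D)).erase j, 1 / |(j : ℝ) - j0| := by
      rw [← nsmul_eq_mul]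
      exact Finset.card_nsmul_le_sum _ _ _ fun j hj => (h D j hD (hC j hj)).1
    refine le_trans (le_of_eq ?_) (mul_le_mul_of_nonneg_left h1 (by positivity))
    field_simp

end Vale.Agent.P091K
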