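import Vale.Agent.P091K.Stm

/-! Elementary properties of the Orlicz function. -/

namespace Vale.Agent.P091K

open MeasureTheory Real Filter Topology Vale.Agent.P091

namespace PhiLAux

theorem one_le_log {u : ℝ} (hu : 0 ≤ u) : 1 ≤ Real.log (3 + u) := by
  rw [Real.le_log_iff_exp_le (by linarith)]
  linarith [Real.exp_one_lt_d9]

theorem one_le_s {u : ℝ} (hu : 0 ≤ u) : 1 ≤ √(Real.log (3 + u)) :=
  Real.one_le_sqrt.2 (one_le_log hu)

theorem s_mono {a b : ℝ} (ha : 0 < a) (h : a ≤ b) : √(Real.log a) ≤ √(Real.log b) :=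
  Real.sqrt_le_sqrt (Real.log_le_log ha h)

end PhiLAux

open PhiLAux in
theorem phiL_pf : PhiLStmt := by
  refine ⟨fun u v hu h => ?_, fun u hu => ?_, ?_, fun u v hu hv => ?_, fun u hu => ?_,
    fun u hu => ?_⟩
  · unfold Ph
    exact mul_le_mul h (s_mono (by linarith) (by linarith)) (Real.sqrt_nonneg _) (hu.trans h)
  · unfold Ph
    exact le_mul_of_one_le_right hu (one_le_s hu)
  · unfold Ph
    exact continuousOn_id.mul (((continuousOn_const.add continuousOn_id).log fun u hu => by
      have : (0 : ℝ) ≤ u := hu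
      exact (add_pos_of_pos_of_nonneg three_pos this).ne').sqrt)
  · unfold Ph
    rw [← add_assoc]
    have h0 := one_le_s hu
    have h1 := one_le_s (add_nonneg hu hv)
    rw [← add_assoc] at h1
    have e0 := Real.sq_sqrt ((zero_le_one.trans (one_le_log hu)))
    have e1 := Real.sq_sqrt ((zero_le_one.trans (one_le_log (add_nonneg hu hv))))
    rw [← add_assoc] at e1
    have hm := s_mono (a := 3 + u) (b := 3 + u + v) (by linarith) (by linarith)
    have hl : Real.log (3 + u + v) - Real.log (3 + u) ≤ v / (3 + u) := by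
      rw [← Real.log_div (by linarith) (by linarith)]
      refine (Real.log_le_sub_one_of_pos (by positivity)).trans (le_of_eq ?_)
      field_simp
      ring
    have hl2 : u * (Real.log (3 + u + v) - Real.log (3 + u)) ≤ v := by
      refine (mul_le_mul_of_nonneg_left hl hu).trans ?_
      rw [← mul_div_assoc, div_le_iff₀ (by linarith)]
      nlinarith
    rw [← e0, ← e1] at hl2
    generalize √(Real.log (3 + u + v)) = s1 at *
    generalize √(Real.log (3 + u)) = s0 at *
    have k : u * (s1 - s0) ≤ u * (s1 ^ 2 - s0 ^ 2) :=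
      mul_le_mul_of_nonneg_left (by nlinarith) hu
    nlinarith
  · unfold Ph
    exact mul_le_mul_of_nonneg_left (s_mono (by linarith) (by linarith)) hu
  · unfold Ph
    have h1 : Real.log (3 + 2 * u) ≤ 2 * Real.log (3 + u) := by
      rw [two_mul (Real.log _), ← Real.log_mul (by linarith) (by linarith)]
      exact Real.log_le_log (by linarith) (by nlinarith)
    have h0 := one_le_log hu
    have h2 : √(Real.log (3 + 2 * u)) ≤ 3 / 2 * √(Real.log (3 + u)) := by
      refine Real.sqrt_le_iff.2 ⟨by positivity, ?_⟩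
      rw [mul_pow, Real.sq_sqrt (by linarith)]
      linarith
    nlinarith [mul_le_mul_of_nonneg_left h2 hu]

end Vale.Agent.P091K
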