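import Vale.Agent.P091K.Stm

namespace Vale.Agent.P091K

open MeasureTheory Real Filter Topology Vale.Agent.P091

namespace RealKAux

theorem core {r v D d : ℝ} (hr : 1 - v ≤ r) (hv : 0 ≤ v) (hD : 0 < D) (h1 : D / 2 ≤ d)
    (h2 : d ≤ 2 * D) : (1 / 2) * (1 / D) - 2 * (v / D) ≤ r / d := by
  have hd : 0 < d := by linarith
  have e1 : (1 / 2) * (1 / D) ≤ 1 / d := by
    rw [one_div_mul_one_div]
    exact one_div_le_one_div_of_le hd h2
  have e2 : v / d ≤ 2 * (v / D) := by
    have := div_le_div_of_nonneg_left hv (half_pos hD) h1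
    rw [div_div_eq_mul_div, mul_comm v 2, mul_div_assoc] at this
    exact this
  have e3 : (1 - v) / d ≤ r / d := div_le_div_of_nonneg_right hr hd.le
  rw [sub_div] at e3
  linarith

theorem small {r d η : ℝ} (hr : |r| ≤ 1) (hη : 0 < η) (hd : η / 2 ≤ |d|) : -(2 / η) ≤ r / d := by
  have h1 : |r / d| ≤ 2 / η := by
    rw [abs_div]
    calc |r| / |d| ≤ 1 / (η / 2) := div_le_div₀ zero_le_one hr (half_pos hη) hd
      _ = 2 / η := by rw [one_div_div]
  exact (abs_le.1 h1).1

end RealKAux

theorem realK_pf : RealKStmt := by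
  intro C j0 e v z η hη hη2 he hz hv
  have hre : ∀ j, |(z j).re| ≤ 1 := fun j => (Complex.abs_re_le_norm _).trans (hz j)
  have hterm : ∀ j ∈ C.erase j0, (1 / 2) * (1 / |(j0 : ℝ) - j|) - 2 * (v j / |(j0 : ℝ) - j|) -
      (if j = j0 + 1 then 2 / η + 1 / 2 else 0) ≤ (z j).re / ((j0 : ℝ) - j + e j) := by
    intro j hj
    have hne : j ≠ j0 := (Finset.mem_erase.1 hj).1
    have hv0 : 0 ≤ v j := (norm_nonneg _).trans (hv j hne)
    have hr := (Complex.abs_re_le_norm _).trans (hv j hne)
    obtain ⟨he1, he2⟩ := he j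
    rcases lt_or_gt_of_ne hne with h | h
    · have hD : (1 : ℝ) ≤ (j0 : ℝ) - j := by
        have : ((j + 1 : ℕ) : ℝ) ≤ j0 := by exact_mod_cast h
        push_cast at this
        linarith
      rw [if_neg (by omega), sub_zero, abs_of_pos (by linarith)]
      rw [sg, if_pos h, Complex.sub_re, Complex.one_re] at hr
      exact RealKAux.core (by linarith [(abs_le.1 hr).1]) hv0 (by linarith) (by linarith)
        (by linarith)
    · rw [sg, if_neg (by omega), Complex.sub_re, Complex.neg_re, Complex.one_re] at hr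
      by_cases h1 : j = j0 + 1
      · have e1 : (j0 : ℝ) - j = -1 := by rw [h1]; push_cast; ring
        rw [if_pos h1, e1, abs_neg, abs_one]
        have := RealKAux.small (d := -1 + e j) (hre j) hη
          (by rw [abs_of_nonpos (by linarith)]; linarith)
        linarith
      · have hD : (2 : ℝ) ≤ (j : ℝ) - j0 := by
          have : ((j0 + 2 : ℕ) : ℝ) ≤ j := by exact_mod_cast (show j0 + 2 ≤ j by omega)
          push_cast at this
          linarith
        rw [if_neg h1, sub_zero, abs_sub_comm, abs_of_pos (show (0 : ℝ) < (j : ℝ) - j0 by linarith),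
          ← neg_div_neg_eq (z j).re]
        exact RealKAux.core (by linarith [(abs_le.1 hr).2]) hv0 (by linarith) (by linarith)
          (by linarith)
  have hs := Finset.sum_le_sum hterm
  rw [Finset.sum_sub_distrib, Finset.sum_sub_distrib, ← Finset.mul_sum, ← Finset.mul_sum,
    Finset.sum_ite_eq'] at hs
  have hp : 0 < 2 / η := by positivity
  have hx : (if j0 + 1 ∈ C.erase j0 then 2 / η + 1 / 2 else 0) ≤ 2 / η + 1 / 2 := by
    split_ifs
    · exact le_rfl
    · linarith
  have h5 : 2 / η + (2 / η + 1 / 2) ≤ 5 / η := by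
    have : 2 ≤ 1 / η := by rw [le_div_iff₀ hη]; linarith
    have e1 : 2 / η = 2 * (1 / η) := by ring
    have e2 : 5 / η = 5 * (1 / η) := by ring
    linarith
  by_cases hj : j0 ∈ C
  · rw [← Finset.add_sum_erase C _ hj]
    have := RealKAux.small (d := (j0 : ℝ) - j0 + e j0) (hre j0) hη
      (by rw [sub_self, zero_add, abs_of_nonneg (by linarith [(he j0).1])]; exact (he j0).1)
    linarith
  · rw [Finset.erase_eq_of_notMem hj] at hs hx ⊢
    linarith

end Vale.Agent.P091K
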