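import Vale.Agent.P091K.Stm

/-! Partial sums of a modulated trigonometric polynomial. -/

namespace Vale.Agent.P091K

open MeasureTheory Real Filter Topology Vale.Agent.P091

namespace SPolyAux

theorem coef_E (m l : ℤ) : coef (E m) l = if l = m then 1 else 0 := by
  have e : ∀ x : ℝ, E m x * Complex.exp (-((l : ℂ) * (x : ℂ) * Complex.I)) =
      Complex.exp ((((m - l : ℤ) : ℂ) * Complex.I) * x) := fun x => by
    rw [E, ← Complex.exp_add]; congr 1; push_cast; ring
  simp only [coef, e]
  split_ifs with h
  · have : (π : ℂ) ≠ 0 := by exact_mod_cast pi_ne_zero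
    simp only [h, sub_self, Int.cast_zero, zero_mul, Complex.exp_zero,
      intervalIntegral.integral_const, sub_zero, Complex.real_smul, mul_one]
    push_cast
    field_simp
  · rw [integral_exp_mul_complex (mul_ne_zero (Int.cast_ne_zero.2 (by omega)) Complex.I_ne_zero),
      show ((m - l : ℤ) : ℂ) * Complex.I * ((2 * π : ℝ) : ℂ) =
        ((m - l : ℤ) : ℂ) * (2 * π * Complex.I) by push_cast; ring,
      Complex.exp_int_mul_two_pi_mul_I]
    simp

end SPolyAux

theorem sPoly_pf : SPolyStmt := by
  intro c Dg Γ τ x N hc hΓ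
  have e : (fun y => E Γ y * ev (y - τ) c) =
      fun y => ∑ k ∈ c.support, (c k * E (-k) τ) * E (Γ + k) y := by
    funext y
    rw [ev_eq, Finset.mul_sum]
    exact Finset.sum_congr rfl fun k _ => by rw [E_sub', E_add]; ring
  rw [e, S, ps_eq, Finset.mul_sum]
  simp only [coef_sum _ _ fun k _ => (E_cont (Γ + k)).const_mul (c k * E (-k) τ), coef_smul,
    SPolyAux.coef_E, Finset.sum_mul]
  rw [Finset.sum_comm]
  refine Finset.sum_congr rfl fun k hk => ?_
  have h0 := (hc k hk).1
  simp only [mul_ite, mul_one, mul_zero, ite_mul, zero_mul, Finset.sum_ite_eq', Finset.mem_Icc]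
  refine if_congr (by omega) ?_ rfl
  show _ * E (Γ + k) x = _
  rw [E_sub', E_add]
  ring

end Vale.Agent.P091K
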