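import Vale.Agent.P091K.Emb
import Vale.Agent.P091K.CanS
import Vale.Agent.P091K.Chi
import Vale.Agent.P091K.GkP
import Vale.Agent.P091K.LowR
import Vale.Agent.P091K.Nest2
import Vale.Agent.P091K.H2
import Vale.Agent.P091K.H4
import Vale.Agent.P091K.Ind
import Vale.Agent.P091K.IndA
import Vale.Agent.P091K.FejA
import Vale.Agent.P091K.ErrK
import Vale.Agent.P091K.LowK
import Vale.Agent.P091K.AtomK
import Vale.Agent.P091K.H3
import Vale.Agent.P091K.RealK
import Vale.Agent.P091K.CanB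
import Vale.Agent.P091K.SPoly
import Vale.Agent.P091K.ErrW
import Vale.Agent.P091K.Mark
import Vale.Agent.P091K.ErrP
import Vale.Agent.P091K.GkN
import Vale.Agent.P091K.AtNum
import Vale.Agent.P091K.Ker
import Vale.Agent.P091K.Abel
import Vale.Agent.P091K.FejB
import Vale.Agent.P091K.FejC
import Vale.Agent.P091K.Cnt
import Vale.Agent.P091K.CanA
import Vale.Agent.P091K.LevB
import Vale.Agent.P091K.LevC
import Vale.Agent.P091K.LevA
import Vale.Agent.P091K.LevG
import Vale.Agent.P091K.Cell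
import Vale.Agent.P091K.CellV
import Vale.Agent.P091K.Nest1
import Vale.Agent.P091K.ErrC
import Vale.Agent.P091K.PAvg
import Vale.Agent.P091K.PhiL
import Vale.Agent.P091K.Align
import Vale.Agent.P091K.IterB
import Vale.Agent.P091K.Level
import Vale.Agent.P091K.MainA
import Vale.Agent.P091.Bits
import Vale.Agent.P091.BitsA
import Vale.Agent.P091.Avg
import Vale.Agent.P091.Harm
import Vale.Agent.P091.Node
import Vale.Agent.P091.TransA
import Vale.Agent.P091.TransB
import Vale.Agent.P091.PhiB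

namespace Vale.Agent.P091K

open MeasureTheory Real Filter Topology Vale.Agent.P091

theorem atomK_all : AtomKStmt :=
  atomK_pf (canA_pf cnt_pf) (canS_pf (canB_pf cnt_pf))
    (errK_pf (bits_pf bitsA_pf) harm_pf errP_pf (errC_pf avg_pf (errW_pf (node_pf harm_pf))))
    (gkN_pf fejA_pf fejB_pf (fejC_pf fejA_pf))
    (lowK_pf (gkP_pf ker_pf abel_pf) (lowR_pf harm_pf realK_pf)) (pAvg_pf harm_pf) atNum_pf

theorem level_all : LevelStmt :=
  have hI := ind_pf cell_pf indA_pf
  level_pf atomK_all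
    (emb_pf (chi_pf fejA_pf fejB_pf (fejC_pf fejA_pf)) nest1_pf nest2_pf align_pf) cell_pf
    (levA_pf cell_pf hI) (levB_pf cell_pf hI (cellV_pf hI)) (levC_pf phiL_pf cell_pf hI)
    (levG_pf cell_pf)

theorem main_all : ∃ f : ℝ → ℂ, Function.Periodic f (2 * π) ∧
    IntervalIntegrable f volume 0 (2 * π) ∧
    (∫⁻ x in Set.Ioc 0 (2 * π), ENNReal.ofReal (‖f x‖ * √(Real.log (2 + ‖f x‖)))) < ⊤ ∧
    ∀ x : ℝ, ¬ BddAbove (Set.range fun N : ℕ => ‖S f N x‖) :=
  main_of phiL_pf (seqK_pf (supB_pf (iterB_pf level_all) mark_pf))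
    (trans_pf (transB_pf transA_pf)) (h2_pf phiL_pf) (h3_pf sPoly_pf (h2_pf phiL_pf))
    (h4_pf phiL_pf)

end Vale.Agent.P091K
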