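import Vale.Agent.P091K.Bas

namespace Vale.Agent.P091K

open MeasureTheory Real Filter Topology Vale.Agent.P091

def PhiLStmt : Prop :=
  (∀ u v : ℝ, 0 ≤ u → u ≤ v → Ph u ≤ Ph v) ∧ (∀ u : ℝ, 0 ≤ u → u ≤ Ph u) ∧
  ContinuousOn Ph (Set.Ici 0) ∧
  (∀ u v : ℝ, 0 ≤ u → 0 ≤ v → Ph (u + v) ≤ Ph u + v * (√(Real.log (3 + u + v)) + 1)) ∧
  (∀ u : ℝ, 0 ≤ u → u * √(Real.log (2 + u)) ≤ Ph u) ∧ ∀ u : ℝ, 0 ≤ u → Ph (2 * u) ≤ 3 * Ph u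

/-! ### The Cantor set of masses -/

def DD (R K : ℕ) : ℕ := R * (K + 1) + 2

def CC (R K : ℕ) : Finset ℕ := (Finset.range (2 ^ DD R K)).filter fun a =>
  ∀ p < DD R K, (p % (K + 1) = 0 ∨ p + 1 = DD R K) → a.testBit p = decide (p + 2 = DD R K)

/-- the nodes of level `k` that carry mass -/
def Lv (C : Finset ℕ) (k : ℕ) : Finset ℕ := C.image fun j : ℕ => j / 2 ^ k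

def CntStmt : Prop := ∀ (F v : ℕ → Bool) (i : ℕ),
  ((Finset.range (2 ^ i)).filter fun a => ∀ p < i, F p = true → a.testBit p = v p).card
    = 2 ^ ((Finset.range i).filter fun p => F p = false).card

def CanAStmt : Prop := ∀ R K : ℕ, 1 ≤ R → 1 ≤ K →
  2 ^ DD R K ≤ 2 ^ (R + 2) * (CC R K).card ∧
  ∀ j ∈ CC R K, 2 ^ DD R K ≤ 4 * j ∧ 2 * j < 2 ^ DD R K

def CanBStmt : Prop := ∀ R K k i c : ℕ, k + i ≤ DD R K →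
  ((Lv (CC R K) k).filter fun a => a / 2 ^ i = c).card ≤ 2 ^ (i - i / (K + 1))

def CanSStmt : Prop := ∀ R K k : ℕ, k ≤ DD R K → ∀ b ∈ Lv (CC R K) k,
  ∑ a ∈ (Lv (CC R K) k).erase b, 1 / |(a : ℝ) - b| ≤ 12 * ((K : ℝ) + 1)

def Can (R K : ℕ) (C : Finset ℕ) : Prop :=
  2 ^ DD R K ≤ 2 ^ (R + 2) * C.card ∧ (∀ j ∈ C, 2 ^ DD R K ≤ 4 * j ∧ 2 * j < 2 ^ DD R K) ∧
  ∀ k ≤ DD R K, ∀ b ∈ Lv C k,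
    ∑ a ∈ (Lv C k).erase b, 1 / |(a : ℝ) - b| ≤ 12 * ((K : ℝ) + 1)

def om (m : ℕ) (C : Finset ℕ) (col : ℕ × ℕ → ℕ) (z : ℕ × ℕ) : ℕ :=
  if z.2 ∈ Lv C z.1 then 4 * m * z.1 + 2 * m * (z.2 % 2) + col z else 0

/-- the node of `j0` at level `k` carries mass, differs from the node of `j`, same parity -/
abbrev Cl (C : Finset ℕ) (k j0 j : ℕ) : Prop :=
  j0 / 2 ^ k ∈ Lv C k ∧ j0 / 2 ^ k ≠ j / 2 ^ k ∧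
    j0 / 2 ^ k % 2 = j / 2 ^ k % 2

def ErrWStmt : Prop := ∀ (R K : ℕ) (C : Finset ℕ), Can R K C →
  ∑ k ∈ Finset.Icc 1 (DD R K), ∑ j ∈ C,
    ∑ j0 ∈ (Finset.range (2 ^ DD R K)).filter (fun j0 => Cl C k j0 j), 1 / |(j0 : ℝ) - j|
    ≤ (DD R K : ℝ) * C.card * (24 * ((K : ℝ) + 1))

def ErrPStmt : Prop := ∀ (m : ℕ) (C : Finset ℕ) (col : ℕ × ℕ → ℕ) (k k' j0 j : ℕ),
  (∀ z, col z < m) → 1 ≤ k → 1 ≤ k' → j ∈ C →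
  (if (k, j0 / 2 ^ k) = (k', j / 2 ^ k') then 0
    else er (om m C col (k, j0 / 2 ^ k)) (om m C col (k', j / 2 ^ k')))
  ≤ (if k = k' ∧ Cl C k j0 j then er (col (k, j0 / 2 ^ k)) (col (k, j / 2 ^ k)) else 0) + π / 2 ^ m

def ErrCStmt : Prop := ∀ (R K : ℕ) (C : Finset ℕ), Can R K C → ∃ col : ℕ × ℕ → ℕ,
  (∀ z, col z < 2000000 * (K + 1)) ∧
  ∑ k ∈ Finset.Icc 1 (DD R K), ∑ j ∈ C,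
    ∑ j0 ∈ (Finset.range (2 ^ DD R K)).filter (fun j0 => Cl C k j0 j),
      1 / |(j0 : ℝ) - j| * er (col (k, j0 / 2 ^ k)) (col (k, j / 2 ^ k))
    ≤ (C.card : ℝ) * DD R K / 10000

def ErrKStmt : Prop := ∀ (R K i0 : ℕ) (C : Finset ℕ), R ≤ K → Can R K C → ∃ ω : ℕ × ℕ → ℕ,
  (∀ k a, k ≤ DD R K → ω (k, a) < 8000000 * (K + 1) * (DD R K + 1)) ∧
  ∑ j0 ∈ Finset.range (2 ^ DD R K), ∑ j ∈ C.erase j0,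
    dev (MM (DD R K) i0 ω j0) (ss (DD R K) i0 ω j) j0 j / |(j0 : ℝ) - j|
    ≤ (C.card : ℝ) * DD R K / 5000

/-! ### Fejer kernels and the atom -/

noncomputable def fr (M : ℕ) (t : ℝ) : ℝ := ‖∑ a ∈ Finset.range M, E a t‖ ^ 2 / M

noncomputable def kp (M k : ℕ) : ℝ := 1 - |(k : ℝ) - M| / M

def FejAStmt : Prop := ∀ (M : ℕ) (t : ℝ), 1 ≤ M →
  ∑ k ∈ Finset.range (2 * M + 1), (kp M k : ℂ) * E ((k : ℤ) - M) t = (fr M t : ℂ)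

def FejBStmt : Prop := ∀ M : ℕ, 1 ≤ M → Continuous (fr M) ∧ (∀ t, 0 ≤ fr M t) ∧
  (∀ t, fr M t ≤ M) ∧ ∀ t ρ : ℝ, 0 < ρ → ρ ≤ |t| → |t| ≤ 2 * π - ρ → fr M t ≤ π ^ 2 / (M * ρ ^ 2)

def FejCStmt : Prop := ∀ M : ℕ, 1 ≤ M →
  (∀ p : ℝ, (∫ x in (0 : ℝ)..(2 * π), fr M (x - p)) = 2 * π) ∧
  ∀ (G : ℕ) (x : ℝ), M < G → ∑ g ∈ Finset.range G, fr M (x - 2 * π * g / G) = G

def KerStmt : Prop := ∀ u : ℝ, u ≠ 0 → |u| ≤ 3 * π / 2 →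
  ‖Complex.I / (E 1 u - 1) - ((1 / u : ℝ) : ℂ)‖ ≤ 3 ∧ |u| / 4 ≤ ‖E 1 u - 1‖

def AbelStmt : Prop := ∀ (M N : ℕ) (u : ℝ), 1 ≤ M → N ≤ M → E 1 u ≠ 1 →
  ‖(∑ k ∈ Finset.range (2 * M + 1), if (k : ℤ) < (N : ℤ) then (kp M k : ℂ) * E k u else 0) -
    (((N : ℝ) / M : ℝ) : ℂ) * (E N u / (E 1 u - 1))‖ ≤ 2 / (M * ‖E 1 u - 1‖ ^ 2)

noncomputable def gk (M : ℕ) (L0 : ℤ) (C : Finset ℕ) (p : ℕ → ℝ) : TP :=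
  ∑ j ∈ C, ∑ k ∈ Finset.range (2 * M + 1), Finsupp.single (k : ℤ)
    (((1 / C.card : ℝ) : ℂ) * E L0 (p j) * (kp M k : ℂ) * E (-(k : ℤ)) (p j))

def GkNStmt : Prop := ∀ (M : ℕ) (L0 : ℤ) (C : Finset ℕ) (p : ℕ → ℝ), 1 ≤ M → C.Nonempty →
  Sup (gk M L0 C p) 0 (2 * M) ∧ (∀ x, ‖ev x (gk M L0 C p)‖ ≤ M) ∧
  LI (fun x => ‖ev x (gk M L0 C p)‖) ≤ ENNReal.ofReal (2 * π)

def GkPStmt : Prop := ∀ (M N : ℕ) (L0 : ℤ) (C : Finset ℕ) (p : ℕ → ℝ) (x ρ : ℝ), 1 ≤ M → N ≤ M →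
  C.Nonempty → 0 < ρ → (∀ j ∈ C, ρ ≤ |x - p j| ∧ |x - p j| ≤ 3 * π / 2) →
  (N : ℝ) / M * ((1 / C.card : ℝ) * ∑ j ∈ C, (E (L0 - N) (p j)).re / (x - p j))
    - 3 - 32 / (M * ρ ^ 2) ≤ gn N x (gk M L0 C p)

def RealKStmt : Prop := ∀ (C : Finset ℕ) (j0 : ℕ) (e v : ℕ → ℝ) (z : ℕ → ℂ) (η : ℝ), 0 < η →
  η ≤ 1 / 2 → (∀ j, η / 2 ≤ e j ∧ e j ≤ 1 - η / 2) → (∀ j, ‖z j‖ ≤ 1) →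
  (∀ j, j ≠ j0 → ‖z j - sg j0 j‖ ≤ v j) →
  (1 / 2) * ∑ j ∈ C.erase j0, 1 / |(j0 : ℝ) - j| - 2 * ∑ j ∈ C.erase j0, v j / |(j0 : ℝ) - j|
    - 5 / η ≤ ∑ j ∈ C, (z j).re / ((j0 : ℝ) - j + e j)

noncomputable def PP (D : ℕ) (C : Finset ℕ) (j0 : ℕ) : ℝ :=
  (2 ^ D / C.card : ℝ) * ∑ j ∈ C.erase j0, 1 / |(j0 : ℝ) - j|

noncomputable def QQ (D : ℕ) (C : Finset ℕ) (M : ℕ) (s : ℕ → ℝ) (j0 : ℕ) : ℝ :=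
  (2 ^ D / C.card : ℝ) * ∑ j ∈ C.erase j0, dev M (s j) j0 j / |(j0 : ℝ) - j|

def LowRStmt : Prop := ∀ (R D M j0 : ℕ) (C : Finset ℕ) (s : ℕ → ℝ) (η y : ℝ) (t : ℤ), 2 ≤ D →
  2 ^ D ≤ 2 ^ (R + 2) * C.card → (∀ j ∈ C, j < 2 ^ D) → j0 < 2 ^ D → 1 / 2 ^ D ≤ η → η ≤ y →
  y ≤ 1 - η → (∀ j, |s j| ≤ 1 / (8 * ((2 : ℝ) ^ D) ^ 4)) → |t| ≤ ((2 : ℤ) ^ D) ^ 2 →
  PP D C j0 / (4 * π) - (QQ D C M s j0 / 3 + 1 + 4 * 2 ^ R / η) ≤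
    (1 / C.card : ℝ) * ∑ j ∈ C,
      (E (-((2 : ℤ) ^ D * (M + t))) (2 * π * (j + s j) / 2 ^ D)).re /
        (2 * π * (j0 + y) / 2 ^ D - 2 * π * (j + s j) / 2 ^ D)

def LowKStmt : Prop := ∀ (R D M j0 N Rr : ℕ) (L0 : ℤ) (C : Finset ℕ) (s : ℕ → ℝ) (η y : ℝ) (t : ℤ),
  2 ≤ D → 2 ^ D ≤ 2 ^ (R + 2) * C.card → (∀ j ∈ C, 2 ^ D ≤ 4 * j ∧ 2 * j < 2 ^ D) → j0 < 2 ^ D →
  1 / 2 ^ D ≤ η → η ≤ y → y ≤ 1 - η → (∀ j, |s j| ≤ 1 / (8 * ((2 : ℝ) ^ D) ^ 4)) →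
  |t| ≤ ((2 : ℤ) ^ D) ^ 2 → (N : ℤ) = L0 + 2 ^ D * (M + t) → Rr ≤ 4 * N → N ≤ Rr →
  4 * (2 ^ D) ^ 4 ≤ Rr →
  PP D C j0 / 51 - QQ D C M s j0 / 3 - 40 * 2 ^ R / η ≤
    gn N (2 * π * (j0 + y) / 2 ^ D) (gk Rr L0 C fun j => 2 * π * (j + s j) / 2 ^ D)

def PAvgStmt : Prop := ∀ (R D : ℕ) (C : Finset ℕ), 2 ≤ D → 2 ^ D ≤ 2 ^ (R + 2) * C.card →
  (∀ j ∈ C, j < 2 ^ D) →
  (∀ j0 < 2 ^ D, 0 ≤ PP D C j0 ∧ PP D C j0 ≤ 2 ^ (R + 4) * D) ∧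
  (2 : ℝ) ^ D * D / 4 ≤ ∑ j0 ∈ Finset.range (2 ^ D), PP D C j0

def Ex (K D : ℕ) : ℕ := 6 * D + 3 + 8000000 * (K + 1) * (D + 1)

def AtNumStmt : Prop := ∀ (R K D : ℕ) (ω : ℕ × ℕ → ℕ), 1 ≤ R → 4 ≤ D → R * (K + 1) ≤ D →
  (∀ k a, k ≤ D → ω (k, a) < 8000000 * (K + 1) * (D + 1)) →
  (∀ j, MM D (5 * D + 2) ω j + (2 ^ D) ^ 2 ≤ 2 ^ Ex K D) ∧
  (∀ j, 2 ^ (5 * D + 2) ∣ MM D (5 * D + 2) ω j) ∧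
  (∀ j, |ss D (5 * D + 2) ω j| ≤ 1 / (8 * ((2 : ℝ) ^ D) ^ 4)) ∧
  2 * ((2 * (2 ^ D * 2 ^ Ex K D) : ℕ) : ℝ) ≤ Real.exp (16000000 * (D : ℝ) ^ 2 / R)

structure AD where
  g : TP
  L : ℕ → ℤ
  P : ℕ → ℝ
  Q : ℕ → ℝ
  H : ℝ
  Dg : ℕ

def At (R D : ℕ) (a : AD) : Prop :=
  Sup a.g 0 a.Dg ∧ (∀ j, ((2 : ℤ) ^ D) ^ 3 ≤ a.L j ∧ a.L j + ((2 : ℤ) ^ D) ^ 3 ≤ a.Dg) ∧
  (∀ i j, a.L i ≠ a.L j → 2 * ((2 : ℤ) ^ D) ^ 3 ≤ |a.L i - a.L j|) ∧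
  (∀ x, ‖ev x a.g‖ ≤ a.H) ∧ (2 : ℝ) ^ D ≤ a.H ∧
  2 * a.H ≤ Real.exp (16000000 * (D : ℝ) ^ 2 / R) ∧
  LI (fun x => ‖ev x a.g‖) ≤ ENNReal.ofReal (2 * π) ∧
  (∀ j < 2 ^ D, 0 ≤ a.P j ∧ a.P j ≤ 2 ^ (R + 4) * D ∧ 0 ≤ a.Q j) ∧
  (2 : ℝ) ^ D * D / 4 ≤ ∑ j ∈ Finset.range (2 ^ D), a.P j ∧
  ∑ j ∈ Finset.range (2 ^ D), a.Q j ≤ (2 : ℝ) ^ D * D / 5000 ∧
  ∀ (η y : ℝ) (j0 : ℕ) (t : ℤ), 1 / 2 ^ D ≤ η → η ≤ y → y ≤ 1 - η → j0 < 2 ^ D →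
    |t| ≤ ((2 : ℤ) ^ D) ^ 2 →
    a.P j0 / 51 - a.Q j0 / 3 - 40 * 2 ^ R / η ≤
      gn (a.L j0 + 2 ^ D * t) (2 * π * (j0 + y) / 2 ^ D) a.g

def AtomKStmt : Prop := ∀ R K : ℕ, 1 ≤ R → R ≤ K → ∃ a : AD, At R (DD R K) a

/-! ### Nesting -/

def ChiStmt : Prop := ∀ n M : ℕ, 1 ≤ n → 1 ≤ M → ∃ (χ : ℕ → TP) (r : ℕ → ℝ → ℝ),
  (∀ j, Sup (χ j) (-(M : ℤ)) M) ∧ (∀ j x, ev x (χ j) = (r j x : ℂ)) ∧ (∀ j x, 0 ≤ r j x) ∧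
  (∀ x, ∑ j ∈ Finset.range n, r j x = 1) ∧
  ∀ (η y : ℝ) (j0 : ℕ), 0 < η → η ≤ y → y ≤ 1 - η → j0 < n →
    1 - r j0 (2 * π * (j0 + y) / n) ≤ (n : ℝ) ^ 2 / (4 * M * η ^ 2)

noncomputable def nest (c : TP) (χ : ℕ → TP) (L : ℕ → ℤ) (n : ℕ) (w : ℤ) : TP :=
  ∑ j ∈ Finset.range n, ∑ k ∈ c.support, ∑ m ∈ (χ j).support,
    Finsupp.single (L j + w * k + m) (c k * χ j m)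

def Nest1Stmt : Prop := ∀ (c : TP) (χ : ℕ → TP) (r : ℕ → ℝ → ℝ) (L : ℕ → ℤ) (n : ℕ)
  (w Dg M B : ℤ), Sup c 0 Dg → (∀ j, Sup (χ j) (-M) M) → (∀ j x, ev x (χ j) = (r j x : ℂ)) →
  (∀ j x, 0 ≤ r j x) → (∀ x, ∑ j ∈ Finset.range n, r j x = 1) → 0 ≤ w →
  (∀ j, M ≤ L j ∧ L j + w * Dg + M ≤ B) →
  Sup (nest c χ L n w) 0 B ∧ ∀ x, ‖ev x (nest c χ L n w)‖ ≤ ‖ev (w * x) c‖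

def Nest2Stmt : Prop := ∀ (c : TP) (χ : ℕ → TP) (r : ℕ → ℝ → ℝ) (L : ℕ → ℤ) (n j0 : ℕ)
  (w Dg M gp N : ℤ) (x : ℝ), Sup c 0 Dg → (∀ j, Sup (χ j) (-M) M) →
  (∀ j x, ev x (χ j) = (r j x : ℂ)) → (∀ j x, 0 ≤ r j x) →
  (∀ x, ∑ j ∈ Finset.range n, r j x = 1) → 0 ≤ M → M < gp → gp + M < w → 0 ≤ N → N ≤ Dg + 1 →
  j0 < n → (∀ j, L j ≠ L j0 → 2 * (w * (Dg + 2)) ≤ |L j - L j0|) →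
  ‖ps (L j0 + w * N - gp) x (nest c χ L n w) - E (L j0) x * ps N (w * x) c‖
    ≤ 2 * (1 - r j0 x) * nm c

def AlignStmt : Prop := ∀ (x : ℝ) (d : ℤ) (Q : ℕ), 1 ≤ Q →
  ∃ q : ℕ, 1 ≤ q ∧ q ≤ Q ∧ ‖E (q * d) x - 1‖ ≤ 7 / Q

def EmbStmt : Prop := ∀ (c : TP) (Dg : ℕ) (δ η : ℝ), Sup c 0 Dg → 0 < δ → 0 < η →
  ∃ n0 : ℕ, ∀ n : ℕ, n0 ≤ n → ∀ (L : ℕ → ℤ) (B : ℤ),
    (∀ j, (n : ℤ) ^ 3 ≤ L j ∧ L j + (n : ℤ) ^ 3 ≤ B) →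
    (∀ i j, L i ≠ L j → 2 * (n : ℤ) ^ 3 ≤ |L i - L j|) →
    ∃ (F : TP) (p : ℕ), 1 ≤ p ∧ Sup F 0 B ∧ (∀ x : ℝ, ‖ev x F‖ ≤ ‖ev ((n : ℝ) * p * x) c‖) ∧
      ∀ (y : ℝ) (j0 : ℕ) (N : ℤ), η ≤ y → y ≤ 1 - η → j0 < n → 0 ≤ N → N ≤ Dg + 1 →
        ∃ t : ℤ, |t| ≤ (n : ℤ) ^ 2 ∧
          gn N ((n : ℝ) * p * (2 * π * (j0 + y) / n)) c - 2 * δ ≤
            gn (L j0 + n * t) (2 * π * (j0 + y) / n) F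

noncomputable def cl (n : ℕ) (x : ℝ) : ℕ := (⌊x * n / (2 * π)⌋ % (n : ℤ)).toNat

def Ins (n : ℕ) (η : ℝ) : Set ℝ :=
  {x | η ≤ Int.fract (x * n / (2 * π)) ∧ Int.fract (x * n / (2 * π)) ≤ 1 - η}

def CellStmt : Prop := ∀ n : ℕ, 1 ≤ n → Measurable (cl n) ∧ (∀ x, cl n (x + 2 * π) = cl n x) ∧
  (∀ x, cl n x < n) ∧
  (∀ x : ℝ, ∃ m : ℤ, x = 2 * π * (cl n x + Int.fract (x * n / (2 * π))) / n + m * (2 * π)) ∧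
  (∀ (j : ℕ) (x : ℝ), j < n → x ∈ Set.Ico (2 * π * j / n) (2 * π * (j + 1) / n) → cl n x = j) ∧
  ∀ η : ℝ, MeasurableSet (Ins n η) ∧ ∀ x, x + 2 * π ∈ Ins n η ↔ x ∈ Ins n η

def IndAStmt : Prop := ∀ W : ℝ → ENNReal, Measurable W → Function.Periodic W (2 * π) →
  ∀ (w a : ℝ) (p : ℕ), 0 < w →
    ∫⁻ x in Set.Ico a (a + p * (2 * π) / w), W (w * x)
      = ENNReal.ofReal (p / w) * ∫⁻ x in Set.Ioc 0 (2 * π), W x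

def IndStmt : Prop := ∀ (n p : ℕ) (W : ℝ → ENNReal) (z : ℕ → ℝ), 1 ≤ n → 1 ≤ p → Measurable W →
  Function.Periodic W (2 * π) → (∀ j < n, 0 ≤ z j) →
  ∫⁻ x in Set.Ioc 0 (2 * π), W ((n : ℝ) * p * x) * ENNReal.ofReal (z (cl n x))
    = (∫⁻ x in Set.Ioc 0 (2 * π), W x) * ENNReal.ofReal ((∑ j ∈ Finset.range n, z j) / n)

def CellVStmt : Prop := ∀ (n : ℕ) (η : ℝ), 1 ≤ n → 0 ≤ η →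
  volume ((Ins n η)ᶜ ∩ Set.Ioc 0 (2 * π)) ≤ ENNReal.ofReal (4 * π * η)

def LevAStmt : Prop := ∀ (n p : ℕ) (Y : ℝ → ℝ) (Z : ℕ → ℝ) (ρ μ : ℝ), 1 ≤ n → 1 ≤ p →
  Measurable Y → Function.Periodic Y (2 * π) → (∀ j < n, 0 ≤ Z j ∧ Z j ≤ 1) →
  n * μ ≤ ∑ j ∈ Finset.range n, Z j → 0 ≤ ρ →
  LI (fun x => Real.exp (-Y x)) ≤ ENNReal.ofReal ρ →
  LI (fun x => Real.exp (-(Y ((n : ℝ) * p * x) + Z (cl n x)))) ≤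
    ENNReal.ofReal (ρ * Real.exp (-(μ / 2)))

def LevBStmt : Prop := ∀ (n p : ℕ) (Er : ℝ → ℝ) (q : ℕ → ℝ) (e qb β γ η : ℝ), 1 ≤ n → 1 ≤ p →
  Measurable Er → Function.Periodic Er (2 * π) → (∀ x, 0 ≤ Er x) → (∀ j < n, 0 ≤ q j) →
  ∑ j ∈ Finset.range n, q j ≤ n * qb → 0 ≤ e → 0 ≤ β → 0 ≤ γ → 0 ≤ η →
  LI Er ≤ ENNReal.ofReal e →
  LI (fun x => Er ((n : ℝ) * p * x) + q (cl n x) + β + γ * (Ins n η)ᶜ.indicator 1 x) ≤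
    ENNReal.ofReal (e + 2 * π * qb + 2 * π * β + γ * (4 * π * η))

def Cost (V : ℝ) (c : TP) (h : ℝ → ℝ) : Prop :=
  ∀ u x : ℝ, 0 ≤ u → u ≤ V → Ph (u + ‖ev x c‖) ≤ Ph u + h x

def LevCStmt : Prop := ∀ (n p : ℕ) (c F g : TP) (h : ℝ → ℝ) (V κ H a Lg : ℝ), 1 ≤ n → 1 ≤ p →
  Measurable h → Function.Periodic h (2 * π) → (∀ x, 0 ≤ h x) → 0 ≤ κ →
  LI h ≤ ENNReal.ofReal κ → Cost V c h → (∀ x : ℝ, ‖ev x F‖ ≤ ‖ev ((n : ℝ) * p * x) c‖) →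
  (∀ x, ‖ev x g‖ ≤ H) → LI (fun x => ‖ev x g‖) ≤ ENNReal.ofReal (2 * π) → 0 ≤ a → a ≤ 1 →
  3 + V + nm c ≤ H → √(Real.log (2 * H)) ≤ Lg →
  LI (fun x => h ((n : ℝ) * p * x) + a * (Lg + 1) * ‖ev x g‖) ≤
    ENNReal.ofReal (κ + a * (Lg + 1) * (2 * π)) ∧
  Cost V (F + (a : ℂ) • g) fun x => h ((n : ℝ) * p * x) + a * (Lg + 1) * ‖ev x g‖

structure Dat where
  c : TP
  Dg : ℕ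
  Y : ℝ → ℝ
  Er : ℝ → ℝ
  h : ℝ → ℝ

def Reg (W : ℝ → ℝ) : Prop := Measurable W ∧ Function.Periodic W (2 * π) ∧ ∀ x, 0 ≤ W x

def Gain (d : Dat) : Prop :=
  ∀ x : ℝ, ∃ N : ℤ, 0 ≤ N ∧ N ≤ d.Dg + 1 ∧ d.Y x - d.Er x ≤ gn N x d.c

def Inv (V : ℝ) (l : ℕ) (ρ e κ : ℝ) (d : Dat) : Prop :=
  Sup d.c 0 d.Dg ∧ Reg d.Y ∧ Reg d.Er ∧ Reg d.h ∧ (∀ x, d.Y x ≤ l) ∧
  LI (fun x => Real.exp (-d.Y x)) ≤ ENNReal.ofReal ρ ∧ LI d.Er ≤ ENNReal.ofReal e ∧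
  LI d.h ≤ ENNReal.ofReal κ ∧ Cost V d.c d.h ∧ Gain d

def LevGStmt : Prop := ∀ (d : Dat) (a : AD) (F : TP) (h' : ℝ → ℝ) (R D p l : ℕ) (al δ η : ℝ),
  Gain d → (∀ x, d.Y x ≤ l) → (∀ x, 0 ≤ d.Er x) → At R D a → Sup F 0 a.Dg → 0 ≤ al → 0 ≤ δ →
  1 / 2 ^ D ≤ η → al * (40 * 2 ^ R / η) ≤ δ → (∀ j < 2 ^ D, al * a.P j / 51 ≤ 1) →
  (∀ (y : ℝ) (j0 : ℕ) (N : ℤ), η ≤ y → y ≤ 1 - η → j0 < 2 ^ D → 0 ≤ N → N ≤ d.Dg + 1 →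
    ∃ t : ℤ, |t| ≤ ((2 ^ D : ℕ) : ℤ) ^ 2 ∧
      gn N (((2 ^ D : ℕ) : ℝ) * p * (2 * π * (j0 + y) / (2 ^ D : ℕ))) d.c - 2 * δ ≤
        gn (a.L j0 + (2 ^ D : ℕ) * t) (2 * π * (j0 + y) / (2 ^ D : ℕ)) F) →
  Gain ⟨F + (al : ℂ) • a.g, a.Dg,
    fun x => d.Y (((2 ^ D : ℕ) : ℝ) * p * x) + al * a.P (cl (2 ^ D) x) / 51,
    fun x => d.Er (((2 ^ D : ℕ) : ℝ) * p * x) + al * a.Q (cl (2 ^ D) x) / 3 + 3 * δ +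
      ((l : ℝ) + 1) * (Ins (2 ^ D) η)ᶜ.indicator 1 x, h'⟩

def LevelStmt : Prop := ∀ (V ρ e κ : ℝ) (R l : ℕ) (d : Dat), 0 ≤ V → 0 ≤ ρ → 0 ≤ e → 0 ≤ κ →
  1 ≤ R → Inv V l ρ e κ d →
  ∃ d' : Dat, Inv V (l + 1) (ρ * Real.exp (-((1 / 2) ^ R / 408))) (e + (1 / 2) ^ R / 500)
    (κ + 26000 * (1 / 2) ^ R / √(R : ℝ)) d'

def IterStmt : Prop := ∀ (V : ℝ) (R l : ℕ), 0 ≤ V → 1 ≤ R →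
  ∃ d : Dat, Inv V l (2 * π * Real.exp (-(l * (1 / 2) ^ R / 408))) (l * (1 / 2) ^ R / 500)
    (l * (26000 * (1 / 2) ^ R / √(R : ℝ))) d

def MarkStmt : Prop := ∀ (Y Er : ℝ → ℝ) (T e : ℝ), Measurable Y → Measurable Er →
  (∀ x, 0 ≤ Er x) → 1 ≤ T → e ≤ 41 / 25 * T →
  LI (fun x => Real.exp (-Y x)) ≤ ENNReal.ofReal (2 * π * Real.exp (-(2 * T))) →
  LI Er ≤ ENNReal.ofReal e →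
  ENNReal.ofReal (π / 8) ≤ volume ({x | T / 2 ≤ Y x - Er x} ∩ Set.Ioc 0 (2 * π))

/-! ### The series -/

structure Blk where
  c : TP
  Dg : ℕ
  h : ℝ → ℝ
  A : Set ℝ

def Bk (V κ G : ℝ) (b : Blk) : Prop :=
  Sup b.c 0 b.Dg ∧ Reg b.h ∧ LI b.h ≤ ENNReal.ofReal κ ∧ Cost V b.c b.h ∧ MeasurableSet b.A ∧
  (∀ x, x + 2 * π ∈ b.A ↔ x ∈ b.A) ∧ ENNReal.ofReal (π / 8) ≤ volume (b.A ∩ Set.Ioc 0 (2 * π)) ∧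
  ∀ x ∈ b.A, ∃ N : ℤ, 0 ≤ N ∧ N ≤ b.Dg + 1 ∧ G ≤ ‖ps N x b.c‖

def SupStmt : Prop := ∀ V κ G : ℝ, 0 ≤ V → 0 < κ → ∃ b : Blk, Bk V κ G b

def Ch (b : ℕ → Blk) : Prop :=
  ∀ r : ℕ, Bk (∑ s ∈ Finset.range r, nm (b s).c) ((1 / 2) ^ r) r (b r)

def SeqKStmt : Prop := ∃ b : ℕ → Blk, Ch b

def Gam (b : ℕ → Blk) (r : ℕ) : ℕ := ∑ s ∈ Finset.range r, ((b s).Dg + 1)

noncomputable def fz (b : ℕ → Blk) (τ : ℕ → ℝ) (r : ℕ) (x : ℝ) : ℂ :=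
  E (Gam b r) x * ev (x - τ r) (b r).c

noncomputable def FF (b : ℕ → Blk) (τ : ℕ → ℝ) (x : ℝ) : ℂ := ∑' r, fz b τ r x

def SPolyStmt : Prop := ∀ (c : TP) (Dg Γ : ℤ) (τ x : ℝ) (N : ℕ), Sup c 0 Dg → 0 ≤ Γ →
  S (fun y => E Γ y * ev (y - τ) c) N x = E Γ x * ps ((N : ℤ) + 1 - Γ) (x - τ) c

def H2Stmt : Prop := ∀ (b : ℕ → Blk) (τ : ℕ → ℝ), Ch b →
  Function.Periodic (FF b τ) (2 * π) ∧ IntervalIntegrable (FF b τ) volume 0 (2 * π) ∧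
  ∀ k : ℤ, HasSum (fun r => coef (fz b τ r) k) (coef (FF b τ) k)

def H3Stmt : Prop := ∀ (b : ℕ → Blk) (τ : ℕ → ℝ), Ch b → ∀ x : ℝ,
  (∃ᶠ r in atTop, x - τ r ∈ (b r).A) → ¬ BddAbove (Set.range fun N : ℕ => ‖S (FF b τ) N x‖)

def H4Stmt : Prop := ∀ (b : ℕ → Blk) (τ : ℕ → ℝ), Ch b → LI (fun x => Ph ‖FF b τ x‖) < ⊤

end Vale.Agent.P091K
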